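import Vale.Agent.P032.H429.Types

/-!
# P032: the colours near a point in the directions near a given one, second part

`tau_closed` : as sets of times the colours of `tau` are closed; `tau_nappes` : the two sides of a
cut pair; `tau_not_both`, `tau_same_side`, `tau_ip_ne`, `tau_sep` : sectors with one colour;
`tau_move` : the rule at an event.
-/

open Set Filter Topology Metric

noncomputable section

namespace Vale.Agent.P032.Six

variable {k : ℕ} {U : Fin k → Set ℂ} {T : ℂ → Set (Fin k)}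

/-- the times at which a colour occurs in the sector about `m * cis s` form a closed set -/
theorem tau_closed (T : ℂ → Set (Fin k)) (z m : ℂ) (i : Fin k) :
    IsClosed {s : ℝ | i ∈ tau T z (m * cis s)} := by
  rw [← isOpen_compl_iff, isOpen_iff_mem_nhds]
  intro s hs
  have h1 := tau_semi T z (m * cis s)
  have h2 : Tendsto (fun t : ℝ => t - s) (𝓝 s) (𝓝 0) := by
    have hc : Continuous fun t : ℝ => t - s := by fun_prop
    have := hc.tendsto s
    rwa [sub_self] at this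
  filter_upwards [h2.eventually h1] with t ht hi
  refine hs (ht ?_)
  have e : m * cis s * cis (t - s) = m * cis t := by
    rw [mul_assoc]
    congr 1
    unfold cis
    rw [← Complex.exp_add]
    congr 1
    push_cast
    ring
  rw [e]
  exact hi

/-- a pair of colours of `z` at one point of `S(z)` is carried by an arc -/
theorem Irr.arc_of_pair429 (h : Irr U T) {z q : ℂ} {a b : Fin k} (ha : a ∈ T z) (hb : b ∈ T z)
    (hq : dist q z = 1) (hT : T q = {a, b}) : Arc T z q {a, b} := by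
  refine ⟨hq, ?_⟩
  filter_upwards [mem_nhdsWithin_of_mem_nhds (h.nhd q), self_mem_nhdsWithin] with p h1 h2
  rw [hT] at h1
  exact h.pair_of_sub h2 (h.sub z ha) (h.sub z hb) h1

/-- **(T3)** the sectors perpendicular to a cut pair have different types -/
theorem Irr.tau_nappes (h : Irr U T)
    (hmin : ∀ z, 4 ≤ (T z).ncard → ∀ s, s ⊆ T z → s ≠ T z →
      ¬ ∀ᶠ w in 𝓝 z, ∃ i ∈ s, w ∈ U i ∨ (w ∈ XX U ∧ i ∈ Pal U w)) {z q : ℂ} {a b : Fin k}
    {X Y : Set (Fin k)} (h4 : 4 ≤ (T z).ncard) (hab : a ≠ b) (hz : T z = {a, b} ∪ (X ∪ Y))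
    (haX : a ∉ X) (hbX : b ∉ X) (haY : a ∉ Y) (hbY : b ∉ Y) (hX : X.Nonempty) (hY : Y.Nonempty)
    (hXY : Disjoint X Y) (hX2 : X.ncard ≤ 2)
    (hbr : ∀ x ∈ X, ∀ y ∈ Y, ∃ q, dist q z = 1 ∧ T q = {x, y}) (hq : dist q z = 1)
    (hT : T q = {a, b}) :
    (tau T z (Complex.I * (q - z)) ⊆ X ∧ tau T z (-(Complex.I * (q - z))) ⊆ Y) ∨
      (tau T z (Complex.I * (q - z)) ⊆ Y ∧ tau T z (-(Complex.I * (q - z))) ⊆ X) := by
  have haz : a ∈ T z := by rw [hz]; exact Or.inl (Or.inl rfl)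
  have hbz : b ∈ T z := by rw [hz]; exact Or.inl (Or.inr rfl)
  have harc := h.arc_of_pair429 haz hbz hq hT
  have ca := harc.car h (i := a) (by simp)
  have cb := harc.car h (i := b) (by simp)
  have key : ∀ m, (m = Complex.I * (q - z) ∨ m = -(Complex.I * (q - z))) →
      tau T z m ⊆ X ∨ tau T z m ⊆ Y := by
    intro m hm
    refine h.tau_conn hmin hXY (fun i hi => ?_) hX2 hbr
    have h1 := h.tau_sub z m hi
    rw [hz] at h1
    rcases h1 with (h1 | h1) | h1
    · rw [h1] at hi; exact absurd hi (h.tau_avoid ca hm)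
    · rw [mem_singleton_iff] at h1; rw [h1] at hi; exact absurd hi (h.tau_avoid cb hm)
    · exact h1
  have hcon : ∀ m : ℂ, ∀ A B : Set (Fin k), Disjoint A B → tau T z m ⊆ A →
      (∀ᶠ t : ℝ in 𝓝[>] 0, T (z + t * m) ⊆ B) → False := by
    intro m A B hd h1 h2
    obtain ⟨t, h3, h4⟩ := ((ray_of_nap (tau_le_iff.1 h1)).and h2).exists
    obtain ⟨i, hi⟩ := h.ne (z + t * m)
    exact Set.disjoint_left.1 hd (h3 hi) (h4 hi)
  rcases h.nappes555 hmin h4 hab hz haX hbX haY hbY hX hY hXY hX2 hbr hq hT with h1 | h1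
  · refine Or.inl ⟨(key _ (Or.inl rfl)).resolve_right fun h2 => ?_,
      (key _ (Or.inr rfl)).resolve_left fun h2 => ?_⟩
    · exact hcon _ Y X hXY.symm h2 (h1.mono fun _ ht => ht.1)
    · exact hcon _ X Y hXY h2 (h1.mono fun _ ht => ht.2)
  · refine Or.inr ⟨(key _ (Or.inl rfl)).resolve_left fun h2 => ?_,
      (key _ (Or.inr rfl)).resolve_right fun h2 => ?_⟩
    · exact hcon _ X Y hXY h2 (h1.mono fun _ ht => ht.1)
    · exact hcon _ Y X hXY.symm h2 (h1.mono fun _ ht => ht.2)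

/-- a sector with one colour contains a solid ray -/
theorem Irr.ray_of_tau (h : Irr U T) {z m : ℂ} {i : Fin k} (hi : tau T z m ⊆ {i}) :
    Ray (U i) z m :=
  (ray_of_nap (tau_le_iff.1 hi)).mono fun _ ht => h.mem_of_single ht

/-- **(T4)** -/
theorem Irr.tau_not_both (h : Irr U T) {z m y : ℂ} {i : Fin k} (h1 : tau T z m ⊆ {i})
    (h2 : tau T z (-m) ⊆ {i}) (hy : dist z y = 1) (hi : i ∈ Pal U y) (hip : ip m (y - z) ≠ 0) :
    False :=
  h.mx.not_both_rays (h.ray_of_tau h1) (h.ray_of_tau h2) hy hi hip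

/-- **(T4)** with a colour carried by an arc -/
theorem Irr.tau_not_both_arc (h : Irr U T) {z m g : ℂ} {i : Fin k} {P : Set (Fin k)}
    (hm0 : ‖m‖ = 1) (h1 : tau T z m ⊆ {i}) (h2 : tau T z (-m) ⊆ {i}) (hg : Arc T z g P)
    (hi : i ∈ P) : False := by
  -- a point of the arc off the line perpendicular to `m`
  obtain ⟨q, hq, hq1, hq2⟩ := hg.exists_off_line (y := z + Complex.I * m)
  have hd : dist (z + Complex.I * m) z = 1 := by
    rw [dist_eq_norm, add_sub_cancel_left, norm_mul, Complex.norm_I, hm0, one_mul]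
  have h3 := cr_ne_of hd hq.1 (Ne.symm hq1) (by rw [add_comm]; exact hq2)
  rw [add_sub_cancel_left] at h3
  refine h.tau_not_both h1 h2 (y := q) (by rw [dist_comm]; exact hq.1)
    (h.sub q (by rw [hq.mem]; exact hi)) fun h4 => h3 ?_
  have e : cr (Complex.I * m) (q - z) = -ip m (q - z) := by
    unfold cr ip
    simp
    ring
  rw [e, h4, neg_zero]

/-- **(T5)** two solid sectors of the same colour `p` are not strictly on different sides of the
direction of a point of `S(z)` with `p` -/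
theorem Irr.tau_same_side (h : Irr U T) {z y m1 m2 : ℂ} {p : Fin k} (h1 : tau T z m1 ⊆ {p})
    (h2 : tau T z m2 ⊆ {p}) (hy : dist y z = 1) (hp : p ∈ T y) (hs1 : 0 < ip m1 (y - z))
    (hs2 : ip m2 (y - z) < 0) : False := by
  have e1 := h.mx.far (h.ray_of_tau h1) hy hs1
  have e2 := h.mx.near (h.ray_of_tau h2) hy hs2
  obtain ⟨N, hN, hNo, hVN⟩ := _root_.mem_nhds_iff.1 (e1.and e2)
  obtain ⟨w, hwT, hwN⟩ := ((h.pure y p hp).and_eventually (hNo.mem_nhds hVN)).exists
  have hwU : w ∈ U p := h.mem_of_single (by rw [hwT])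
  obtain ⟨g, ⟨hgU, hgN⟩, hgz⟩ := exists_off (h.mx.isOpen p) (z := z) (subset_closure hwU)
    (hNo.mem_nhds hwN)
  rcases lt_or_gt_of_ne hgz with h3 | h3
  · exact (hN hgN).2 h3 (subset_closure hgU)
  · exact (hN hgN).1 h3 (subset_closure hgU)

/-- **(T6)** a solid sector of a colour of an arc is not perpendicular to the arc -/
theorem Irr.tau_ip_ne (h : Irr U T) {z g m : ℂ} {P : Set (Fin k)} {a : Fin k}
    (hg : Arc T z g P) (ha : a ∈ P) (hm0 : m ≠ 0) (hm : tau T z m ⊆ {a}) :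
    ip m (g - z) ≠ 0 :=
  h.ip_ne326 hg ha hm0 (h.ray_of_tau hm)

/-- **(T6)** solid sectors of `a` and `b` are strictly on different sides of an exact `ab`-arc -/
theorem Irr.tau_sep (h : Irr U T) {z g m m' : ℂ} {a b : Fin k} (hg : Arc T z g {a, b})
    (hm0 : m ≠ 0) (hm0' : m' ≠ 0) (hm : tau T z m ⊆ {a}) (hm' : tau T z m' ⊆ {b}) :
    (0 < ip m (g - z) ∧ ip m' (g - z) < 0 ∧ Sd U z g a b ∧ Sd U g z a b) ∨
      (ip m (g - z) < 0 ∧ 0 < ip m' (g - z) ∧ Sd U z g b a ∧ Sd U g z b a) :=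
  h.sep326 hg hm0 hm0' (h.ray_of_tau hm) (h.ray_of_tau hm')

/-- `S(z)` has the palette `P` just before `t0` -/
def Bef (T : ℂ → Set (Fin k)) (z : ℂ) (t0 : ℝ) (P : Set (Fin k)) : Prop :=
  ∀ᶠ t : ℝ in 𝓝[<] t0, T (z + cis t) = P

/-- `S(z)` has the palette `P` just after `t0` -/
def Aft (T : ℂ → Set (Fin k)) (z : ℂ) (t0 : ℝ) (P : Set (Fin k)) : Prop :=
  ∀ᶠ t : ℝ in 𝓝[>] t0, T (z + cis t) = P

/-- a colour before and after an event is carried by `S(z)` at the event -/
theorem Irr.car_of_bef_aft (h : Irr U T) {z : ℂ} {t0 : ℝ} {P P' : Set (Fin k)}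
    (h1 : Bef T z t0 P) (h2 : Aft T z t0 P') {i : Fin k} (hi : i ∈ P) (hi' : i ∈ P') :
    ∃ η > 0, ∀ t : ℝ, |t - t0| < η → i ∈ Pal U (z + cis t) := by
  have h3 : ∀ᶠ t : ℝ in 𝓝[≠] t0, i ∈ T (z + cis t) := by
    rw [← nhdsLT_sup_nhdsGT]
    refine eventually_sup.2 ⟨?_, ?_⟩
    · filter_upwards [h1] with t ht
      rw [ht]; exact hi
    · filter_upwards [h2] with t ht
      rw [ht]; exact hi'
  have hcl : IsClosed {t : ℝ | i ∈ T (z + cis t)} :=
    (h.closed i).preimage (continuous_const.add continuous_cis)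
  have h4 : i ∈ T (z + cis t0) := by
    have h5 : t0 ∈ closure {t : ℝ | i ∈ T (z + cis t)} := by
      rw [mem_closure_iff_frequently]
      exact (h3.frequently).filter_mono nhdsWithin_le_nhds
    rwa [hcl.closure_eq] at h5
  obtain ⟨η, hη, h6⟩ := Metric.mem_nhds_iff.1 (mem_nhdsWithin_iff_exists_mem_nhds_inter.1 h3
    |>.choose_spec.1)
  refine ⟨η, hη, fun t ht => h.sub _ ?_⟩
  by_cases hne : t = t0
  · rw [hne]; exact h4
  · exact (mem_nhdsWithin_iff_exists_mem_nhds_inter.1 h3).choose_spec.2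
      ⟨h6 (by rw [mem_ball, Real.dist_eq]; exact ht), hne⟩

end Vale.Agent.P032.Six
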