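import Vale.Agent.P032.H201.Collar
import Vale.Agent.P032.H326.Rays5
import Vale.Agent.P032.H429.Types2

/-!
# P032: one-sided colours from one solid ray

`Irr.half429`: one solid ray of `a` at `z` makes the colour `b` strictly one-sided at `z` for every
exact `ab`-arc of `S(z)`; `dir_of_side`: the same for the types `tau`.
-/

open Set Filter Topology Metric

noncomputable section

namespace Vale.Agent.P032.Six

variable {k : ℕ} {U : Fin k → Set ℂ} {T : ℂ → Set (Fin k)}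

/-- next to `z + cis θ` the inside of `S(z)` has the palette `{a}` -/
def InnC (T : ℂ → Set (Fin k)) (z : ℂ) (θ : ℝ) (a : Fin k) : Prop :=
  ∃ δ > 0, δ ≤ 1 ∧ ∀ ρ t : ℝ, 1 - δ < ρ → ρ < 1 → |t - θ| < δ → T (z + ρ * cis t) = {a}

/-- next to `z + cis θ` the outside of `S(z)` has the palette `{a}` -/
def OutC (T : ℂ → Set (Fin k)) (z : ℂ) (θ : ℝ) (a : Fin k) : Prop :=
  ∃ δ > 0, δ ≤ 1 ∧ ∀ ρ t : ℝ, 1 < ρ → ρ < 1 + δ → |t - θ| < δ → T (z + ρ * cis t) = {a}

/-- the colour `i` is near `z` strictly on the side of `u` -/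
def Side429 (U : Fin k → Set ℂ) (z u : ℂ) (i : Fin k) : Prop :=
  ∃ ε > 0, ∀ᶠ w in 𝓝 z, i ∈ Pal U w → ε * ‖w - z‖ ≤ ip (w - z) u

theorem collar_iff429 {z : ℂ} {θ : ℝ} {a b : Fin k} :
    Collar T z θ a b ↔ InnC T z θ a ∧ OutC T z θ b := by
  constructor
  · rintro ⟨δ, h1, h2, h3, h4⟩
    exact ⟨⟨δ, h1, h2, h3⟩, ⟨δ, h1, h2, h4⟩⟩
  · rintro ⟨⟨δ, h1, h2, h3⟩, ⟨δ', h1', h2', h3'⟩⟩
    refine ⟨min δ δ', lt_min h1 h1', (min_le_left _ _).trans h2, fun ρ t h4 h5 h6 => ?_,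
      fun ρ t h4 h5 h6 => ?_⟩
    · exact h3 ρ t (by linarith [min_le_left δ δ']) h5 (lt_of_lt_of_le h6 (min_le_left _ _))
    · exact h3' ρ t h4 (by linarith [min_le_right δ δ']) (lt_of_lt_of_le h6 (min_le_right _ _))

theorem exists_move429 (z : ℂ) {η : ℝ} (hη0 : 0 < η) (t : ℝ) : ∀ᶠ w in 𝓝 z, ∃ ρ s : ℝ,
    |ρ - 1| < η ∧ |s - t| < η ∧ w + cis t = z + ρ * cis s := by
  have hc : Tendsto (fun w : ℂ => w + cis t) (𝓝 z) (𝓝 (z + cis t)) :=
    (continuous_id.add continuous_const).tendsto z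
  exact hc.eventually (polar_near (z := z) (θ := t) hη0)

/-- from two directions to a cone -/
theorem cone429 {z : ℂ} {θ η : ℝ} (hη0 : 0 < η) (hη1 : η ≤ 1 / 2) {p : ℂ → Prop}
    {σ : ℝ}
    (h1 : ∀ᶠ w in 𝓝 z, p w → -(‖w - z‖ ^ 2 / 2) ≤ σ * ip (w - z) (cis (θ + η)))
    (h2 : ∀ᶠ w in 𝓝 z, p w → -(‖w - z‖ ^ 2 / 2) ≤ σ * ip (w - z) (cis (θ + -η)))
    (hσ : σ = 1 ∨ σ = -1) :
    ∃ ε > 0, ∀ᶠ w in 𝓝 z, p w → ε * ‖w - z‖ ≤ σ * ip (w - z) (cis θ) := by
  have hs0 : 0 < Real.sin η := Real.sin_pos_of_pos_of_lt_pi hη0 (by linarith [Real.pi_gt_three])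
  have hs1 : Real.sin η ≤ 1 / 2 := (Real.sin_le hη0.le).trans hη1
  have hc1 : Real.cos η ≤ 1 := Real.cos_le_one η
  have hc0 : 7 / 8 ≤ Real.cos η := by
    have := Real.one_sub_sq_div_two_le_cos (x := η)
    nlinarith
  have hD : ∀ᶠ w in 𝓝 z, ‖w - z‖ ≤ Real.sin η := by
    filter_upwards [Metric.closedBall_mem_nhds z hs0] with w hw
    rwa [mem_closedBall, dist_eq_norm] at hw
  refine ⟨Real.sin η / 4, by positivity, ?_⟩
  filter_upwards [hD, h1, h2] with w h3 h4 h5 hp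
  have h4' := h4 hp
  have h5' := h5 hp
  rw [ip_cis_add201] at h4' h5'
  rw [Real.cos_neg, Real.sin_neg] at h5'
  have hXY := norm_sq_ip201 (w - z) θ
  refine cone_ineq201 (c := Real.cos η) (X := σ * ip (w - z) (cis θ))
    (Y := σ * ip (w - z) (Complex.I * cis θ)) hs0
      (by linarith) hs1 hc1 (norm_nonneg _) h3 ?_ ?_ ?_
  · rw [hXY]
    have : σ ^ 2 = 1 := by rcases hσ with rfl | rfl <;> norm_num
    linear_combination (-(ip (w - z) (cis θ) ^ 2 + ip (w - z) (Complex.I * cis θ) ^ 2)) * this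
  · linarith
  · linarith

theorem Irr.innC_side (h : Irr U T) {z : ℂ} {θ : ℝ} {a : Fin k} (hC : InnC T z θ a) :
    Side429 U z (cis θ) a := by
  obtain ⟨δ, hδ, hδ1, hin⟩ := hC
  set η := δ / 2 with hη
  have hη0 : 0 < η := by positivity
  have hη1 : η ≤ 1 / 2 := by rw [hη]; linarith
  have hat : ∀ t : ℝ, |t - θ| ≤ η → ∀ᶠ w in 𝓝 z,
      a ∈ Pal U w → -(‖w - z‖ ^ 2 / 2) ≤ 1 * ip (w - z) (cis t) := by
    intro t ht
    filter_upwards [exists_move429 z hη0 t] with w hw ha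
    obtain ⟨ρ, s, hρ, hs, he⟩ := hw
    have hρ' := abs_lt.1 hρ
    have hsθ : |s - θ| < δ := by
      have := abs_sub_le s t θ
      linarith
    have hρ0 : 0 < ρ := by linarith
    have hd := dist_sq_cis201 z w t
    rw [he, dist_polar201 z hρ0] at hd
    have hw1 : dist (w + cis t) w = 1 := dist_add_cis w t
    by_contra hcon
    push Not at hcon
    have hρ1 : ρ < 1 := by
      by_contra h2
      push Not at h2
      nlinarith
    have h3 := hin ρ s (by linarith) hρ1 hsθ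
    rw [← he] at h3
    exact h.mx.notMem' (h.mem_of_single h3.subset) hw1 ha
  obtain ⟨ε, hε, h1⟩ := cone429 hη0 hη1 (hat (θ + η) (by rw [add_sub_cancel_left, abs_of_pos hη0]))
    (hat (θ + -η) (by rw [add_sub_cancel_left, abs_neg, abs_of_pos hη0])) (Or.inl rfl)
  refine ⟨ε, hε, ?_⟩
  filter_upwards [h1] with w hw ha
  have := hw ha
  linarith

theorem Irr.outC_side (h : Irr U T) {z : ℂ} {θ : ℝ} {b : Fin k} (hC : OutC T z θ b) :
    Side429 U z (-cis θ) b := by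
  obtain ⟨δ, hδ, hδ1, hout⟩ := hC
  set η := δ / 2 with hη
  have hη0 : 0 < η := by positivity
  have hη1 : η ≤ 1 / 2 := by rw [hη]; linarith
  have hat : ∀ t : ℝ, |t - θ| ≤ η → ∀ᶠ w in 𝓝 z,
      b ∈ Pal U w → -(‖w - z‖ ^ 2 / 2) ≤ -1 * ip (w - z) (cis t) := by
    intro t ht
    filter_upwards [exists_move429 z hη0 t] with w hw hb
    obtain ⟨ρ, s, hρ, hs, he⟩ := hw
    have hρ' := abs_lt.1 hρ
    have hsθ : |s - θ| < δ := by
      have := abs_sub_le s t θ
      linarith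
    have hρ0 : 0 < ρ := by linarith
    have hd := dist_sq_cis201 z w t
    rw [he, dist_polar201 z hρ0] at hd
    have hw1 : dist (w + cis t) w = 1 := dist_add_cis w t
    by_contra hcon
    push Not at hcon
    have hρ1 : 1 < ρ := by
      by_contra h2
      push Not at h2
      nlinarith [sq_nonneg ‖w - z‖]
    have h3 := hout ρ s hρ1 (by linarith) hsθ
    rw [← he] at h3
    exact h.mx.notMem' (h.mem_of_single h3.subset) hw1 hb
  obtain ⟨ε, hε, h1⟩ := cone429 hη0 hη1 (hat (θ + η) (by rw [add_sub_cancel_left, abs_of_pos hη0]))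
    (hat (θ + -η) (by rw [add_sub_cancel_left, abs_neg, abs_of_pos hη0])) (Or.inr rfl)
  refine ⟨ε, hε, ?_⟩
  filter_upwards [h1] with w hw hb
  have := hw hb
  rw [ip_neg_right201]
  linarith

/-- a property near `z + cis θ` in polar coordinates -/
theorem polar_of_nhds429 {z : ℂ} {θ : ℝ} {p : ℂ → Prop} (hp : ∀ᶠ x in 𝓝 (z + cis θ), p x) :
    ∃ δ > 0, δ ≤ 1 ∧ ∀ ρ t : ℝ, |ρ - 1| < δ → |t - θ| < δ → p (z + ρ * cis t) := by
  have hf : Continuous fun x : ℝ × ℝ => z + (x.1 : ℂ) * cis x.2 :=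
    continuous_const.add ((Complex.continuous_ofReal.comp continuous_fst).mul
      (continuous_cis.comp continuous_snd))
  have h1 : ∀ᶠ x in 𝓝 ((1 : ℝ), θ), p (z + (x.1 : ℂ) * cis x.2) := by
    refine hf.continuousAt.eventually ?_
    simpa using hp
  obtain ⟨δ0, hδ0, hball⟩ := Metric.eventually_nhds_iff.1 h1
  refine ⟨min δ0 1, lt_min hδ0 one_pos, min_le_right _ _, fun ρ t h2 h3 => ?_⟩
  refine hball (y := (ρ, t)) ?_
  rw [Prod.dist_eq]
  exact max_lt (by rw [Real.dist_eq]; exact lt_of_lt_of_le h2 (min_le_left _ _))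
    (by rw [Real.dist_eq]; exact lt_of_lt_of_le h3 (min_le_left _ _))

/-- one colour left -/
theorem Irr.single429 (h : Irr U T) {a b : Fin k} {x : ℂ} (h1 : T x ⊆ {a, b})
    (h2 : a ∉ Pal U x) : T x = {b} := by
  have hsub : T x ⊆ {b} := by
    intro i hi
    rcases h1 hi with h5 | h5
    · rw [h5] at hi
      exact absurd (h.sub x hi) h2
    · exact h5
  obtain ⟨j, hj⟩ := h.ne x
  refine Subset.antisymm hsub ?_
  rintro i hi
  rw [mem_singleton_iff] at hi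
  have h6 := hsub hj
  rw [mem_singleton_iff] at h6
  rw [hi, ← h6]
  exact hj

/-- **(W1)** one solid ray of `a` towards an `ab`-point: outside there is only `b` -/
theorem Irr.outC_of_ray (h : Irr U T) {z m : ℂ} {θ : ℝ} {a b : Fin k}
    (hT : T (z + cis θ) = {a, b}) (hm : Ray (U a) z m) (hip : 0 < ip m (cis θ)) :
    OutC T z θ b := by
  have hd : dist (z + cis θ) z = 1 := dist_add_cis z θ
  have hip' : 0 < ip m (z + cis θ - z) := by rwa [add_sub_cancel_left]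
  have h1 := h.nhd (z + cis θ)
  rw [hT] at h1
  obtain ⟨δ, h2, h3, h4⟩ := polar_of_nhds429 (h1.and (h.mx.far hm hd hip'))
  refine ⟨δ, h2, h3, fun ρ t h5 h6 h7 => ?_⟩
  obtain ⟨h8, h9⟩ := h4 ρ t (by rw [abs_of_pos (by linarith)]; linarith) h7
  exact h.single429 h8 (h9 (by rw [dist_polar201 z (by linarith)]; exact h5))

/-- **(W1)** one solid ray of `a` away from an `ab`-point: inside there is only `b` -/
theorem Irr.innC_of_ray (h : Irr U T) {z m : ℂ} {θ : ℝ} {a b : Fin k}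
    (hT : T (z + cis θ) = {a, b}) (hm : Ray (U a) z m) (hip : ip m (cis θ) < 0) :
    InnC T z θ b := by
  have hd : dist (z + cis θ) z = 1 := dist_add_cis z θ
  have hip' : ip m (z + cis θ - z) < 0 := by rwa [add_sub_cancel_left]
  have h1 := h.nhd (z + cis θ)
  rw [hT] at h1
  obtain ⟨δ, h2, h3, h4⟩ := polar_of_nhds429 (h1.and (h.mx.near hm hd hip'))
  refine ⟨δ, h2, h3, fun ρ t h5 h6 h7 => ?_⟩
  obtain ⟨h8, h9⟩ := h4 ρ t (by rw [abs_of_neg (by linarith)]; linarith) h7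
  exact h.single429 h8 (h9 (by rw [dist_polar201 z (by linarith)]; exact h6))

/-- **(W1)** one solid ray of `a`, at any time, makes `b` strictly one-sided for every exact
`ab`-point `g` of `S(z)` -/
theorem Irr.half429 (h : Irr U T) {z m g : ℂ} {a b : Fin k} (hg : dist g z = 1)
    (hT : T g = {a, b}) (hm : Ray (U a) z m) (hip : ip m (g - z) ≠ 0) :
    (0 < ip m (g - z) ∧ Side429 U z (-(g - z)) b) ∨ (ip m (g - z) < 0 ∧ Side429 U z (g - z) b) := by
  obtain ⟨θ, hθ⟩ := exists_cis (u := g - z) (by rw [← dist_eq_norm]; exact hg)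
  have e : g = z + cis θ := by rw [← hθ]; ring
  rw [e] at hT
  rw [hθ] at hip ⊢
  rcases lt_or_gt_of_ne hip with h1 | h1
  · exact Or.inr ⟨h1, h.innC_side (h.innC_of_ray hT hm h1)⟩
  · exact Or.inl ⟨h1, h.outC_side (h.outC_of_ray hT hm h1)⟩

theorem ip_mul_cis429 (m u : ℂ) : Continuous fun s : ℝ => ip (m * cis s) u := by
  have := continuous_cis
  unfold ip
  fun_prop

/-- **(W2)** the same for the types -/
theorem Irr.dir_of_side (h : Irr U T) {z u : ℂ} {i : Fin k} (hs : Side429 U z u i) :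
    ∃ ε > 0, ∀ m : ℂ, ‖m‖ = 1 → i ∈ tau T z m → ε ≤ ip m u := by
  obtain ⟨ε, hε, hev⟩ := hs
  refine ⟨ε, hε, fun m hm hi => ?_⟩
  by_contra hcon
  push Not at hcon
  have h1 : ∀ᶠ s : ℝ in 𝓝 0, ip (m * cis s) u < ε := by
    refine (ip_mul_cis429 m u).continuousAt.eventually (Iio_mem_nhds ?_)
    have e : cis 0 = 1 := by simp [cis]
    show ip (m * cis 0) u < ε
    rwa [e, mul_one]
  obtain ⟨δ1, hδ1, h1'⟩ := Metric.eventually_nhds_iff.1 h1
  obtain ⟨δ2, hδ2, h2'⟩ := Metric.eventually_nhds_iff.1 hev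
  have h3 : ∀ᶠ x in nap z m, i ∉ T x := by
    refine nap_iff.2 ⟨min δ1 δ2, lt_min hδ1 hδ2, fun s r hs hr0 hr hi' => ?_⟩
    have hn : ‖z + r * (m * cis s) - z‖ = r := by
      rw [add_sub_cancel_left, norm_mul, norm_mul, hm, norm_cis, mul_one, mul_one,
        Complex.norm_real, Real.norm_eq_abs, abs_of_pos hr0]
    have h4 := h2' (y := z + r * (m * cis s)) (by
      rw [dist_eq_norm, hn]; exact lt_of_lt_of_le hr (min_le_right _ _)) (h.sub _ hi')
    rw [hn, add_sub_cancel_left] at h4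
    have h5 := h1' (y := s) (by
      rw [Real.dist_eq, sub_zero]; exact lt_of_lt_of_le hs (min_le_left _ _))
    have h6 : ip (r * (m * cis s)) u = r * ip (m * cis s) u := by
      unfold ip
      simp only [Complex.re_ofReal_mul, Complex.im_ofReal_mul]
      ring
    rw [h6] at h4
    nlinarith
  obtain ⟨x, h4, h5⟩ := (Frequently.and_eventually hi h3).exists
  exact h5 h4

/-- **(W3)** both colours solid: a collar -/
theorem Irr.collar_of_rays (h : Irr U T) {z m m' : ℂ} {θ : ℝ} {a b : Fin k}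
    (hg : Arc T z (z + cis θ) {a, b}) (hm0 : m ≠ 0) (hm0' : m' ≠ 0) (hm : Ray (U a) z m)
    (hm' : Ray (U b) z m') :
    (0 < ip m (cis θ) ∧ ip m' (cis θ) < 0 ∧ Collar T z θ a b) ∨
      (ip m (cis θ) < 0 ∧ 0 < ip m' (cis θ) ∧ Collar T z θ b a) := by
  have hT := hg.mem
  have hT' : T (z + cis θ) = {b, a} := by rw [hT, pair_comm]
  rcases h.sep326 hg hm0 hm0' hm hm' with ⟨h1, h2, -, -⟩ | ⟨h1, h2, -, -⟩
  · rw [add_sub_cancel_left] at h1 h2
    exact Or.inl ⟨h1, h2, collar_iff429.2 ⟨h.innC_of_ray hT' hm' h2, h.outC_of_ray hT hm h1⟩⟩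
  · rw [add_sub_cancel_left] at h1 h2
    exact Or.inr ⟨h1, h2, collar_iff429.2 ⟨h.innC_of_ray hT hm h1, h.outC_of_ray hT' hm' h2⟩⟩

end Vale.Agent.P032.Six
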