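import Vale.Agent.P032.H429.Att
import Vale.Agent.P032.H338.Letters

/-!
# P032: corners near a centre, and windows from attached colours

`Irr.corner3_429`, `Irr.corner4_429` : the palettes of order three and four which accumulate at `z`
contain no letter of `S(z)` (order three), only disjoint letters (order four).
`Att429` : attached colours.  `Irr.ori_of_att` : an exact arc with two attached colours is oriented
(pure sides, both colours strictly one-sided at `z`).  `Irr.hulls_of_att` : all windows of a point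
whose colours are attached and carried by exact arcs.
`Irr.att_of_two429` : no corners near `z`: all colours are attached.
-/

open Set Filter Topology Metric

noncomputable section

namespace Vale.Agent.P032.Six

open Vale.Agent.P032.H926

variable {k : ℕ} {U : Fin k → Set ℂ} {T : ℂ → Set (Fin k)}

/-- the translated arc point -/
theorem Irr.shift429 (h : Irr U T) {z g : ℂ} : ∀ᶠ v in 𝓝 z, T (v + (g - z)) ⊆ T g := by
  have hc : Tendsto (fun v : ℂ => v + (g - z)) (𝓝 z) (𝓝 g) := by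
    have h1 : Continuous fun v : ℂ => v + (g - z) := by fun_prop
    have := h1.tendsto z
    simpa using this
  exact hc.eventually (h.nhd g)

theorem dist_shift429 {z g v : ℂ} (hg : dist g z = 1) : dist (v + (g - z)) v = 1 := by
  rw [dist_eq_norm] at hg ⊢
  rwa [add_sub_cancel_left]

/-- **corners of order three**: no palette of `S(z)` inside -/
theorem Irr.corner3_429 (h : Irr U T) {z g : ℂ} {Y : Set (Fin k)} (hY : Y.ncard ≤ 3)
    (hv : ∃ᶠ v in 𝓝 z, T v = Y) (hg : dist g z = 1) (hP : T g ⊆ Y) : False := by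
  obtain ⟨v, h1, h2⟩ := (hv.and_eventually (h.shift429 (g := g))).exists
  obtain ⟨t, ht, htv⟩ := h.not_sub' (x := v) (y := v + (g - z)) (dist_shift429 hg)
    (by rw [h1]; exact hY)
  exact htv (by rw [h1]; exact hP (h2 ht))

/-- an attached colour -/
def Att429 (T : ℂ → Set (Fin k)) (z : ℂ) (a : Fin k) : Prop :=
  ∀ ε > 0, ∃ C : Set ℂ, IsPreconnected C ∧ z ∈ C ∧ C ⊆ ball z ε ∧ (∀ x ∈ C, a ∈ T x) ∧
    ∃ y ∈ C, y ≠ z

/-- **no corners: all colours are attached** -/
theorem Irr.att_of_two429 (h : Irr U T)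
    (hmin : ∀ z, 4 ≤ (T z).ncard → ∀ s, s ⊆ T z → s ≠ T z →
      ¬ ∀ᶠ w in 𝓝 z, ∃ i ∈ s, w ∈ U i ∨ (w ∈ XX U ∧ i ∈ Pal U w)) {z : ℂ}
    (h4 : 4 ≤ (T z).ncard) {e : Fin k} (he : e ∈ T z)
    (h2 : ∀ᶠ w in 𝓝 z, w ≠ z → e ∈ T w → (T w).ncard ≤ 2) : Att429 T z e :=
  fun _ hε => h.att429 hmin h4 he h2 hε

/-- **attached colours occur on one side of an arc** -/
theorem Irr.att_side (h : Irr U T) {z g : ℂ} {a : Fin k} {P : Set (Fin k)} (hA : Att429 T z a)
    (hg : Arc T z g P) (haP : a ∈ P) :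
    (∀ᶠ x in 𝓝 g, x ∈ U a → dist x z < 1) ∨ (∀ᶠ x in 𝓝 g, x ∈ U a → 1 < dist x z) := by
  have hne : g ≠ z := by
    intro h1
    have := hg.1
    rw [h1, dist_self] at this
    norm_num at this
  obtain ⟨C, hC, hzC, hCb, hCa, y, hy, hyz⟩ := hA 1 one_pos
  have hyg : dist y g ≠ 1 := by
    intro h1
    refine Vale.Agent.P032.S5.H767.line_free h hg.1 (hg.2.mono fun q hq => by rw [hq]; exact haP)
      (v := y) (by rw [dist_comm]; exact h1) hyz ?_ (h.sub y (hCa y hy))
    intro h2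
    have h3 := hCb hy
    rw [mem_ball, dist_eq_norm] at h3
    have h4 := hg.1
    rw [dist_eq_norm] at h4
    have h5 : y - z = 2 * (g - z) := by linear_combination h2
    rw [h5, norm_mul, h4] at h3
    norm_num at h3
  rcases lt_or_gt_of_ne hyg with h1 | h1
  · left
    exact near926 h.mx hC (fun x hx => h.sub x (hCa x hx)) hzC hy h1
  · right
    exact far926 h.mx hC (fun x hx => h.sub x (hCa x hx)) hzC hy h1

/-- the other side is pure -/
theorem Irr.att_pure (h : Irr U T) {z : ℂ} {θ : ℝ} {a b : Fin k} (hA : Att429 T z a)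
    (hg : Arc T z (z + cis θ) {a, b}) : OutC T z θ b ∨ InnC T z θ b := by
  have hT : T (z + cis θ) = {a, b} := hg.2.self_of_nhdsWithin hg.1
  have h1 := h.nhd (z + cis θ)
  rw [hT] at h1
  rcases h.att_side hA hg (by simp) with h2 | h2
  · left
    obtain ⟨δ, h3, h4, h5⟩ := polar_of_nhds429 (h1.and (eventually_eventually_nhds.2 h2))
    refine ⟨δ, h3, h4, fun ρ t h6 h7 h8 => ?_⟩
    obtain ⟨h9, h10⟩ := h5 ρ t (by rw [abs_of_pos (by linarith)]; linarith) h8
    refine h.single429 h9 fun hcon => ?_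
    have h11 : ∃ᶠ x in 𝓝 (z + ρ * cis t), x ∈ U a := mem_closure_iff_frequently.1 hcon
    have hc : Continuous fun x : ℂ => dist x z := by fun_prop
    have h12 : ∀ᶠ x in 𝓝 (z + ρ * cis t), 1 < dist x z :=
      hc.continuousAt.eventually (Ioi_mem_nhds (by
        show 1 < dist (z + ρ * cis t) z
        rw [dist_polar201 z (by linarith)]; exact h6))
    obtain ⟨x, hx1, hx2, hx3⟩ := (h11.and_eventually (h10.and h12)).exists
    exact absurd (hx2 hx1) (not_lt.2 hx3.le)
  · right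
    obtain ⟨δ, h3, h4, h5⟩ := polar_of_nhds429 (h1.and (eventually_eventually_nhds.2 h2))
    refine ⟨δ, h3, h4, fun ρ t h6 h7 h8 => ?_⟩
    obtain ⟨h9, h10⟩ := h5 ρ t (by rw [abs_of_neg (by linarith)]; linarith) h8
    refine h.single429 h9 fun hcon => ?_
    have h11 : ∃ᶠ x in 𝓝 (z + ρ * cis t), x ∈ U a := mem_closure_iff_frequently.1 hcon
    have hc : Continuous fun x : ℂ => dist x z := by fun_prop
    have h12 : ∀ᶠ x in 𝓝 (z + ρ * cis t), dist x z < 1 :=
      hc.continuousAt.eventually (Iio_mem_nhds (by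
        show dist (z + ρ * cis t) z < 1
        rw [dist_polar201 z (by linarith)]; exact h7))
    obtain ⟨x, hx1, hx2, hx3⟩ := (h11.and_eventually (h10.and h12)).exists
    exact absurd (hx2 hx1) (not_lt.2 hx3.le)

theorem not_out_out429 {z : ℂ} {θ : ℝ} {a b : Fin k} (hab : a ≠ b) (h1 : OutC T z θ a)
    (h2 : OutC T z θ b) : False := by
  obtain ⟨δ, h3, -, h4⟩ := h1
  obtain ⟨δ', h3', -, h4'⟩ := h2
  have hm : 0 < min δ δ' := lt_min h3 h3'
  have e1 := h4 (1 + min δ δ' / 2) θ (by linarith) (by linarith [min_le_left δ δ'])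
    (by rw [sub_self, abs_zero]; exact h3)
  have e2 := h4' (1 + min δ δ' / 2) θ (by linarith) (by linarith [min_le_right δ δ'])
    (by rw [sub_self, abs_zero]; exact h3')
  rw [e1] at e2
  exact hab (Set.singleton_injective e2)

theorem not_inn_inn429 {z : ℂ} {θ : ℝ} {a b : Fin k} (hab : a ≠ b) (h1 : InnC T z θ a)
    (h2 : InnC T z θ b) : False := by
  obtain ⟨δ, h3, -, h4⟩ := h1
  obtain ⟨δ', h3', -, h4'⟩ := h2
  have hm : 0 < min δ δ' := lt_min h3 h3'
  have e1 := h4 (1 - min δ δ' / 2) θ (by linarith [min_le_left δ δ']) (by linarith)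
    (by rw [sub_self, abs_zero]; exact h3)
  have e2 := h4' (1 - min δ δ' / 2) θ (by linarith [min_le_right δ δ']) (by linarith)
    (by rw [sub_self, abs_zero]; exact h3')
  rw [e1] at e2
  exact hab (Set.singleton_injective e2)

/-- **two attached colours: the letter is oriented** -/
theorem Irr.collar_of_att (h : Irr U T) {z : ℂ} {θ : ℝ} {a b : Fin k} (hab : a ≠ b)
    (hA : Att429 T z a) (hB : Att429 T z b) (hg : Arc T z (z + cis θ) {a, b}) :
    Collar T z θ a b ∨ Collar T z θ b a := by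
  have hg' : Arc T z (z + cis θ) {b, a} := by rw [pair_comm]; exact hg
  rcases h.att_pure hA hg with h1 | h1 <;> rcases h.att_pure hB hg' with h2 | h2
  · exact (not_out_out429 hab h2 h1).elim
  · exact Or.inl (collar_iff429.2 ⟨h2, h1⟩)
  · exact Or.inr (collar_iff429.2 ⟨h1, h2⟩)
  · exact (not_inn_inn429 hab h2 h1).elim

/-- **all windows of a point whose colours are attached** and carried by exact arcs -/
theorem Irr.hulls_of_att (h : Irr U T) {z : ℂ} (hz : ∀ i, T z ≠ {i})
    (hatt : ∀ i ∈ T z, Att429 T z i)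
    (harc : ∀ i ∈ T z, ∃ j ∈ T z, j ≠ i ∧ ∃ θ, Arc T z (z + cis θ) {i, j}) :
    ∃ l r : Fin k → ℝ, (∀ i ∈ T z, Hull429 T z i (l i) (r i)) ∧
      ∀ θ, ∀ a ∈ T z, ∀ b ∈ T z, a ≠ b → Arc T z (z + cis θ) {a, b} →
        Ori429 U z θ a b ∨ Ori429 U z θ b a := by
  have hori : ∀ θ, ∀ a ∈ T z, ∀ b ∈ T z, a ≠ b → Arc T z (z + cis θ) {a, b} →
      Ori429 U z θ a b ∨ Ori429 U z θ b a := by
    intro θ a ha b hb hab hg
    rcases h.collar_of_att hab (hatt a ha) (hatt b hb) hg with hC | hC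
    · exact Or.inl (h.side_of_collar hC)
    · exact Or.inr (h.side_of_collar hC)
  have hex : ∀ i, ∃ l r, i ∈ T z → Hull429 T z i l r := by
    intro i
    by_cases hi : i ∈ T z
    · obtain ⟨j, hj, hji, θ, hg⟩ := harc i hi
      rcases hori θ i hi j hj hji.symm hg with ⟨h1, -⟩ | ⟨-, h1⟩
      · obtain ⟨l, r, hH, -⟩ := h.exists_hull hi (hz i) h1
        exact ⟨l, r, fun _ => hH⟩
      · have e : -cis θ = cis (θ + Real.pi) := by rw [cis_add_pi326]
        rw [e] at h1
        obtain ⟨l, r, hH, -⟩ := h.exists_hull hi (hz i) h1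
        exact ⟨l, r, fun _ => hH⟩
    · exact ⟨0, 0, fun h1 => absurd h1 hi⟩
  choose l r hlr using hex
  exact ⟨l, r, fun i hi => hlr i hi, hori⟩

/-- every direction between two directions of an attached continuum on the two sides: no partner -/
theorem Irr.att_no_partner (h : Irr U T) {z p : ℂ} {a : Fin k} {C : Set ℂ} (hC : IsPreconnected C)
    (hz : z ∈ C) (hCa : ∀ x ∈ C, a ∈ Pal U x) {y y' : ℂ} (hy : y ∈ C) (hy' : y' ∈ C)
    (h1 : dist y p < 1) (h2 : 1 < dist y' p) : a ∉ Pal U p := by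
  intro hcon
  have h3 := near926 h.mx hC hCa hz hy h1
  have h4 := far926 h.mx hC hCa hz hy' h2
  have h5 : ∃ᶠ x in 𝓝 p, x ∈ U a := mem_closure_iff_frequently.1 hcon
  obtain ⟨x, hx, hx1, hx2⟩ := (h5.and_eventually (h3.and h4)).exists
  exact absurd (hx1 hx) (not_lt.2 (hx2 hx).le)

end Vale.Agent.P032.Six

namespace Vale.Agent.P032.Six

variable {U : Fin 6 → Set ℂ} {T : ℂ → Set (Fin 6)}

/-- **corners of order four**: the letters inside are equal or disjoint -/
theorem Irr.corner4_429 (h : Irr U T)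
    (hmin : ∀ z, 4 ≤ (T z).ncard → ∀ s, s ⊆ T z → s ≠ T z →
      ¬ ∀ᶠ w in 𝓝 z, ∃ i ∈ s, w ∈ U i ∨ (w ∈ XX U ∧ i ∈ Pal U w)) {z g g' : ℂ}
    {Y : Set (Fin 6)} (hY : Y.ncard = 4) (hv : ∃ᶠ v in 𝓝 z, T v = Y) (hg : dist g z = 1)
    (hP : T g ⊆ Y) (hg2 : (T g).ncard = 2) (hg' : dist g' z = 1) (hP' : T g' ⊆ Y)
    (hg2' : (T g').ncard = 2) : T g = T g' ∨ Disjoint (T g) (T g') := by
  obtain ⟨v, h1, h2, h3⟩ := (hv.and_eventually ((h.shift429 (g := g)).and
    (h.shift429 (g := g')))).exists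
  have h4 : (T v).ncard = 4 := by rw [h1]; exact hY
  obtain ⟨p, hp, hps, hp2⟩ := H338.exists_pair_four h h4 (y := v + (g - z)) (dist_shift429 hg)
    (by rw [h1]; exact h2.trans hP)
  obtain ⟨p', hp', hps', hp2'⟩ := H338.exists_pair_four h h4 (y := v + (g' - z))
    (dist_shift429 hg') (by rw [h1]; exact h3.trans hP')
  have e1 : T p = T g := Set.eq_of_subset_of_ncard_le (hps.trans h2) (by rw [hg2, hp2])
    (Set.toFinite _)
  have e2 : T p' = T g' := Set.eq_of_subset_of_ncard_le (hps'.trans h3) (by rw [hg2', hp2'])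
    (Set.toFinite _)
  have h5 := h.pairs_disjoint hmin h4 hp.1 hp'.1 (by rw [e1, h1]; exact hP)
    (by rw [e2, h1]; exact hP') hp2 hp2'
  rwa [e1, e2] at h5

end Vale.Agent.P032.Six
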