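import Mathlib

/-!
# P032: the colours of a sector and the letters perpendicular to it (combinatorics)
-/

open Set

namespace Vale.Agent.P032.H429T

theorem card6 (A : Set (Fin 6)) : A.ncard ≤ 6 := by
  have h1 := Set.ncard_le_ncard (subset_univ A) (Set.toFinite _)
  rwa [Set.ncard_univ, Nat.card_eq_fintype_card, Fintype.card_fin] at h1

/-- a set of three colours which contains a letter -/
theorem comb_three {Θ P : Set (Fin 6)} {letter : Fin 6 → Fin 6 → Prop} (hP : P ⊆ Θ)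
    (hP2 : P.ncard = 2) (hΘ : Θ.ncard = 3) (hl : ∀ c f, P = {c, f} → letter c f) :
    ∃ c0, ∀ c ∈ Θ, c ≠ c0 → ∀ f ∈ Θ, f ≠ c → ¬ letter c f → f = c0 := by
  have h1 : (Θ \ P).ncard = 1 := by
    have := Set.ncard_sdiff_add_ncard_of_subset hP (Set.toFinite _)
    omega
  obtain ⟨w, hw⟩ := Set.ncard_eq_one.1 h1
  have hmem : ∀ c ∈ Θ, c ≠ w → c ∈ P := by
    intro c hc hcw
    by_contra hcon
    have : c ∈ Θ \ P := ⟨hc, hcon⟩
    rw [hw] at this
    exact hcw this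
  refine ⟨w, fun c hc hcw f hf hfc hlet => ?_⟩
  by_contra hfw
  refine hlet (hl c f ?_)
  symm
  refine Set.eq_of_subset_of_ncard_le ?_ ?_ (Set.toFinite _)
  · rintro x (rfl | rfl)
    · exact hmem _ hc hcw
    · exact hmem _ hf hfw
  · rw [hP2, Set.ncard_pair hfc.symm]

theorem comb429 {Θ Θ' P0 P1 P2 P3 : Set (Fin 6)} {letter : Fin 6 → Fin 6 → Prop}
    (hΘ : Θ.Nonempty) (hΘ' : Θ'.Nonempty) (hd : Disjoint Θ Θ') (h0 : Disjoint Θ P0)
    (h3 : Disjoint Θ P3) (h0' : Disjoint Θ' P0) (h3' : Disjoint Θ' P3) (d01 : Disjoint P0 P1)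
    (d12 : Disjoint P1 P2) (d23 : Disjoint P2 P3) (n0 : 2 ≤ P0.ncard) (n1 : 2 ≤ P1.ncard)
    (n2 : 2 ≤ P2.ncard) (n3 : 2 ≤ P3.ncard) (hl1 : ∀ c f, P1 = {c, f} → letter c f)
    (hl2 : ∀ c f, P2 = {c, f} → letter c f) :
    ∃ c0, ∀ c ∈ Θ, c ≠ c0 → ∀ f ∈ Θ, f ≠ c → ¬ letter c f → f = c0 := by
  have e1 : (Θ ∪ Θ').ncard = Θ.ncard + Θ'.ncard :=
    Set.ncard_union_eq hd (Set.toFinite _) (Set.toFinite _)
  have hD : Disjoint (Θ ∪ Θ') (P0 ∪ P3) :=
    Set.disjoint_union_left.2 ⟨Set.disjoint_union_right.2 ⟨h0, h3⟩,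
      Set.disjoint_union_right.2 ⟨h0', h3'⟩⟩
  have e2 := Set.ncard_union_eq hD (Set.toFinite _) (Set.toFinite _)
  have e3 := card6 ((Θ ∪ Θ') ∪ (P0 ∪ P3))
  have e4 : 1 ≤ Θ'.ncard := (Set.ncard_pos (Set.toFinite _)).2 hΘ'
  have e5 : 1 ≤ Θ.ncard := (Set.ncard_pos (Set.toFinite _)).2 hΘ
  have s0 : P0 ⊆ P0 ∪ P3 := subset_union_left
  have s3 : P3 ⊆ P0 ∪ P3 := subset_union_right
  have m0 := Set.ncard_le_ncard s0 (Set.toFinite _)
  have m3 := Set.ncard_le_ncard s3 (Set.toFinite _)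
  by_cases hc : Θ.ncard ≤ 2
  · have hc' : Θ.ncard = 1 ∨ Θ.ncard = 2 := by omega
    rcases hc' with h1 | h1
    · obtain ⟨x, hx⟩ := Set.ncard_eq_one.1 h1
      refine ⟨x, fun c hc hcx => ?_⟩
      rw [hx] at hc
      exact absurd hc hcx
    · obtain ⟨x, y, hxy, hΘe⟩ := Set.ncard_eq_two.1 h1
      refine ⟨y, fun c hc hcy f hf hfc _ => ?_⟩
      rw [hΘe] at hc hf
      rcases hc with rfl | hc
      · rcases hf with hf | hf
        · exact absurd hf hfc
        · exact hf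
      · exact absurd hc hcy
  · have k1 : Θ.ncard = 3 := by omega
    have k2 : (P0 ∪ P3).ncard = 2 := by omega
    have k3 : P0 = P0 ∪ P3 := Set.eq_of_subset_of_ncard_le s0 (by omega) (Set.toFinite _)
    have k4 : P3 = P0 ∪ P3 := Set.eq_of_subset_of_ncard_le s3 (by omega) (Set.toFinite _)
    have k5 : P3 = P0 := by rw [k4]; exact k3.symm
    rw [k5] at d23
    have hD2 : Disjoint (P1 ∪ P2) P0 := Set.disjoint_union_left.2 ⟨d01.symm, d23⟩
    have f1 := Set.ncard_union_eq d12 (Set.toFinite _) (Set.toFinite _)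
    have f2 := Set.ncard_union_eq hD2 (Set.toFinite _) (Set.toFinite _)
    have f3 := card6 ((P1 ∪ P2) ∪ P0)
    have p1 : P1.ncard = 2 := by omega
    have p2 : P2.ncard = 2 := by omega
    have hU : (P1 ∪ P2) ∪ P0 = univ := by
      refine Set.eq_of_subset_of_ncard_le (subset_univ _) ?_ (Set.toFinite _)
      rw [Set.ncard_univ, Nat.card_eq_fintype_card, Fintype.card_fin]
      omega
    have hsub : Θ ⊆ P1 ∪ P2 := by
      intro x hx
      have h1 : x ∈ (P1 ∪ P2) ∪ P0 := by rw [hU]; trivial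
      exact h1.resolve_right (Set.disjoint_left.1 h0 hx)
    have g1 : Θ = (Θ ∩ P1) ∪ (Θ ∩ P2) := by
      rw [← Set.inter_union_distrib_left, Set.inter_eq_left.2 hsub]
    have g2 := Set.ncard_union_eq (d12.mono (inter_subset_right (s := Θ))
      (inter_subset_right (s := Θ))) (Set.toFinite _) (Set.toFinite _)
    rw [← g1] at g2
    have g3 := Set.ncard_le_ncard (inter_subset_right (s := Θ) (t := P1)) (Set.toFinite _)
    have g4 := Set.ncard_le_ncard (inter_subset_right (s := Θ) (t := P2)) (Set.toFinite _)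
    by_cases hq : 2 ≤ (Θ ∩ P1).ncard
    · have h1 : Θ ∩ P1 = P1 :=
        Set.eq_of_subset_of_ncard_le inter_subset_right (by omega) (Set.toFinite _)
      exact comb_three (Set.inter_eq_right.1 h1) p1 k1 hl1
    · have h1 : Θ ∩ P2 = P2 :=
        Set.eq_of_subset_of_ncard_le inter_subset_right (by omega) (Set.toFinite _)
      exact comb_three (Set.inter_eq_right.1 h1) p2 k1 hl2

end Vale.Agent.P032.H429T
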