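import Vale.Agent.P032.H429.TameA
import Vale.Agent.P032.H429.Comb6

/-!
# P032: windows of a centre with six colours without corners

`tame_win429` : a point `z` with six colours such that all other points near `z` have at most two
colours and every colour of `z` is in a pair of `S(z)` has windows, with honest ends.
`dense_ad` : every arc of directions contains a direction of the component of `z` of some colour.
-/

open Set Filter Topology Metric

noncomputable section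

namespace Vale.Agent.P032.H429T

open Vale.Agent.P032.Six Vale.Agent.P032.Sweep Vale.Agent.P032.S5.H767 Vale.Agent.P032.S5.H122
  Vale.Agent.P032.H158 Vale.Agent.P032.H782 Vale.Agent.P032.H429 Vale.Agent.P032.H437
  Vale.Agent.P032.H266

variable {U : Fin 6 → Set ℂ} {T : ℂ → Set (Fin 6)} {z : ℂ}

/-- no point near `z` is in the two open sets of a letter -/
theorem no_common (h : Irr U T) (z : ℂ) : ∀ᶠ x in 𝓝 z, ∀ c f : Fin 6,
    (∃ g, dist g z = 1 ∧ T g = {c, f}) → x ∈ U c → x ∈ U f → False := by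
  refine eventually_all.2 fun c => eventually_all.2 fun f => ?_
  by_cases hg : ∃ g, dist g z = 1 ∧ T g = {c, f}
  · obtain ⟨g, hg1, hg2⟩ := hg
    filter_upwards [h.shift429 (z := z) (g := g)] with x hx _ hc hf
    obtain ⟨j, hj⟩ := h.ne (x + (g - z))
    have h1 := hx hj
    rw [hg2] at h1
    have hd : dist x (x + (g - z)) = 1 := by rw [dist_comm]; exact dist_shift429 hg1
    rcases h1 with h1 | h1
    · rw [h1] at hj
      exact h.mx.notMem' hc hd (h.sub _ hj)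
    · rw [mem_singleton_iff] at h1
      rw [h1] at hj
      exact h.mx.notMem' hf hd (h.sub _ hj)
  · exact Eventually.of_forall fun x h1 => absurd h1 hg

/-- the partners of the colours of islands -/
theorem partner_all (h : Irr U T) (ht : ∀ᶠ w in 𝓝[≠] z, (T w).ncard ≤ 2)
    (hcar : ∀ c, ∃ g, Car U z g c) : ∀ᶠ x in 𝓝 z, ∀ c, c ∈ T x → x ∉ Hc429 U z c →
      ∃ f, f ≠ c ∧ x ∈ U f ∧ ∃ p ∈ segment ℝ z x, T p = {c, f} := by
  have h1 : ∀ c, ∀ᶠ ε in 𝓝[>] (0 : ℝ), ∃ ρ > 0, ∀ x ∈ ball z ρ,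
      c ∈ T x → z ∉ connectedComponentIn ({y | c ∈ T y} ∩ closedBall z ε) x →
        ∃ f, f ≠ c ∧ x ∈ U f ∧ ∃ p ∈ segment ℝ z x, T p = {c, f} := fun c => by
    obtain ⟨g, hg⟩ := hcar c
    exact h.partner429 hg ht
  obtain ⟨ε, hε, hε0⟩ := ((eventually_all.2 h1).and self_mem_nhdsWithin).exists
  have hε0 : (0 : ℝ) < ε := hε0
  refine eventually_all.2 fun c => ?_
  obtain ⟨ρ, hρ, h2⟩ := hε c
  filter_upwards [ball_mem_nhds z (lt_min hρ hε0)] with x hx hc hH
  rw [mem_ball, lt_min_iff] at hx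
  refine h2 x hx.1 hc fun hz => hH ?_
  have hxF : x ∈ {y | c ∈ T y} ∩ closedBall z ε := ⟨hc, mem_closedBall.2 hx.2.le⟩
  have hK : connectedComponentIn ({y | c ∈ T y} ∩ closedBall z ε) x ⊆ Hc429 U z c :=
    sub_hc isPreconnected_connectedComponentIn hz
      (fun y hy => h.sub y (connectedComponentIn_subset _ _ hy).1)
  exact hK (mem_connectedComponentIn hxF)

/-- opposite sectors have different colours -/
theorem tau_disj (h : Irr U T) (hatt : ∀ i, Att429 T z i) (hT : ∀ i, i ∈ T z)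
    (hlet : ∀ i, ∃ q j, dist q z = 1 ∧ i ≠ j ∧ T q = {i, j}) {m : ℂ} (hm : ‖m‖ = 1) :
    Disjoint (tau T z m) (tau T z (-m)) := by
  rw [Set.disjoint_left]
  intro i hi hi'
  obtain ⟨q, j, hq, hij, hTq⟩ := hlet i
  obtain ⟨θ, hθ⟩ := exists_cis (u := q - z) (by rw [← dist_eq_norm]; exact hq)
  have hqt : q = z + cis θ := by rw [← hθ]; ring
  have harc := h.arc_of_pair429 (hT i) (hT j) hq hTq
  rw [hqt] at harc
  have hs : ∃ u, Side429 U z u i := by
    rcases h.collar_of_att hij (hatt i) (hatt j) harc with hC | hC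
    · exact ⟨_, (h.side_of_collar hC).1⟩
    · exact ⟨_, (h.side_of_collar hC).2⟩
  obtain ⟨u, hu⟩ := hs
  obtain ⟨ε, hε, h1⟩ := h.dir_of_side hu
  have h2 := h1 m hm hi
  have h3 := h1 (-m) (by rwa [norm_neg]) hi'
  have e : ip (-m) u = -ip m u := by unfold ip; simp; ring
  rw [e] at h3
  linarith

/-- a solid sector gives a direction -/
theorem ad_of_solid (_ : Irr U T) {c : Fin 6} {s : ℝ}
    (hs : ∀ᶠ x in nap z (cis (s * (Real.pi / 3))), x ∈ U c) : s ∈ AD U z c := by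
  obtain ⟨μ, hμ⟩ : ∃ μ, μ = cis (s * (Real.pi / 3)) := ⟨_, rfl⟩
  rw [← hμ] at hs
  obtain ⟨δ, hδ, hd⟩ := nap_iff.1 hs
  set S : Set ℂ := (fun p : ℝ × ℝ => z + p.2 * (μ * cis p.1)) '' (Ioo (-δ) δ ×ˢ Ioo 0 δ) with hS
  have hmem : ∀ s r : ℝ, |s| < δ → 0 < r → r < δ → z + r * (μ * cis s) ∈ S := fun s r h1 h2 h3 =>
    ⟨(s, r), ⟨abs_lt.1 h1, h2, h3⟩, rfl⟩
  have hzS : z ∈ closure S := by
    have h1 : Tendsto (fun r : ℝ => z + r * (μ * cis 0)) (𝓝[>] (0 : ℝ)) (𝓝 z) := by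
      have h3 : Continuous fun r : ℝ => z + (r : ℂ) * (μ * cis 0) := by fun_prop
      have h4 := h3.tendsto 0
      simp only [Complex.ofReal_zero, zero_mul, add_zero] at h4
      exact h4.mono_left nhdsWithin_le_nhds
    refine mem_closure_of_tendsto h1 ?_
    filter_upwards [Ioo_mem_nhdsGT hδ] with r hr
    exact hmem 0 r (by rw [abs_zero]; exact hδ) hr.1 hr.2
  have hSU : S ⊆ U c := by
    rintro _ ⟨⟨s, r⟩, ⟨h1, h2⟩, rfl⟩
    exact hd s r (abs_lt.2 h1) h2.1 h2.2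
  have h1 : IsPreconnected (insert z S) := (sector_preconn z μ δ).subset_closure
    (subset_insert _ _) (insert_subset hzS subset_closure)
  have h2 : insert z S ⊆ Hc429 U z c := by
    refine sub_hc h1 (mem_insert _ _) ?_
    rintro x (rfl | hx)
    · exact closure_mono hSU hzS
    · exact subset_closure (hSU hx)
  show ∃ᶠ x in nap z (cis (s * (Real.pi / 3))), x ∈ Hc429 U z c
  rw [← hμ]
  refine Eventually.frequently (nap_iff.2 ⟨δ, hδ, fun s r h3 h4 h5 => ?_⟩)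
  exact h2 (mem_insert_of_mem _ (hmem s r h3 h4 h5))

/-- the segments to the centre stay in the sector -/
theorem seg_nap {μ : ℂ} {p : ℂ → Prop} (h : ∀ᶠ x in nap z μ, p x) :
    ∀ᶠ x in nap z μ, ∀ q ∈ segment ℝ z x, q = z ∨ p q := by
  obtain ⟨δ, hδ, hd⟩ := nap_iff.1 h
  refine nap_iff.2 ⟨δ, hδ, fun s r hs hr0 hr q hq => ?_⟩
  obtain ⟨a, b, ha, hb, hab, rfl⟩ := hq
  have e : a • z + b • (z + r * (μ * cis s)) = z + ((b * r : ℝ) : ℂ) * (μ * cis s) := by
    simp only [Complex.real_smul]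
    have : (a : ℂ) = 1 - b := by
      have : a = 1 - b := by linarith
      rw [this]; push_cast; ring
    rw [this]
    push_cast
    ring
  rw [e]
  rcases hb.eq_or_lt with hb0 | hb0
  · left
    rw [← hb0]
    simp
  · right
    refine hd s (b * r) hs (mul_pos hb0 hr0) ?_
    nlinarith

/-- **every arc of directions contains a direction of a component of `z`** -/
theorem dense_ad (h : Irr U T)
    (hmin : ∀ z, 4 ≤ (T z).ncard → ∀ s, s ⊆ T z → s ≠ T z →
      ¬ ∀ᶠ w in 𝓝 z, ∃ i ∈ s, w ∈ U i ∨ (w ∈ XX U ∧ i ∈ Pal U w)) (hz : T z = univ)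
    (ht : ∀ᶠ w in 𝓝[≠] z, (T w).ncard ≤ 2)
    (hlet : ∀ i, ∃ q j, dist q z = 1 ∧ i ≠ j ∧ T q = {i, j}) {a b : ℝ} (hab : a < b) :
    ∃ s ∈ Ioo a b, ∃ i, s ∈ AD U z i := by
  have hT : ∀ i, i ∈ T z := fun i => by rw [hz]; trivial
  have h4 : 4 ≤ (T z).ncard := by
    rw [hz, Set.ncard_univ, Nat.card_eq_fintype_card, Fintype.card_fin]; norm_num
  have hatt : ∀ i, Att429 T z i := fun i => h.att_of_two429 hmin h4 (hT i) (by
    filter_upwards [eventually_nhdsWithin_iff.1 ht] with w hw hwz _ using hw hwz)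
  have hcar : ∀ c, ∃ g, Car U z g c := fun c => by
    obtain ⟨q, j, hq, hij, hTq⟩ := hlet c
    exact ⟨q, (h.arc_of_pair429 (hT c) (hT j) hq hTq).car h (by simp)⟩
  by_contra hcon
  push Not at hcon
  -- a direction with a minimal type
  obtain ⟨N, hN⟩ : ∃ N : ℝ → ℕ, N = fun s => (tau T z (cis (s * (Real.pi / 3)))).ncard :=
    ⟨_, rfl⟩
  obtain ⟨m, hm, hmmin⟩ : ∃ m ∈ Ioo a b, ∀ m' ∈ Ioo a b, N m ≤ N m' := by
    have hne : (N '' Ioo a b).Nonempty := (nonempty_Ioo.2 hab).image N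
    obtain ⟨m, hm, e⟩ := Nat.sInf_mem hne
    refine ⟨m, hm, fun m' hm' => ?_⟩
    rw [e]
    exact Nat.sInf_le ⟨m', hm', rfl⟩
  -- the type is constant near it
  have hconst : ∀ᶠ s in 𝓝 m, s ∈ Ioo a b ∧
      tau T z (cis (s * (Real.pi / 3))) = tau T z (cis (m * (Real.pi / 3))) := by
    have h2 : Tendsto (fun s : ℝ => s * (Real.pi / 3) - m * (Real.pi / 3)) (𝓝 m) (𝓝 0) := by
      have hc : Continuous fun s : ℝ => s * (Real.pi / 3) - m * (Real.pi / 3) := by fun_prop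
      have := hc.tendsto m
      rwa [sub_self] at this
    filter_upwards [h2.eventually (tau_semi T z (cis (m * (Real.pi / 3)))),
      Ioo_mem_nhds hm.1 hm.2] with s h3 h5
    rw [← cis_add429, add_sub_cancel] at h3
    refine ⟨h5, Set.eq_of_subset_of_ncard_le h3 ?_ (Set.toFinite _)⟩
    have := hmmin s h5
    rw [hN] at this
    exact this
  -- generic slots
  obtain ⟨t, htG, htI, -⟩ : ∃ t, t ∈ WinData.G T z (fun _ => 0) (fun _ => 0) ∧
      t + 3 / 2 ∈ Ioo a b ∧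
      tau T z (cis ((t + 3 / 2) * (Real.pi / 3))) = tau T z (cis (m * (Real.pi / 3))) := by
    have h2 : Tendsto (fun t : ℝ => t + 3 / 2) (𝓝 (m - 3 / 2)) (𝓝 m) := by
      have hc : Continuous fun t : ℝ => t + 3 / 2 := by fun_prop
      have := hc.tendsto (m - 3 / 2)
      rwa [sub_add_cancel] at this
    have h3 : ∃ᶠ t in 𝓝 (m - 3 / 2), t ∈ WinData.G T z (fun _ => 0) (fun _ => 0) :=
      mem_closure_iff_frequently.1 (WinData.G_dense h z (fun _ => 0) (fun _ => 0) (m - 3 / 2))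
    exact (h3.and_eventually (h2.eventually hconst)).exists
  have l0 : t ∈ Lc T z := by simpa using htG.1 0
  have l1 : t + 1 ∈ Lc T z := by simpa using htG.1 1
  have l2 : t + 2 ∈ Lc T z := by
    have := htG.1 2
    simpa using this
  have l3 : t + 3 ∈ Lc T z := by
    have := htG.1 3
    simpa using this
  have hsub : ∀ x, T x ⊆ T z := fun x => by rw [hz]; exact subset_univ _
  -- the direction
  obtain ⟨μ, hμ⟩ : ∃ μ, μ = cis ((t + 3 / 2) * (Real.pi / 3)) := ⟨_, rfl⟩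
  have hμn : ‖μ‖ = 1 := by rw [hμ]; exact norm_cis _
  have e0 : pt z t - z = cis (t * (Real.pi / 3)) := by unfold pt; ring
  have e3 : pt z (t + 3) - z = -cis (t * (Real.pi / 3)) := by
    rw [pt_three, ← e0]; ring
  have eμ : μ = Complex.I * cis (t * (Real.pi / 3)) := by
    have e1 : (t + 3 / 2) * (Real.pi / 3) = t * (Real.pi / 3) + Real.pi / 2 := by ring
    have e2 : cis (Real.pi / 2) = Complex.I := by
      apply Complex.ext
      · rw [cis_re, Real.cos_pi_div_two, Complex.I_re]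
      · rw [cis_im, Real.sin_pi_div_two, Complex.I_im]
    rw [hμ, e1, cis_add429, e2, mul_comm]
  have av0 : Disjoint (tau T z μ) (T (pt z t)) := Set.disjoint_right.2 fun i hi =>
    h.tau_avoid ((arc_of_lc l0).car h hi) (Or.inl (by rw [e0, eμ]))
  have av3 : Disjoint (tau T z μ) (T (pt z (t + 3))) := Set.disjoint_right.2 fun i hi =>
    h.tau_avoid ((arc_of_lc l3).car h hi) (Or.inr (by rw [e3, eμ]; ring))
  have av0' : Disjoint (tau T z (-μ)) (T (pt z t)) := Set.disjoint_right.2 fun i hi =>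
    h.tau_avoid ((arc_of_lc l0).car h hi) (Or.inr (by rw [e0, eμ]))
  have av3' : Disjoint (tau T z (-μ)) (T (pt z (t + 3))) := Set.disjoint_right.2 fun i hi =>
    h.tau_avoid ((arc_of_lc l3).car h hi) (Or.inl (by rw [e3, eμ]; ring))
  have d01 : Disjoint (T (pt z t)) (T (pt z (t + 1))) := dj_sixty h l0
  have d12 : Disjoint (T (pt z (t + 1))) (T (pt z (t + 2))) := by
    have := dj_sixty h l1
    rwa [show t + 1 + 1 = t + 2 by ring] at this
  have d23 : Disjoint (T (pt z (t + 2))) (T (pt z (t + 3))) := by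
    have := dj_sixty h l2
    rwa [show t + 2 + 1 = t + 3 by ring] at this
  obtain ⟨c0, hc0⟩ := comb429 (letter := fun c f => ∃ g, dist g z = 1 ∧ T g = {c, f})
    (h.tau_nonempty z μ) (h.tau_nonempty z (-μ)) (tau_disj h hatt hT hlet hμn) av0 av3 av0' av3'
    d01 d12 d23 (two_out h l0 (hsub _)).1 (two_out h l1 (hsub _)).1 (two_out h l2 (hsub _)).1
    (two_out h l3 (hsub _)).1 (fun c f hcf => ⟨pt z (t + 1), dist_pt z _, hcf⟩)
    (fun c f hcf => ⟨pt z (t + 2), dist_pt z _, hcf⟩)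
  -- the sector is solid
  have hH : ∀ᶠ x in nap z μ, ∀ i, x ∉ Hc429 U z i := by
    refine eventually_all.2 fun i => ?_
    have h2 := hcon _ htI i
    have h3 : ¬ ∃ᶠ x in nap z (cis ((t + 3 / 2) * (Real.pi / 3))), x ∈ Hc429 U z i := h2
    rw [← hμ] at h3
    exact not_frequently.1 h3
  have hsol : ∀ᶠ x in nap z μ, x ∈ U c0 := by
    filter_upwards [hH, tau_ev T z μ, seg_nap (tau_ev T z μ), (nap_le z μ) (no_common h z),
      (nap_le z μ) (partner_all h ht hcar)] with x x1 x2 x3 x4 x5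
    obtain ⟨c, hc⟩ := h.ne x
    obtain ⟨f, hfc, hxf, p, hp, hTp⟩ := x5 c hc (x1 c)
    have hxc : x ∈ U c := h.off x (fun hX => hX f hxf) c hc
    have hfΘ : f ∈ tau T z μ := by
      rcases x3 p hp with h5 | h5
      · exfalso
        rw [h5] at hTp
        have h6 := Set.ncard_insert_le c ({f} : Set (Fin 6))
        rw [← hTp, Set.ncard_singleton] at h6
        omega
      · exact h5 (by rw [hTp]; simp)
    by_cases hcc : c = c0
    · rw [← hcc]; exact hxc
    · have h6 := hc0 c (x2 hc) hcc f hfΘ hfc (fun hg => x4 c f hg hxc hxf)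
      rw [← h6]; exact hxf
  rw [hμ] at hsol
  exact hcon _ htI c0 (ad_of_solid h hsol)

/-- **every direction is a direction of the component of `z` of some colour** -/
theorem cover_ad (h : Irr U T)
    (hmin : ∀ z, 4 ≤ (T z).ncard → ∀ s, s ⊆ T z → s ≠ T z →
      ¬ ∀ᶠ w in 𝓝 z, ∃ i ∈ s, w ∈ U i ∨ (w ∈ XX U ∧ i ∈ Pal U w)) (hz : T z = univ)
    (ht : ∀ᶠ w in 𝓝[≠] z, (T w).ncard ≤ 2)
    (hlet : ∀ i, ∃ q j, dist q z = 1 ∧ i ≠ j ∧ T q = {i, j}) (s : ℝ) : ∃ i, s ∈ AD U z i := by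
  have h1 : IsClosed (⋃ i, AD U z i) := isClosed_iUnion_of_finite fun i => ad_closed U z i
  have h2 : Dense (⋃ i, AD U z i) := dense_of_exists_between fun a b hab => by
    obtain ⟨s, hs, i, hi⟩ := dense_ad h hmin hz ht hlet hab
    exact ⟨s, mem_iUnion.2 ⟨i, hi⟩, hs.1, hs.2⟩
  have h3 : s ∈ ⋃ i, AD U z i := by
    rw [← h1.closure_eq]
    exact h2 s
  exact mem_iUnion.1 h3

/-- the component of `z` has a direction -/
theorem ad_nonempty (h : Irr U T) {i : Fin 6} (hA : Att429 T z i) : (AD U z i).Nonempty := by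
  have h1 : ∃ᶠ w in 𝓝 z, w ≠ z ∧ w ∈ Hc429 U z i := by
    rw [frequently_iff]
    intro N hN
    obtain ⟨ε, hε, hb⟩ := Metric.mem_nhds_iff.1 hN
    obtain ⟨C, hC, hz, hCb, hCi, y, hy, hyz⟩ := hA ε hε
    exact ⟨y, hb (hCb hy), hyz, sub_hc hC hz (fun x hx => h.sub x (hCi x hx)) hy⟩
  obtain ⟨s, hs⟩ := exists_nap h1
  refine ⟨s * (3 / Real.pi), ?_⟩
  show ∃ᶠ x in nap z (cis (s * (3 / Real.pi) * (Real.pi / 3))), x ∈ Hc429 U z i
  have hpi := Real.pi_pos
  have e : s * (3 / Real.pi) * (Real.pi / 3) = s := by field_simp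
  rw [e]
  exact hs

/-- **Windows of a tame centre with six colours.** -/
theorem tame_win429 (h : Irr U T)
    (hmin : ∀ z, 4 ≤ (T z).ncard → ∀ s, s ⊆ T z → s ≠ T z →
      ¬ ∀ᶠ w in 𝓝 z, ∃ i ∈ s, w ∈ U i ∨ (w ∈ XX U ∧ i ∈ Pal U w)) (hz : T z = univ)
    (ht : ∀ᶠ w in 𝓝[≠] z, (T w).ncard ≤ 2)
    (hns : ∀ i, ∃ q, dist q z = 1 ∧ i ∈ T q ∧ (T q).ncard = 2) :
    ∃ L R : Fin 6 → ℝ, WinData T z L R ∧ ∀ i, L i ∈ HD U z i ∧ R i ∈ HD U z i := by
  have hT : ∀ i, i ∈ T z := fun i => by rw [hz]; trivial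
  have h4 : 4 ≤ (T z).ncard := by
    rw [hz, Set.ncard_univ, Nat.card_eq_fintype_card, Fintype.card_fin]; norm_num
  have hatt : ∀ i, Att429 T z i := fun i => h.att_of_two429 hmin h4 (hT i) (by
    filter_upwards [eventually_nhdsWithin_iff.1 ht] with w hw hwz _ using hw hwz)
  have hlet : ∀ i, ∃ q j, dist q z = 1 ∧ i ≠ j ∧ T q = {i, j} := by
    intro i
    obtain ⟨q, hq, hi, h2⟩ := hns i
    obtain ⟨x, y, hxy, hTq⟩ := Set.ncard_eq_two.1 h2
    rw [hTq] at hi
    rcases hi with hi | hi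
    · exact ⟨q, y, hq, by rw [hi]; exact hxy, by rw [hTq, hi]⟩
    · rw [mem_singleton_iff] at hi
      exact ⟨q, x, hq, by rw [hi]; exact hxy.symm, by rw [hTq, hi, Set.pair_comm]⟩
  have hlet' : ∀ i, ∃ s ∈ Lc T z, i ∈ T (pt z s) := by
    intro i
    obtain ⟨q, j, hq, hij, hTq⟩ := hlet i
    obtain ⟨θ, hθ⟩ := exists_cis (u := q - z) (by rw [← dist_eq_norm]; exact hq)
    have hpi := Real.pi_pos
    have e : pt z (θ * (3 / Real.pi)) = q := by
      unfold pt
      have e1 : θ * (3 / Real.pi) * (Real.pi / 3) = θ := by field_simp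
      rw [e1, ← hθ]; ring
    refine ⟨θ * (3 / Real.pi), ?_, by rw [e, hTq]; simp⟩
    have harc := h.arc_of_pair429 (hT i) (hT j) hq hTq
    show ∀ᶠ v in 𝓝 (θ * (3 / Real.pi)), T (pt z v) = T (pt z (θ * (3 / Real.pi)))
    rw [e, hTq]
    have h5 : Tendsto (pt z) (𝓝 (θ * (3 / Real.pi))) (𝓝[sphere z 1] q) := by
      refine tendsto_nhdsWithin_iff.2 ⟨?_, Eventually.of_forall fun v => dist_pt z v⟩
      have := (continuous_pt z).tendsto (θ * (3 / Real.pi))
      rwa [e] at this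
    exact h5.eventually harc.2
  obtain ⟨L, R, hW, hL, hR⟩ := win_of_ad h hz (fun i => ad_nonempty h (hatt i)) hlet'
    (cover_ad h hmin hz ht hlet)
  exact ⟨L, R, hW, fun i => ⟨ad_hd h.mx (h.sub z (hT i)) (hL i),
    ad_hd h.mx (h.sub z (hT i)) (hR i)⟩⟩

end Vale.Agent.P032.H429T
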