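import Vale.Agent.P032.H429.Half

/-!
# P032: hull windows

`Dir429 T z i` : the directions of the colour `i` at `z`.  `Hull429 T z i l r` : they have the end
points `l`, `r` (`r < l + π`) modulo `2π`.  `Irr.exists_hull`: a one-sided colour has a hull.
`Hull429.side`: the hull lies strictly on the side of the colour.  `sec429`, `Hull429.inn`,
`Hull429.out`, `Irr.hull_cover`: the integral (sector) form at a generic time.
-/

open Set Filter Topology Metric

noncomputable section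

namespace Vale.Agent.P032.Six

variable {k : ℕ} {U : Fin k → Set ℂ} {T : ℂ → Set (Fin k)}

theorem cis_add429 (s t : ℝ) : cis (s + t) = cis s * cis t := by
  unfold cis
  rw [← Complex.exp_add]
  congr 1
  push_cast
  ring

theorem cis_int429 (s : ℝ) (n : ℤ) : cis (s + 2 * Real.pi * n) = cis s := by
  rw [cis_add429]
  have : cis (2 * Real.pi * n) = 1 := by
    unfold cis
    rw [show ((2 * Real.pi * n : ℝ) : ℂ) * Complex.I = n * (2 * Real.pi * Complex.I) by
      push_cast; ring]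
    exact Complex.exp_int_mul_two_pi_mul_I n
  rw [this, mul_one]

theorem ip_cis429 (s t : ℝ) : ip (cis s) (cis t) = Real.cos (s - t) := by
  unfold ip
  rw [cis_re, cis_im, cis_re, cis_im, Real.cos_sub]

/-- a representative modulo `2π` -/
theorem exists_rep429 (c s : ℝ) : ∃ n : ℤ, c ≤ s + 2 * Real.pi * n ∧
    s + 2 * Real.pi * n < c + 2 * Real.pi := by
  have hp := Real.two_pi_pos
  refine ⟨-⌊(s - c) / (2 * Real.pi)⌋, ?_, ?_⟩
  · have h1 := Int.floor_le ((s - c) / (2 * Real.pi))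
    rw [le_div_iff₀ hp] at h1
    push_cast
    linarith
  · have h1 := Int.lt_floor_add_one ((s - c) / (2 * Real.pi))
    rw [div_lt_iff₀ hp] at h1
    push_cast
    linarith

/-- the directions of the colour `i` at `z` -/
def Dir429 (T : ℂ → Set (Fin k)) (z : ℂ) (i : Fin k) : Set ℝ := {s | i ∈ tau T z (cis s)}

theorem dir_closed429 (T : ℂ → Set (Fin k)) (z : ℂ) (i : Fin k) : IsClosed (Dir429 T z i) := by
  have h1 := tau_closed T z 1 i
  simpa [Dir429] using h1

theorem dir_int429 {z : ℂ} {i : Fin k} {s : ℝ} (n : ℤ) :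
    s + 2 * Real.pi * n ∈ Dir429 T z i ↔ s ∈ Dir429 T z i := by
  show i ∈ tau T z (cis (s + 2 * Real.pi * n)) ↔ i ∈ tau T z (cis s)
  rw [cis_int429]

/-- every direction is a direction of a colour of `z` -/
theorem Irr.dir_cover (h : Irr U T) (z : ℂ) (s : ℝ) : ∃ i ∈ T z, s ∈ Dir429 T z i := by
  obtain ⟨i, hi⟩ := h.tau_nonempty z (cis s)
  exact ⟨i, h.tau_sub z _ hi, hi⟩

/-- a solid sector gives a direction -/
theorem Irr.dir_of_tau (h : Irr U T) {z : ℂ} {i : Fin k} {s : ℝ} (hr : tau T z (cis s) ⊆ {i}) :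
    s ∈ Dir429 T z i := by
  obtain ⟨j, hj⟩ := h.tau_nonempty z (cis s)
  have := hr hj
  rw [mem_singleton_iff] at this
  rw [this] at hj
  exact hj

/-- a colour of `z` has a direction -/
theorem Irr.dir_nonempty (h : Irr U T) {z : ℂ} {i : Fin k} (hi : i ∈ T z) (hz : T z ≠ {i}) :
    (Dir429 T z i).Nonempty := by
  by_contra hcon
  rw [Set.not_nonempty_iff_eq_empty] at hcon
  have h1 : ∀ s ∈ Icc (-Real.pi) Real.pi, ∃ δ > 0, ∀ s' r : ℝ, |s' - s| < δ → 0 < r → r < δ →
      i ∉ T (z + r * cis s') := by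
    intro s _
    have h2 : s ∉ Dir429 T z i := by rw [hcon]; exact notMem_empty _
    have h3 : ∀ᶠ x in nap z (cis s), i ∉ T x := by
      have : ¬ ∃ᶠ x in nap z (cis s), i ∈ T x := h2
      rwa [Filter.not_frequently] at this
    obtain ⟨δ, hδ, h4⟩ := nap_iff.1 h3
    refine ⟨δ, hδ, fun s' r hs hr0 hr => ?_⟩
    have h5 := h4 (s' - s) r hs hr0 hr
    rwa [← cis_add429, add_sub_cancel] at h5
  choose! δ hδ hd using h1
  obtain ⟨F, hF, hcov⟩ := isCompact_Icc.elim_nhds_subcover (fun s => ball s (δ s))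
    (fun s hs => ball_mem_nhds s (hδ s hs))
  have hFne : F.Nonempty := by
    rcases F.eq_empty_or_nonempty with h2 | h2
    · rw [h2] at hcov
      have := hcov (show (0 : ℝ) ∈ Icc (-Real.pi) Real.pi from
        ⟨by linarith [Real.pi_pos], by linarith [Real.pi_pos]⟩)
      simp at this
    · exact h2
  have hpos : 0 < F.inf' hFne δ := by
    rw [Finset.lt_inf'_iff]
    exact fun s hs => hδ s (hF s hs)
  have h2 : ∀ᶠ w in 𝓝 z, w ≠ z → i ∉ T w := by
    filter_upwards [ball_mem_nhds z hpos] with w hw hwz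
    obtain ⟨r, hr⟩ : ∃ r, r = dist w z := ⟨_, rfl⟩
    have hr0 : 0 < r := by rw [hr]; exact dist_pos.2 hwz
    obtain ⟨s0, hs0⟩ := exists_cis (u := ((r⁻¹ : ℝ) : ℂ) * (w - z)) (by
      rw [norm_mul, Complex.norm_real, Real.norm_eq_abs, abs_of_pos (inv_pos.2 hr0),
        ← dist_eq_norm, ← hr, inv_mul_cancel₀ hr0.ne'])
    obtain ⟨n, hn1, hn2⟩ := exists_rep429 (-Real.pi) s0
    set s := s0 + 2 * Real.pi * n with hs
    have hsI : s ∈ Icc (-Real.pi) Real.pi := ⟨hn1, by linarith⟩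
    have hw' : w = z + r * cis s := by
      rw [hs, cis_int429, ← hs0, ← mul_assoc, ← Complex.ofReal_mul, mul_inv_cancel₀ hr0.ne']
      simp
    obtain ⟨s1, hs1, hs2⟩ := mem_iUnion₂.1 (hcov hsI)
    rw [hw']
    refine hd s1 (hF s1 hs1) s r (by rwa [mem_ball, Real.dist_eq] at hs2) hr0 ?_
    have h3 : F.inf' hFne δ ≤ δ s1 := Finset.inf'_le _ hs1
    rw [mem_ball, ← hr] at hw
    linarith
  obtain ⟨w, h3, h4⟩ := ((h.pure z i hi).and_eventually h2).exists
  by_cases hwz : w = z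
  · rw [hwz] at h3
    exact hz h3
  · exact h4 hwz (by rw [h3]; rfl)

/-- the directions of `i` at `z` have the end points `l`, `r` modulo `2π` -/
structure Hull429 (T : ℂ → Set (Fin k)) (z : ℂ) (i : Fin k) (l r : ℝ) : Prop where
  le : l ≤ r
  lt : r < l + Real.pi
  hl : l ∈ Dir429 T z i
  hr : r ∈ Dir429 T z i
  mem : ∀ s ∈ Dir429 T z i, ∃ n : ℤ, l + 2 * Real.pi * n ≤ s ∧ s ≤ r + 2 * Real.pi * n

theorem cos_pos_iff429 {θ s : ℝ} (h1 : θ - Real.pi / 2 ≤ s) (h2 : s ≤ θ + 3 * Real.pi / 2)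
    (hc : 0 < Real.cos (s - θ)) : θ - Real.pi / 2 < s ∧ s < θ + Real.pi / 2 := by
  constructor
  · rcases h1.lt_or_eq with h | h
    · exact h
    · rw [← h, show θ - Real.pi / 2 - θ = -(Real.pi / 2) by ring, Real.cos_neg,
        Real.cos_pi_div_two] at hc
      exact absurd hc (lt_irrefl _)
  · by_contra hcon
    push Not at hcon
    have := Real.cos_nonpos_of_pi_div_two_le_of_le (x := s - θ) (by linarith) (by linarith)
    linarith

/-- **(W4)** a one-sided colour has a hull, strictly on its side -/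
theorem Irr.exists_hull (h : Irr U T) {z : ℂ} {i : Fin k} {θ : ℝ} (hi : i ∈ T z)
    (hz : T z ≠ {i}) (hs : Side429 U z (cis θ) i) : ∃ l r, Hull429 T z i l r ∧
      θ - Real.pi / 2 < l ∧ r < θ + Real.pi / 2 := by
  obtain ⟨ε, hε, hd⟩ := h.dir_of_side hs
  have hcos : ∀ s ∈ Dir429 T z i, 0 < Real.cos (s - θ) := by
    intro s hs
    have := hd (cis s) (norm_cis s) hs
    rw [ip_cis429] at this
    linarith
  set K := Dir429 T z i ∩ Icc (θ - Real.pi / 2) (θ + Real.pi / 2) with hK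
  have hKc : IsCompact K := isCompact_Icc.inter_left (dir_closed429 T z i)
  have hrep : ∀ s ∈ Dir429 T z i, ∃ n : ℤ, s + 2 * Real.pi * n ∈ K := by
    intro s hs
    obtain ⟨n, h1, h2⟩ := exists_rep429 (θ - Real.pi / 2) s
    have h3 : s + 2 * Real.pi * n ∈ Dir429 T z i := (dir_int429 n).2 hs
    have h4 := cos_pos_iff429 (θ := θ) h1 (by linarith) (hcos _ h3)
    exact ⟨n, h3, h4.1.le, h4.2.le⟩
  have hKne : K.Nonempty := by
    obtain ⟨s, hs⟩ := h.dir_nonempty hi hz
    obtain ⟨n, hn⟩ := hrep s hs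
    exact ⟨_, hn⟩
  obtain ⟨l, hlK, hl⟩ := hKc.exists_isLeast hKne
  obtain ⟨r, hrK, hr⟩ := hKc.exists_isGreatest hKne
  have hl' := cos_pos_iff429 (θ := θ) hlK.2.1 (by linarith [hlK.2.2, Real.pi_pos])
    (hcos _ hlK.1)
  have hr' := cos_pos_iff429 (θ := θ) hrK.2.1 (by linarith [hrK.2.2, Real.pi_pos])
    (hcos _ hrK.1)
  refine ⟨l, r, ⟨hl hrK, by linarith [hl'.1, hr'.2], hlK.1, hrK.1, fun s hs => ?_⟩, hl'.1, hr'.2⟩
  obtain ⟨n, hn⟩ := hrep s hs
  refine ⟨-n, ?_, ?_⟩
  · have := hl hn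
    push_cast
    linarith
  · have := hr hn
    push_cast
    linarith

/-- the hull is on the side of the colour -/
theorem Hull429.side (h : Irr U T) {z : ℂ} {i : Fin k} {l r θ : ℝ} (hH : Hull429 T z i l r)
    (hs : Side429 U z (cis θ) i) : ∃ n : ℤ, θ - Real.pi / 2 < l + 2 * Real.pi * n ∧
      r + 2 * Real.pi * n < θ + Real.pi / 2 := by
  obtain ⟨ε, hε, hd⟩ := h.dir_of_side hs
  have hcos : ∀ s ∈ Dir429 T z i, 0 < Real.cos (s - θ) := by
    intro s hs
    have := hd (cis s) (norm_cis s) hs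
    rw [ip_cis429] at this
    linarith
  obtain ⟨n, h1, h2⟩ := exists_rep429 (θ - Real.pi / 2) l
  have h3 := cos_pos_iff429 (θ := θ) h1 (by linarith) (hcos _ ((dir_int429 n).2 hH.hl))
  have h4 := cos_pos_iff429 (θ := θ) (s := r + 2 * Real.pi * n) (by linarith [hH.le])
    (by linarith [hH.lt]) (hcos _ ((dir_int429 n).2 hH.hr))
  exact ⟨n, h3.1, h4.2⟩

/-- the number of the sector `(t + π/2 + A π/3, t + π/2 + (A+1) π/3)` which contains `x` -/
def sec429 (t x : ℝ) : ℤ := ⌊(x - t - Real.pi / 2) / (Real.pi / 3)⌋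

theorem sec_int429 (t x : ℝ) (n : ℤ) : sec429 t (x + 2 * Real.pi * n) = sec429 t x + 6 * n := by
  unfold sec429
  have hp := Real.pi_pos
  have e : (x + 2 * Real.pi * n - t - Real.pi / 2) / (Real.pi / 3) =
      (x - t - Real.pi / 2) / (Real.pi / 3) + ((6 * n : ℤ) : ℝ) := by
    field_simp
    push_cast
    ring
  rw [e, Int.floor_add_intCast]

theorem sec_le429 {t x y : ℝ} (hxy : x ≤ y) : sec429 t x ≤ sec429 t y := by
  have hp := Real.pi_pos
  exact Int.floor_le_floor (by gcongr)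

theorem le_sec429 {t x : ℝ} {j : ℤ} : j ≤ sec429 t x ↔ t + Real.pi / 2 + j * (Real.pi / 3) ≤ x := by
  unfold sec429
  have hp : 0 < Real.pi / 3 := by positivity
  rw [Int.le_floor, le_div_iff₀ hp]
  constructor <;> intro h <;> linarith

theorem sec_lt429 {t x : ℝ} {j : ℤ} : sec429 t x < j ↔ x < t + Real.pi / 2 + j * (Real.pi / 3) := by
  rw [← not_le, le_sec429, not_le]

/-- turning by `60` degrees -/
theorem sec_turn429 (t x : ℝ) : sec429 (t + Real.pi / 3) x = sec429 t x - 1 := by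
  unfold sec429
  have hp := Real.pi_pos
  have e : (x - (t + Real.pi / 3) - Real.pi / 2) / (Real.pi / 3) =
      (x - t - Real.pi / 2) / (Real.pi / 3) - 1 := by
    field_simp
    ring
  rw [e, Int.floor_sub_one]

theorem sec_anti429 {t t' x : ℝ} (ht : t ≤ t') : sec429 t' x ≤ sec429 t x := by
  have hp := Real.pi_pos
  exact Int.floor_le_floor (by gcongr)

/-- **(W5)** the hull covers at most four sectors -/
theorem Hull429.sec_le {z : ℂ} {i : Fin k} {l r : ℝ} (hH : Hull429 T z i l r) (t : ℝ) :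
    sec429 t l ≤ sec429 t r ∧ sec429 t r ≤ sec429 t l + 3 := by
  refine ⟨sec_le429 hH.le, ?_⟩
  have h1 : sec429 t r < sec429 t l + 4 := by
    rw [sec_lt429]
    have h2 := (le_sec429 (t := t) (x := l) (j := sec429 t l)).1 le_rfl
    have h3 := (sec_lt429 (t := t) (x := l) (j := sec429 t l + 1)).1 (by omega)
    have h4 := hH.lt
    push_cast at h3 ⊢
    linarith
  omega

/-- **(W5)** a colour in front of the slot `j` -/
theorem Hull429.sec_inn (h : Irr U T) {z : ℂ} {i : Fin k} {l r t : ℝ} {j : ℤ}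
    (hH : Hull429 T z i l r) (hs : Side429 U z (cis (t + j * (Real.pi / 3))) i) :
    ∃ n : ℤ, j - 3 ≤ sec429 t l + 6 * n ∧ sec429 t r + 6 * n < j := by
  obtain ⟨n, h1, h2⟩ := hH.side h hs
  refine ⟨n, ?_, ?_⟩
  · rw [← sec_int429, le_sec429]
    push_cast
    linarith
  · rw [← sec_int429, sec_lt429]
    linarith

/-- **(W5)** a colour behind the slot `j` -/
theorem Hull429.sec_out (h : Irr U T) {z : ℂ} {i : Fin k} {l r t : ℝ} {j : ℤ}
    (hH : Hull429 T z i l r) (hs : Side429 U z (-cis (t + j * (Real.pi / 3))) i) :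
    ∃ n : ℤ, j ≤ sec429 t l + 6 * n ∧ sec429 t r + 6 * n < j + 3 := by
  have e : -cis (t + j * (Real.pi / 3)) = cis (t + ((j + 3 : ℤ) : ℝ) * (Real.pi / 3)) := by
    rw [show t + ((j + 3 : ℤ) : ℝ) * (Real.pi / 3) = t + j * (Real.pi / 3) + Real.pi by
      push_cast; ring, cis_add_pi326]
  rw [e] at hs
  obtain ⟨n, h1, h2⟩ := hH.sec_inn h hs
  exact ⟨n, by omega, by omega⟩

/-- **(W5)** at a time at which no hull ends on the rays every ray is inside a hull -/
theorem Irr.hull_cover (h : Irr U T) {z : ℂ} {l r : Fin k → ℝ}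
    (hH : ∀ i ∈ T z, Hull429 T z i (l i) (r i)) {t : ℝ}
    (hgen : ∀ i ∈ T z, ∀ n : ℤ, l i ≠ t + Real.pi / 2 + n * (Real.pi / 3)) (j : ℤ) :
    ∃ i ∈ T z, ∃ n : ℤ, sec429 t (l i) + 6 * n < j ∧ j ≤ sec429 t (r i) + 6 * n := by
  obtain ⟨i, hi, hs⟩ := h.dir_cover z (t + Real.pi / 2 + j * (Real.pi / 3))
  obtain ⟨n, h1, h2⟩ := (hH i hi).mem _ hs
  refine ⟨i, hi, n, ?_, ?_⟩
  · rw [← sec_int429, sec_lt429]
    refine lt_of_le_of_ne h1 fun h3 => hgen i hi (j - 6 * n) ?_
    push_cast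
    linarith
  · rw [← sec_int429, le_sec429]
    exact h2

/-- exact arcs of two solid colours separate the hulls -/
theorem Irr.side_of_collar (h : Irr U T) {z : ℂ} {θ : ℝ} {a b : Fin k} (hC : Collar T z θ a b) :
    Side429 U z (cis θ) a ∧ Side429 U z (-cis θ) b := by
  obtain ⟨h1, h2⟩ := collar_iff429.1 hC
  exact ⟨h.innC_side h1, h.outC_side h2⟩

/-- the two orientations of a pair at the direction `θ` -/
def Ori429 (U : Fin k → Set ℂ) (z : ℂ) (θ : ℝ) (a b : Fin k) : Prop :=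
  Side429 U z (cis θ) a ∧ Side429 U z (-cis θ) b

/-- **all windows of a point**: if every colour of `z` has a solid ray and occurs on an exact arc
of `S(z)`, then all colours have hulls and all exact arcs are oriented -/
theorem Irr.hulls_of_solid (h : Irr U T) {z : ℂ} (hz : ∀ i, T z ≠ {i})
    (hsol : ∀ i ∈ T z, ∃ m, m ≠ 0 ∧ Ray (U i) z m)
    (harc : ∀ i ∈ T z, ∃ j ∈ T z, ∃ θ, Arc T z (z + cis θ) {i, j}) :
    ∃ l r : Fin k → ℝ, (∀ i ∈ T z, Hull429 T z i (l i) (r i)) ∧
      ∀ θ, ∀ a ∈ T z, ∀ b ∈ T z, Arc T z (z + cis θ) {a, b} →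
        Ori429 U z θ a b ∨ Ori429 U z θ b a := by
  have hori : ∀ θ, ∀ a ∈ T z, ∀ b ∈ T z, Arc T z (z + cis θ) {a, b} →
      Ori429 U z θ a b ∨ Ori429 U z θ b a := by
    intro θ a ha b hb hg
    obtain ⟨m, hm0, hm⟩ := hsol a ha
    obtain ⟨m', hm0', hm'⟩ := hsol b hb
    rcases h.collar_of_rays hg hm0 hm0' hm hm' with ⟨-, -, hC⟩ | ⟨-, -, hC⟩
    · exact Or.inl (h.side_of_collar hC)
    · exact Or.inr (h.side_of_collar hC)
  have hex : ∀ i, ∃ l r, i ∈ T z → Hull429 T z i l r := by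
    intro i
    by_cases hi : i ∈ T z
    · obtain ⟨j, hj, θ, hg⟩ := harc i hi
      rcases hori θ i hi j hj hg with ⟨h1, -⟩ | ⟨-, h1⟩
      · obtain ⟨l, r, hH, -⟩ := h.exists_hull hi (hz i) h1
        exact ⟨l, r, fun _ => hH⟩
      · have e : -cis θ = cis (θ + Real.pi) := by rw [cis_add_pi326]
        rw [e] at h1
        obtain ⟨l, r, hH, -⟩ := h.exists_hull hi (hz i) h1
        exact ⟨l, r, fun _ => hH⟩
    · exact ⟨0, 0, fun h1 => absurd h1 hi⟩
  choose l r hlr using hex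
  exact ⟨l, r, fun i hi => hlr i hi, hori⟩

/-- a colour carried by `S(z)` at `z + cis θ` has no direction perpendicular to `cis θ` -/
theorem Irr.dir_avoid (h : Irr U T) {z : ℂ} {θ s : ℝ} {i : Fin k} (hg : Car U z (z + cis θ) i)
    {n : ℤ} (hs : s = θ + Real.pi / 2 + n * Real.pi) : s ∉ Dir429 T z i := by
  intro hi
  have e1 : cis (θ + Real.pi / 2) = Complex.I * cis θ := by
    rw [cis_add429]
    have : cis (Real.pi / 2) = Complex.I := by
      unfold cis
      push_cast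
      rw [Complex.exp_pi_div_two_mul_I]
    rw [this, mul_comm]
  have key : ∀ m : ℕ, cis (θ + Real.pi / 2 + m * Real.pi) = Complex.I * cis θ ∨
      cis (θ + Real.pi / 2 + m * Real.pi) = -(Complex.I * cis θ) := by
    intro m
    induction m with
    | zero => left; rw [Nat.cast_zero, zero_mul, add_zero, e1]
    | succ m ih =>
      have e2 : θ + Real.pi / 2 + ((m + 1 : ℕ) : ℝ) * Real.pi =
          θ + Real.pi / 2 + m * Real.pi + Real.pi := by push_cast; ring
      rw [e2, cis_add_pi326]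
      rcases ih with ih | ih
      · right; rw [ih]
      · left; rw [ih, neg_neg]
  have key2 : ∀ m : ℕ, cis (θ + Real.pi / 2 - m * Real.pi) = Complex.I * cis θ ∨
      cis (θ + Real.pi / 2 - m * Real.pi) = -(Complex.I * cis θ) := by
    intro m
    induction m with
    | zero => left; rw [Nat.cast_zero, zero_mul, sub_zero, e1]
    | succ m ih =>
      have e2 : θ + Real.pi / 2 - m * Real.pi =
          θ + Real.pi / 2 - ((m + 1 : ℕ) : ℝ) * Real.pi + Real.pi := by push_cast; ring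
      rw [e2, cis_add_pi326] at ih
      rcases ih with ih | ih
      · right; rw [← ih, neg_neg]
      · left; exact neg_injective ih
  have key3 : cis s = Complex.I * cis θ ∨ cis s = -(Complex.I * cis θ) := by
    rw [hs]
    obtain ⟨m, hm | hm⟩ := n.eq_nat_or_neg
    · rw [hm]; exact_mod_cast key m
    · have := key2 m
      rw [hm]
      push_cast
      rw [neg_mul, ← sub_eq_add_neg]
      exact this
  have e3 : z + cis θ - z = cis θ := by ring
  exact h.tau_avoid hg (m := cis s) (by rw [e3]; exact key3) hi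

end Vale.Agent.P032.Six
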