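import Vale.Agent.P032.H429.Conn

/-!
# P032: the cusp rule and the cover rule in type form

Event at `t0` with letters `P → P'` on `S(z)` at `z + cis t0` and `Q → Q'` at the antipode; ray
`m = I * cis t0`.  `typB` avoids `P ∪ Q`, `typC` (cusp) avoids `P' ∪ Q`, `typA` avoids `P' ∪ Q'`;
`typB ∪ typC` lies in one part of every exact splitting of the complement of `(P ∩ P') ∪ Q`, and
`typC ∪ typA` of `P' ∪ (Q ∩ Q')`; `tau T z m = typB ∪ typC ∪ typA`.
-/

open Set Filter Topology Metric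

noncomputable section

namespace Vale.Agent.P032.Six

variable {k : ℕ} {U : Fin k → Set ℂ} {T : ℂ → Set (Fin k)}

theorem pt429 (z : ℂ) (t0 s r : ℝ) : z + r * (Complex.I * cis t0 * cis s) =
    z + r * (Complex.I * cis (t0 + s)) := by
  rw [cis_add429, mul_assoc]

/-- the crossing near `z + cis t0` -/
theorem Mx.avoid1_429 (h : Mx U) {z : ℂ} {t0 s r a b : ℝ} {i : Fin k}
    (hJ : ∀ t ∈ Ioo a b, i ∈ Pal U (z + cis t)) (hr0 : 0 < r) (hr : r < 1)
    (hs : t0 + s + asn r ∈ Ioo a b) : i ∉ Pal U (z + r * (Complex.I * cis t0 * cis s)) := by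
  have hη : 0 < min (t0 + s + asn r - a) (b - (t0 + s + asn r)) :=
    lt_min (by linarith [hs.1]) (by linarith [hs.2])
  have h1 := h.cross429 (z := z) (θ := t0 + s + asn r) hη (i := i) (fun t ht => hJ t ?_)
    (Or.inl rfl) hr0 hr
  · rw [pt429]
    have e : t0 + s + asn r - 1 * Real.arcsin (r / 2) = t0 + s := by unfold asn; ring
    rw [e, Complex.ofReal_one, one_mul] at h1
    exact h1
  · rw [abs_lt] at ht
    have hm1 := min_le_left (t0 + s + asn r - a) (b - (t0 + s + asn r))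
    have hm2 := min_le_right (t0 + s + asn r - a) (b - (t0 + s + asn r))
    exact ⟨by linarith [ht.1], by linarith [ht.2]⟩

/-- the crossing near the antipode -/
theorem Mx.avoid2_429 (h : Mx U) {z : ℂ} {t0 s r a b : ℝ} {i : Fin k}
    (hJ : ∀ t ∈ Ioo a b, i ∈ Pal U (z + cis t)) (hr0 : 0 < r) (hr : r < 1)
    (hs : t0 + Real.pi + s - asn r ∈ Ioo a b) :
    i ∉ Pal U (z + r * (Complex.I * cis t0 * cis s)) := by
  have hη : 0 < min (t0 + Real.pi + s - asn r - a) (b - (t0 + Real.pi + s - asn r)) :=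
    lt_min (by linarith [hs.1]) (by linarith [hs.2])
  have h1 := h.cross429 (z := z) (θ := t0 + Real.pi + s - asn r) hη (i := i)
    (fun t ht => hJ t ?_) (Or.inr rfl) hr0 hr
  · rw [pt429]
    have e : t0 + Real.pi + s - asn r - -1 * Real.arcsin (r / 2) = t0 + s + Real.pi := by
      unfold asn; ring
    rw [e, cis_add_pi326] at h1
    have e2 : (((-1 : ℝ) : ℂ) * (Complex.I * -cis (t0 + s))) = Complex.I * cis (t0 + s) := by
      push_cast; ring
    rwa [e2] at h1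
  · rw [abs_lt] at ht
    have hm1 := min_le_left (t0 + Real.pi + s - asn r - a) (b - (t0 + Real.pi + s - asn r))
    have hm2 := min_le_right (t0 + Real.pi + s - asn r - a) (b - (t0 + Real.pi + s - asn r))
    exact ⟨by linarith [ht.1], by linarith [ht.2]⟩

/-- colours before and after are on a whole interval -/
theorem both429 {z : ℂ} {t0 : ℝ} {P P' : Set (Fin k)} (hP : BefP U z t0 P)
    (hP' : AftP U z t0 P') : ∃ δ > 0, ∀ t ∈ Ioo (t0 - δ) (t0 + δ), P ∩ P' ⊆ Pal U (z + cis t) := by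
  obtain ⟨δ1, hδ1, h1⟩ := hP
  obtain ⟨δ2, hδ2, h2⟩ := hP'
  refine ⟨min δ1 δ2, lt_min hδ1 hδ2, fun t ht i hi => ?_⟩
  have hm1 := min_le_left δ1 δ2
  have hm2 := min_le_right δ1 δ2
  rcases lt_trichotomy t t0 with h3 | h3 | h3
  · exact h1 t (by linarith [ht.1]) h3 hi.1
  · have hcl : IsClosed {t : ℝ | i ∈ Pal U (z + cis t)} := by
      have : {t : ℝ | i ∈ Pal U (z + cis t)} = (fun t => z + cis t) ⁻¹' closure (U i) := rfl
      rw [this]
      exact isClosed_closure.preimage (continuous_const.add continuous_cis)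
    have h4 : t0 ∈ closure (Ioo t0 (t0 + δ2)) := by
      rw [closure_Ioo (by linarith)]; exact ⟨le_rfl, by linarith⟩
    have h5 := hcl.closure_subset_iff.2 (fun t ht => h2 t ht.1 ht.2 hi.2) h4
    rw [h3]
    exact h5
  · exact h2 t h3 (by linarith [ht.2]) hi.2

section event

variable {z : ℂ} {t0 : ℝ} {P P' Q Q' : Set (Fin k)}

/-- `P` before at `t0` is absent where the crossing is before -/
theorem Mx.b1_429 (h : Mx U) (hP : BefP U z t0 P) : ∃ ε > 0, ∀ s r : ℝ, 0 < r → r < ε →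
    -ε < s → s < -asn r → ∀ i ∈ P, i ∉ Pal U (z + r * (Complex.I * cis t0 * cis s)) := by
  obtain ⟨δ, hδ, h1⟩ := hP
  refine ⟨min δ 1, by positivity, fun s r hr0 hr hs1 hs2 i hi => ?_⟩
  refine h.avoid1_429 (a := t0 - δ) (b := t0) (fun t ht => h1 t ht.1 ht.2 hi) hr0
    (lt_of_lt_of_le hr (min_le_right _ _)) ⟨?_, by linarith⟩
  linarith [asn_pos hr0, min_le_left δ 1]

/-- `P'` after at `t0` is absent where the crossing is after -/
theorem Mx.a1_429 (h : Mx U) (hP : AftP U z t0 P') : ∃ ε > 0, ∀ s r : ℝ, 0 < r → r < ε →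
    -asn r < s → s < ε → ∀ i ∈ P', i ∉ Pal U (z + r * (Complex.I * cis t0 * cis s)) := by
  obtain ⟨δ, hδ, h1⟩ := hP
  obtain ⟨ε, hε, h2, h3, h4⟩ := exists_asn429 (δ := δ / 2) (by positivity)
  refine ⟨ε, hε, fun s r hr0 hr hs1 hs2 i hi => ?_⟩
  refine h.avoid1_429 (a := t0) (b := t0 + δ) (fun t ht => h1 t ht.1 ht.2 hi) hr0
    (by linarith) ⟨by linarith, ?_⟩
  linarith [h4 r hr0 hr]

/-- `Q` before at the antipode is absent where the crossing is before -/
theorem Mx.b2_429 (h : Mx U) (hQ : BefP U z (t0 + Real.pi) Q) : ∃ ε > 0, ∀ s r : ℝ, 0 < r →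
    r < ε → -ε < s → s < asn r → ∀ i ∈ Q, i ∉ Pal U (z + r * (Complex.I * cis t0 * cis s)) := by
  obtain ⟨δ, hδ, h1⟩ := hQ
  obtain ⟨ε, hε, h2, h3, h4⟩ := exists_asn429 (δ := δ / 2) (by positivity)
  refine ⟨ε, hε, fun s r hr0 hr hs1 hs2 i hi => ?_⟩
  refine h.avoid2_429 (a := t0 + Real.pi - δ) (b := t0 + Real.pi)
    (fun t ht => h1 t ht.1 ht.2 hi) hr0 (by linarith) ⟨?_, by linarith⟩
  linarith [h4 r hr0 hr]

/-- `Q'` after at the antipode is absent where the crossing is after -/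
theorem Mx.a2_429 (h : Mx U) (hQ : AftP U z (t0 + Real.pi) Q') : ∃ ε > 0, ∀ s r : ℝ, 0 < r →
    r < ε → asn r < s → s < ε → ∀ i ∈ Q', i ∉ Pal U (z + r * (Complex.I * cis t0 * cis s)) := by
  obtain ⟨δ, hδ, h1⟩ := hQ
  refine ⟨min δ 1, by positivity, fun s r hr0 hr hs1 hs2 i hi => ?_⟩
  refine h.avoid2_429 (a := t0 + Real.pi) (b := t0 + Real.pi + δ)
    (fun t ht => h1 t ht.1 ht.2 hi) hr0
    (lt_of_lt_of_le hr (min_le_right _ _)) ⟨by linarith, ?_⟩
  linarith [asn_pos hr0, min_le_left δ 1]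

/-- a colour before and after at `t0` is absent in the whole sector -/
theorem Mx.c1_429 (h : Mx U) (hP : BefP U z t0 P) (hP' : AftP U z t0 P') : ∃ ε > 0,
    ∀ s r : ℝ, 0 < r → r < ε → -ε < s → s < ε → ∀ i ∈ P ∩ P',
    i ∉ Pal U (z + r * (Complex.I * cis t0 * cis s)) := by
  obtain ⟨δ, hδ, h1⟩ := both429 hP hP'
  obtain ⟨ε, hε, h2, h3, h4⟩ := exists_asn429 (δ := δ / 2) (by positivity)
  refine ⟨ε, hε, fun s r hr0 hr hs1 hs2 i hi => ?_⟩
  refine h.avoid1_429 (a := t0 - δ) (b := t0 + δ) (fun t ht => h1 t ht hi) hr0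
    (by linarith) ⟨?_, ?_⟩
  · linarith [asn_pos hr0]
  · linarith [h4 r hr0 hr]

/-- a colour before and after at the antipode is absent in the whole sector -/
theorem Mx.c2_429 (h : Mx U) (hQ : BefP U z (t0 + Real.pi) Q)
    (hQ' : AftP U z (t0 + Real.pi) Q') : ∃ ε > 0,
    ∀ s r : ℝ, 0 < r → r < ε → -ε < s → s < ε → ∀ i ∈ Q ∩ Q',
    i ∉ Pal U (z + r * (Complex.I * cis t0 * cis s)) := by
  obtain ⟨δ, hδ, h1⟩ := both429 hQ hQ'
  obtain ⟨ε, hε, h2, h3, h4⟩ := exists_asn429 (δ := δ / 2) (by positivity)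
  refine ⟨ε, hε, fun s r hr0 hr hs1 hs2 i hi => ?_⟩
  refine h.avoid2_429 (a := t0 + Real.pi - δ) (b := t0 + Real.pi + δ)
    (fun t ht => h1 t ht hi) hr0 (by linarith) ⟨?_, ?_⟩
  · linarith [h4 r hr0 hr]
  · linarith [asn_pos hr0]

/-- the type before the event avoids the letters before -/
theorem Irr.typB_avoid429 (h : Irr U T) (hP : BefP U z t0 P)
    (hQ : BefP U z (t0 + Real.pi) Q) : Disjoint (P ∪ Q) (typB T z (Complex.I * cis t0)) := by
  obtain ⟨ε1, hε1, h1⟩ := h.mx.b1_429 hP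
  obtain ⟨ε2, hε2, h2⟩ := h.mx.b2_429 hQ
  rw [Set.disjoint_left]
  intro i hi hi'
  obtain ⟨x, ⟨s, r, h3, h4, h5, h6, rfl⟩, h7⟩ := hi' (min ε1 ε2) (lt_min hε1 hε2)
  have hm1 := min_le_left ε1 ε2
  have hm2 := min_le_right ε1 ε2
  simp only at h3 h4
  rcases hi with hi | hi
  · exact h1 s r h5 (by linarith) (by linarith) h4 i hi (h.sub _ h7)
  · exact h2 s r h5 (by linarith) (by linarith) (by linarith [asn_pos h5]) i hi (h.sub _ h7)

/-- **cusp rule**: the type of the cusp avoids the new letter and the old letter of the antipode -/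
theorem Irr.typC_avoid429 (h : Irr U T) (hP : AftP U z t0 P')
    (hQ : BefP U z (t0 + Real.pi) Q) : Disjoint (P' ∪ Q) (typC T z (Complex.I * cis t0)) := by
  obtain ⟨ε1, hε1, h1⟩ := h.mx.a1_429 hP
  obtain ⟨ε2, hε2, h2⟩ := h.mx.b2_429 hQ
  obtain ⟨ε3, hε3, h3', h3'', h3⟩ := exists_asn429 (δ := min ε1 ε2) (lt_min hε1 hε2)
  rw [Set.disjoint_left]
  intro i hi hi'
  obtain ⟨x, ⟨s, r, h4, h5, h6, h7, rfl⟩, h8⟩ := hi' ε3 hε3
  have hm1 := min_le_left ε1 ε2
  have hm2 := min_le_right ε1 ε2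
  have h9 := h3 r h6 h7
  rcases hi with hi | hi
  · exact h1 s r h6 (by linarith) h4 (by linarith) i hi (h.sub _ h8)
  · exact h2 s r h6 (by linarith) (by linarith) h5 i hi (h.sub _ h8)

/-- the type after the event avoids the letters after -/
theorem Irr.typA_avoid429 (h : Irr U T) (hP : AftP U z t0 P')
    (hQ : AftP U z (t0 + Real.pi) Q') : Disjoint (P' ∪ Q') (typA T z (Complex.I * cis t0)) := by
  obtain ⟨ε1, hε1, h1⟩ := h.mx.a1_429 hP
  obtain ⟨ε2, hε2, h2⟩ := h.mx.a2_429 hQ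
  rw [Set.disjoint_left]
  intro i hi hi'
  obtain ⟨x, ⟨s, r, h3, h4, h5, h6, rfl⟩, h7⟩ := hi' (min ε1 ε2) (lt_min hε1 hε2)
  have hm1 := min_le_left ε1 ε2
  have hm2 := min_le_right ε1 ε2
  simp only at h3 h4
  rcases hi with hi | hi
  · exact h1 s r h5 (by linarith) (by linarith [asn_pos h5]) (by linarith) i hi (h.sub _ h7)
  · exact h2 s r h5 (by linarith) h3 (by linarith) i hi (h.sub _ h7)

theorem norm_I_cis429 (t0 : ℝ) : ‖Complex.I * cis t0‖ = 1 := by
  rw [norm_mul, Complex.norm_I, norm_cis, mul_one]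

/-- sectors in a region -/
theorem tau_of_reg429 {z m : ℂ} {f g : ℝ → ℝ} {δ : ℝ} (hδ : 0 < δ) (hf : Continuous f)
    (hg : Continuous g) {A : Set (Fin k)} (hA : ∀ x ∈ reg429 z m f g δ, T x ⊆ A) {s : ℝ}
    (hs1 : f 0 < s) (hs2 : s < g 0) : tau T z (m * cis s) ⊆ A := by
  refine tau_le ?_
  have h1 : ∀ᶠ p : ℝ × ℝ in 𝓝 (0 : ℝ) ×ˢ 𝓝[>] (0 : ℝ), f p.2 < s + p.1 ∧ s + p.1 < g p.2 := by
    have hle : 𝓝 (0 : ℝ) ×ˢ 𝓝[>] (0 : ℝ) ≤ 𝓝 ((0 : ℝ), (0 : ℝ)) := by
      rw [nhds_prod_eq]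
      exact Filter.prod_mono le_rfl nhdsWithin_le_nhds
    have h2 : ∀ᶠ p : ℝ × ℝ in 𝓝 ((0 : ℝ), (0 : ℝ)), f p.2 < s + p.1 := by
      have hc1 : Continuous fun p : ℝ × ℝ => s + p.1 - f p.2 := by fun_prop
      have := hc1.continuousAt.eventually (Ioi_mem_nhds (a := 0)
        (show (0 : ℝ) < s + (((0 : ℝ), (0 : ℝ)) : ℝ × ℝ).1 - f (((0 : ℝ), (0 : ℝ)) : ℝ × ℝ).2 by
          simp only; linarith))
      filter_upwards [this] with p hp
      have hp' : 0 < s + p.1 - f p.2 := hp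
      linarith
    have h3 : ∀ᶠ p : ℝ × ℝ in 𝓝 ((0 : ℝ), (0 : ℝ)), s + p.1 < g p.2 := by
      have hc1 : Continuous fun p : ℝ × ℝ => g p.2 - (s + p.1) := by fun_prop
      have := hc1.continuousAt.eventually (Ioi_mem_nhds (a := 0)
        (show (0 : ℝ) < g (((0 : ℝ), (0 : ℝ)) : ℝ × ℝ).2 - (s + (((0 : ℝ), (0 : ℝ)) : ℝ × ℝ).1) by
          simp only; linarith))
      filter_upwards [this] with p hp
      have hp' : 0 < g p.2 - (s + p.1) := hp
      linarith
    exact (h2.and h3).filter_mono hle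
  have h4' : ∀ᶠ r : ℝ in 𝓝[>] (0 : ℝ), 0 < r ∧ r < δ := by
    filter_upwards [self_mem_nhdsWithin, mem_nhdsWithin_of_mem_nhds (Iio_mem_nhds hδ)] with r h2 h3
    exact ⟨h2, h3⟩
  have h4 : ∀ᶠ p : ℝ × ℝ in 𝓝 (0 : ℝ) ×ˢ 𝓝[>] (0 : ℝ), 0 < p.2 ∧ p.2 < δ :=
    (Filter.tendsto_snd (f := 𝓝 (0 : ℝ)) (g := 𝓝[>] (0 : ℝ))).eventually h4'
  unfold nap
  rw [eventually_map]
  filter_upwards [h1, h4] with p h5 h6
  refine hA _ ⟨s + p.1, p.2, h5.1, h5.2, h6.1, h6.2, ?_⟩
  rw [cis_add429, mul_assoc m]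

/-- **cusp rule, first step**: before and cusp are in one part -/
theorem Irr.typ_BC429 (h : Irr U T)
    (hmin : ∀ z, 4 ≤ (T z).ncard → ∀ s, s ⊆ T z → s ≠ T z →
      ¬ ∀ᶠ w in 𝓝 z, ∃ i ∈ s, w ∈ U i ∨ (w ∈ XX U ∧ i ∈ Pal U w))
    (hP : BefP U z t0 P) (hP' : AftP U z t0 P') (hQ : BefP U z (t0 + Real.pi) Q)
    {A B : Set (Fin k)} (hAB : Disjoint A B) (hz : T z ⊆ ((P ∩ P') ∪ Q) ∪ (A ∪ B))
    (hA2 : A.ncard ≤ 2) (hbr : ∀ a ∈ A, ∀ b ∈ B, ∃ q, dist q z = 1 ∧ T q = {a, b}) :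
    ∃ δ > 0, ((typB T z (Complex.I * cis t0) ⊆ A ∧ typC T z (Complex.I * cis t0) ⊆ A ∧
        ∀ s : ℝ, -δ < s → s < 0 → tau T z (Complex.I * cis t0 * cis s) ⊆ A) ∨
      (typB T z (Complex.I * cis t0) ⊆ B ∧ typC T z (Complex.I * cis t0) ⊆ B ∧
        ∀ s : ℝ, -δ < s → s < 0 → tau T z (Complex.I * cis t0 * cis s) ⊆ B)) := by
  obtain ⟨ε0, hε0, h0⟩ := h.conn_compl429 hmin hAB hz hA2 hbr
  obtain ⟨ε1, hε1, h1⟩ := h.mx.c1_429 hP hP'
  obtain ⟨ε2, hε2, h2⟩ := h.mx.b2_429 hQ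
  have hmpos : 0 < min ε0 (min ε1 ε2) := by positivity
  obtain ⟨ε, hε, h3a, h3b, h3⟩ := exists_asn429 hmpos
  have hm0 := min_le_left ε0 (min ε1 ε2)
  have hm1 := (min_le_right ε0 (min ε1 ε2)).trans (min_le_left ε1 ε2)
  have hm2 := (min_le_right ε0 (min ε1 ε2)).trans (min_le_right ε1 ε2)
  set W := reg429 z (Complex.I * cis t0) (fun _ => -ε) asn ε with hW
  have hWc : IsPreconnected W := reg_preconn429 z _ continuous_const continuous_asn
    fun r hr => by linarith [asn_pos hr]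
  have hWb : W ⊆ ball z ε0 := (reg_ball429 (norm_I_cis429 t0) _ _ _).trans
    (ball_subset_ball (by linarith))
  have hWd : ∀ w ∈ W, Disjoint ((P ∩ P') ∪ Q) (T w) := by
    rintro x ⟨s, r, h4, h5, h6, h7, rfl⟩
    simp only at h4
    have h8 := h3 r h6 h7
    rw [Set.disjoint_left]
    intro i hi hi'
    rcases hi with hi | hi
    · exact h1 s r h6 (by linarith) (by linarith) (by linarith) i hi (h.sub _ hi')
    · exact h2 s r h6 (by linarith) (by linarith) h5 i hi (h.sub _ hi')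
  have hsubB : regB z (Complex.I * cis t0) ε ⊆ W := by
    rintro x ⟨s, r, h4, h5, h6, h7, rfl⟩
    exact ⟨s, r, h4, by simp only at h5; linarith [asn_pos h6], h6, h7, rfl⟩
  obtain ⟨ε', hε', h3a', h3b', h3'⟩ := exists_asn429 hε
  have hsubC : regC z (Complex.I * cis t0) ε' ⊆ W := by
    rintro x ⟨s, r, h4, h5, h6, h7, rfl⟩
    exact ⟨s, r, by simp only; linarith [h3' r h6 h7], h5, h6, by linarith, rfl⟩
  refine ⟨ε, hε, ?_⟩
  rcases h0 W hWc hWb hWd with h4 | h4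
  · refine Or.inl ⟨typ_le429 hε fun x hx => h4 x (hsubB hx), typ_le429 hε' fun x hx =>
      h4 x (hsubC hx), fun s hs1 hs2 => ?_⟩
    exact tau_of_reg429 hε continuous_const continuous_asn h4 hs1
      (by simpa [asn] using hs2)
  · refine Or.inr ⟨typ_le429 hε fun x hx => h4 x (hsubB hx), typ_le429 hε' fun x hx =>
      h4 x (hsubC hx), fun s hs1 hs2 => ?_⟩
    exact tau_of_reg429 hε continuous_const continuous_asn h4 hs1
      (by simpa [asn] using hs2)

/-- **cusp rule, second step**: cusp and after are in one part -/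
theorem Irr.typ_CA429 (h : Irr U T)
    (hmin : ∀ z, 4 ≤ (T z).ncard → ∀ s, s ⊆ T z → s ≠ T z →
      ¬ ∀ᶠ w in 𝓝 z, ∃ i ∈ s, w ∈ U i ∨ (w ∈ XX U ∧ i ∈ Pal U w))
    (hP' : AftP U z t0 P') (hQ : BefP U z (t0 + Real.pi) Q) (hQ' : AftP U z (t0 + Real.pi) Q')
    {A B : Set (Fin k)} (hAB : Disjoint A B) (hz : T z ⊆ (P' ∪ (Q ∩ Q')) ∪ (A ∪ B))
    (hA2 : A.ncard ≤ 2) (hbr : ∀ a ∈ A, ∀ b ∈ B, ∃ q, dist q z = 1 ∧ T q = {a, b}) :
    ∃ δ > 0, ((typC T z (Complex.I * cis t0) ⊆ A ∧ typA T z (Complex.I * cis t0) ⊆ A ∧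
        ∀ s : ℝ, 0 < s → s < δ → tau T z (Complex.I * cis t0 * cis s) ⊆ A) ∨
      (typC T z (Complex.I * cis t0) ⊆ B ∧ typA T z (Complex.I * cis t0) ⊆ B ∧
        ∀ s : ℝ, 0 < s → s < δ → tau T z (Complex.I * cis t0 * cis s) ⊆ B)) := by
  obtain ⟨ε0, hε0, h0⟩ := h.conn_compl429 hmin hAB hz hA2 hbr
  obtain ⟨ε1, hε1, h1⟩ := h.mx.a1_429 hP'
  obtain ⟨ε2, hε2, h2⟩ := h.mx.c2_429 hQ hQ'
  have hmpos : 0 < min ε0 (min ε1 ε2) := by positivity
  obtain ⟨ε, hε, h3a, h3b, h3⟩ := exists_asn429 hmpos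
  have hm0 := min_le_left ε0 (min ε1 ε2)
  have hm1 := (min_le_right ε0 (min ε1 ε2)).trans (min_le_left ε1 ε2)
  have hm2 := (min_le_right ε0 (min ε1 ε2)).trans (min_le_right ε1 ε2)
  set W := reg429 z (Complex.I * cis t0) (fun r => -asn r) (fun _ => ε) ε with hW
  have hnc : Continuous fun r => -asn r := continuous_asn.neg
  have hWc : IsPreconnected W := by
    rw [hW]
    exact reg_preconn429 z _ hnc continuous_const fun r hr => by
      have := asn_pos hr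
      linarith
  have hWb : W ⊆ ball z ε0 := (reg_ball429 (norm_I_cis429 t0) _ _ _).trans
    (ball_subset_ball (by linarith))
  have hWd : ∀ w ∈ W, Disjoint (P' ∪ (Q ∩ Q')) (T w) := by
    rintro x ⟨s, r, h4, h5, h6, h7, rfl⟩
    simp only at h4 h5
    have h8 := h3 r h6 h7
    rw [Set.disjoint_left]
    intro i hi hi'
    rcases hi with hi | hi
    · exact h1 s r h6 (by linarith) h4 (by linarith) i hi (h.sub _ hi')
    · exact h2 s r h6 (by linarith) (by linarith) (by linarith) i hi (h.sub _ hi')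
  have hsubA : regA z (Complex.I * cis t0) ε ⊆ W := by
    rintro x ⟨s, r, h4, h5, h6, h7, rfl⟩
    exact ⟨s, r, by simp only; linarith [asn_pos h6], h5, h6, h7, rfl⟩
  obtain ⟨ε', hε', h3a', h3b', h3'⟩ := exists_asn429 hε
  have hsubC : regC z (Complex.I * cis t0) ε' ⊆ W := by
    rintro x ⟨s, r, h4, h5, h6, h7, rfl⟩
    exact ⟨s, r, h4, by simp only; linarith [h3' r h6 h7], h6, by linarith, rfl⟩
  refine ⟨ε, hε, ?_⟩
  rcases h0 W hWc hWb hWd with h4 | h4
  · refine Or.inl ⟨typ_le429 hε' fun x hx => h4 x (hsubC hx), typ_le429 hε fun x hx =>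
      h4 x (hsubA hx), fun s hs1 hs2 => ?_⟩
    exact tau_of_reg429 hε continuous_asn.neg continuous_const h4
      (by simpa [asn] using hs1) hs2
  · refine Or.inr ⟨typ_le429 hε' fun x hx => h4 x (hsubC hx), typ_le429 hε fun x hx =>
      h4 x (hsubA hx), fun s hs1 hs2 => ?_⟩
    exact tau_of_reg429 hε continuous_asn.neg continuous_const h4
      (by simpa [asn] using hs1) hs2

/-- the regions are near -/
theorem typ_sub_tau429 {z m : ℂ} {f g : ℝ → ℝ → ℝ}
    (hfg : ∀ δ > 0, ∃ ε > 0, ε ≤ δ ∧ ∀ s r : ℝ, f ε r < s → s < g ε r → 0 < r → r < ε → |s| < δ) :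
    typ429 T (fun δ => reg429 z m (f δ) (g δ) δ) ⊆ tau T z m := by
  intro i hi
  by_contra hcon
  have h1 : ∀ᶠ x in nap z m, i ∉ T x := by
    have : ¬ ∃ᶠ x in nap z m, i ∈ T x := hcon
    rwa [Filter.not_frequently] at this
  obtain ⟨δ, hδ, h2⟩ := nap_iff.1 h1
  obtain ⟨ε, hε, hεδ, h3⟩ := hfg δ hδ
  obtain ⟨x, ⟨s, r, h4, h5, h6, h7, rfl⟩, h8⟩ := hi ε hε
  exact h2 s r (h3 s r h4 h5 h6 h7) h6 (by linarith) h8

theorem typB_sub429 (z m : ℂ) : typB T z m ⊆ tau T z m := by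
  refine typ_sub_tau429 (f := fun δ _ => -δ) (g := fun _ r => -asn r) fun δ hδ =>
    ⟨δ, hδ, le_rfl, fun s r h1 h2 h3 _ => ?_⟩
  rw [abs_lt]
  exact ⟨h1, by linarith [asn_pos h3]⟩

theorem typC_sub429 (z m : ℂ) : typC T z m ⊆ tau T z m := by
  refine typ_sub_tau429 (f := fun _ r => -asn r) (g := fun _ r => asn r) fun δ hδ => ?_
  obtain ⟨ε, hε, h1, -, h2⟩ := exists_asn429 hδ
  refine ⟨ε, hε, h1, fun s r h3 h4 h5 h6 => ?_⟩
  rw [abs_lt]
  have := h2 r h5 h6
  exact ⟨by linarith, by linarith⟩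

theorem typA_sub429 (z m : ℂ) : typA T z m ⊆ tau T z m := by
  refine typ_sub_tau429 (f := fun _ r => asn r) (g := fun δ _ => δ) fun δ hδ =>
    ⟨δ, hδ, le_rfl, fun s r h1 h2 h3 _ => ?_⟩
  rw [abs_lt]
  exact ⟨by linarith [asn_pos h3], h2⟩

/-- a pure point near a point of `T`, off two circles -/
theorem Irr.pure_off429 (h : Irr U T) {x y y' : ℂ} {i : Fin k} (hi : i ∈ T x) {N : Set ℂ}
    (hN : N ∈ 𝓝 x) : ∃ w ∈ N, T w = {i} ∧ dist w y ≠ 1 ∧ dist w y' ≠ 1 := by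
  have hVo : IsOpen {w | T w = {i}} := by
    rw [isOpen_iff_mem_nhds]
    intro w hw
    have hw' : T w = {i} := hw
    filter_upwards [h.nhd w] with w' hw'' 
    show T w' = {i}
    rw [hw'] at hw''
    obtain ⟨j, hj⟩ := h.ne w'
    refine Subset.antisymm hw'' ?_
    rintro l hl
    rw [mem_singleton_iff] at hl
    have := hw'' hj
    rw [mem_singleton_iff] at this
    rw [hl, ← this]
    exact hj
  have hcl : x ∈ closure {w | T w = {i}} := mem_closure_iff_frequently.2 (h.pure x i hi)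
  obtain ⟨g, ⟨hgV, hgN⟩, hgy⟩ := exists_off (z := y) hVo hcl (interior_mem_nhds.2 hN)
  have hVo' : IsOpen ({w | T w = {i}} ∩ interior N ∩ {w | dist w y ≠ 1}) := by
    refine (hVo.inter isOpen_interior).inter ?_
    have : {w : ℂ | dist w y ≠ 1} = (fun w => dist w y) ⁻¹' {1}ᶜ := by
      ext w
      simp
    rw [this]
    exact isOpen_compl_singleton.preimage (continuous_id.dist continuous_const)
  obtain ⟨w, ⟨⟨⟨h1, h2⟩, h3⟩, -⟩, h4⟩ := exists_off (z := y') hVo'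
    (subset_closure ⟨⟨hgV, hgN⟩, hgy⟩) univ_mem
  exact ⟨w, interior_subset h2, h1, h3, h4⟩

/-- polar coordinates near a point different from `z` -/
theorem polar_near429 {z : ℂ} {θ r0 : ℝ} (hr0 : 0 < r0) {η : ℝ} (hη : 0 < η) :
    ∀ᶠ g in 𝓝 (z + r0 * cis θ), ∃ ρ s : ℝ, |ρ - r0| < η ∧ |s - θ| < η ∧ g = z + ρ * cis s := by
  have hc : Tendsto (fun g : ℂ => (0 : ℂ) + ((r0⁻¹ : ℝ) : ℂ) * (g - z)) (𝓝 (z + r0 * cis θ))
      (𝓝 (0 + cis θ)) := by
    have h1 : Continuous fun g : ℂ => (0 : ℂ) + ((r0⁻¹ : ℝ) : ℂ) * (g - z) := by fun_prop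
    have h2 := h1.tendsto (z + r0 * cis θ)
    have e : (0 : ℂ) + ((r0⁻¹ : ℝ) : ℂ) * (z + r0 * cis θ - z) = 0 + cis θ := by
      rw [add_sub_cancel_left, ← mul_assoc, ← Complex.ofReal_mul, inv_mul_cancel₀ hr0.ne',
        Complex.ofReal_one, one_mul]
    simp only [e] at h2
    exact h2
  have hmin : 0 < min η (η / r0) := lt_min hη (by positivity)
  filter_upwards [hc.eventually (polar_near (z := 0) (θ := θ) hmin)] with g hg
  obtain ⟨ρ, s, h1, h2, h3⟩ := hg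
  refine ⟨r0 * ρ, s, ?_, lt_of_lt_of_le h2 (min_le_left _ _), ?_⟩
  · have e : r0 * ρ - r0 = r0 * (ρ - 1) := by ring
    rw [e, abs_mul, abs_of_pos hr0]
    have h4 := lt_of_lt_of_le h1 (min_le_right η (η / r0))
    calc r0 * |ρ - 1| < r0 * (η / r0) := by gcongr
      _ = η := by field_simp
  · rw [zero_add, zero_add] at h3
    have h4 : g - z = r0 * (ρ * cis s) := by
      rw [← h3, ← mul_assoc, ← Complex.ofReal_mul, mul_inv_cancel₀ hr0.ne', Complex.ofReal_one,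
        one_mul]
    rw [Complex.ofReal_mul, mul_assoc, ← h4]
    ring

/-- **cover rule at an event**: the three types make up the type of the ray -/
theorem Irr.tau_eq429 (h : Irr U T) (z : ℂ) (t0 : ℝ) : tau T z (Complex.I * cis t0) =
    typB T z (Complex.I * cis t0) ∪ typC T z (Complex.I * cis t0) ∪
      typA T z (Complex.I * cis t0) := by
  refine Subset.antisymm ?_ (union_subset (union_subset (typB_sub429 z _) (typC_sub429 z _))
    (typA_sub429 z _))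
  intro i hi
  by_contra hcon
  rw [mem_union, mem_union, not_or, not_or] at hcon
  obtain ⟨⟨hB, hC⟩, hA⟩ := hcon
  have hB' : ¬ ∀ δ > 0, ∃ x ∈ regB z (Complex.I * cis t0) δ, i ∈ T x := hB
  have hC' : ¬ ∀ δ > 0, ∃ x ∈ regC z (Complex.I * cis t0) δ, i ∈ T x := hC
  have hA' : ¬ ∀ δ > 0, ∃ x ∈ regA z (Complex.I * cis t0) δ, i ∈ T x := hA
  push Not at hB' hC' hA'
  obtain ⟨δ1, hδ1, hB⟩ := hB'
  obtain ⟨δ2, hδ2, hC⟩ := hC'
  obtain ⟨δ3, hδ3, hA⟩ := hA'
  have hm : 0 < min (min δ1 δ2) (min δ3 1) := by positivity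
  set δ := min (min δ1 δ2) (min δ3 1) with hδ
  have hm1 : δ ≤ δ1 := (min_le_left _ _).trans (min_le_left _ _)
  have hm2 : δ ≤ δ2 := (min_le_left _ _).trans (min_le_right _ _)
  have hm3 : δ ≤ δ3 := (min_le_right _ _).trans (min_le_left _ _)
  have hm4 : δ ≤ 1 := (min_le_right _ _).trans (min_le_right _ _)
  have hev : ∀ᶠ x in nap z (Complex.I * cis t0), i ∉ T x := by
    refine nap_iff.2 ⟨δ, hm, fun s r hs hr0 hr hi' => ?_⟩
    rw [pt429] at hi'
    have e0 : Complex.I * cis (t0 + s) = cis (t0 + s + Real.pi / 2) := by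
      rw [cis_add429 (t0 + s)]
      have : cis (Real.pi / 2) = Complex.I := by
        unfold cis
        push_cast
        rw [Complex.exp_pi_div_two_mul_I]
      rw [this, mul_comm]
    rw [e0] at hi'
    have hη : 0 < min (min (δ - |s|) (δ - r)) r := by
      refine lt_min (lt_min (by linarith) (by linarith)) hr0
    have hN := polar_near429 (z := z) (θ := t0 + s + Real.pi / 2) hr0 hη
    obtain ⟨w, ⟨ρ, s', h1, h2, rfl⟩, h3, h4, h5⟩ := h.pure_off429 (y := z + cis t0)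
      (y' := z + cis (t0 + Real.pi)) hi' hN
    have hη1 := (min_le_left (min (δ - |s|) (δ - r)) r).trans (min_le_left _ _)
    have hη2 := (min_le_left (min (δ - |s|) (δ - r)) r).trans (min_le_right _ _)
    have hη3 := min_le_right (min (δ - |s|) (δ - r)) r
    have h1' := abs_lt.1 h1
    have h2' := abs_lt.1 h2
    obtain ⟨u, hu⟩ : ∃ u, u = s' - t0 - Real.pi / 2 := ⟨_, rfl⟩
    have hρ0 : 0 < ρ := by linarith
    have hρδ : ρ < δ := by linarith
    have hsabs := abs_le.1 (le_refl |s|)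
    have hu1 : -δ < u := by rw [hu]; linarith
    have hu2 : u < δ := by rw [hu]; linarith
    have e1 : cis s' = Complex.I * cis t0 * cis u := by
      rw [mul_assoc, ← cis_add429, hu]
      have : cis (Real.pi / 2) = Complex.I := by
        unfold cis
        push_cast
        rw [Complex.exp_pi_div_two_mul_I]
      rw [← this, ← cis_add429]
      congr 1
      ring
    rw [e1] at h3 h4 h5
    -- off the two circles
    have hρ1 : ρ < 1 := by linarith
    have hsin : Real.sin (asn ρ) = ρ / 2 := Real.sin_arcsin (by linarith) (by linarith)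
    have hd1 : dist (z + ρ * (Complex.I * cis t0 * cis u)) (z + cis t0) ^ 2 =
        1 + 2 * ρ * Real.sin u + ρ ^ 2 := by
      rw [mul_assoc Complex.I, ← cis_add429, sq_dist]
      simp only [Complex.add_re, Complex.add_im, Complex.mul_re, Complex.mul_im,
        Complex.ofReal_re, Complex.ofReal_im, Complex.I_re, Complex.I_im, cis_re, cis_im]
      rw [Real.cos_add, Real.sin_add]
      have h6 := Real.sin_sq_add_cos_sq t0
      have h7 := Real.sin_sq_add_cos_sq u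
      linear_combination (1 + 2 * ρ * Real.sin u + ρ ^ 2 * (Real.sin u ^ 2 + Real.cos u ^ 2)) * h6 +
        ρ ^ 2 * h7
    have hd2 : dist (z + ρ * (Complex.I * cis t0 * cis u)) (z + cis (t0 + Real.pi)) ^ 2 =
        1 - 2 * ρ * Real.sin u + ρ ^ 2 := by
      rw [mul_assoc Complex.I, ← cis_add429, cis_add_pi326, sq_dist]
      simp only [Complex.add_re, Complex.add_im, Complex.mul_re, Complex.mul_im, Complex.neg_re,
        Complex.neg_im, Complex.ofReal_re, Complex.ofReal_im, Complex.I_re, Complex.I_im, cis_re,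
        cis_im]
      rw [Real.cos_add, Real.sin_add]
      have h6 := Real.sin_sq_add_cos_sq t0
      have h7 := Real.sin_sq_add_cos_sq u
      linear_combination (1 - 2 * ρ * Real.sin u + ρ ^ 2 * (Real.sin u ^ 2 + Real.cos u ^ 2)) * h6 +
        ρ ^ 2 * h7
    have hne1 : u ≠ -asn ρ := by
      intro h6
      apply h4
      rw [h6, Real.sin_neg, hsin] at hd1
      rw [h6]
      have : dist (z + ρ * (Complex.I * cis t0 * cis (-asn ρ))) (z + cis t0) ^ 2 = 1 := by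
        rw [hd1]; ring
      have h7 := dist_nonneg (x := z + ρ * (Complex.I * cis t0 * cis (-asn ρ)))
        (y := z + cis t0)
      nlinarith
    have hne2 : u ≠ asn ρ := by
      intro h6
      apply h5
      rw [h6, hsin] at hd2
      rw [h6]
      have : dist (z + ρ * (Complex.I * cis t0 * cis (asn ρ))) (z + cis (t0 + Real.pi)) ^ 2 =
          1 := by
        rw [hd2]; ring
      have h7 := dist_nonneg (x := z + ρ * (Complex.I * cis t0 * cis (asn ρ)))
        (y := z + cis (t0 + Real.pi))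
      nlinarith
    have hiw : i ∈ T (z + ρ * (Complex.I * cis t0 * cis u)) := by rw [h3]; rfl
    rcases lt_or_gt_of_ne hne1 with h6 | h6
    · exact hB _ (regB_mono hm1 ⟨u, ρ, hu1, h6, hρ0, hρδ, rfl⟩) hiw
    · rcases lt_or_gt_of_ne hne2 with h7 | h7
      · exact hC _ (regC_mono hm2 ⟨u, ρ, h6, h7, hρ0, hρδ, rfl⟩) hiw
      · exact hA _ (regA_mono hm3 ⟨u, ρ, h7, hu2, hρ0, hρδ, rfl⟩) hiw
  exact (hi.and_eventually hev).exists.elim fun x hx => hx.2 hx.1

/-- the cusp has a colour -/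
theorem Irr.typC_nonempty429 (h : Irr U T) (z m : ℂ) : (typC T z m).Nonempty := by
  obtain ⟨ε, hε, h1⟩ := typ_ev429 T (R := regC z m) fun _ _ => regC_mono
  obtain ⟨i, hi⟩ := h.ne (z + (ε / 2 : ℝ) * (m * cis 0))
  refine ⟨i, h1 ε le_rfl _ ⟨0, ε / 2, ?_, ?_, by positivity, by linarith, rfl⟩ hi⟩
  · linarith [asn_pos (show 0 < ε / 2 by positivity)]
  · exact asn_pos (by positivity)

/-- a cusp with one colour contains a solid ray -/
theorem Irr.ray_of_typC429 (h : Irr U T) {z m : ℂ} {i : Fin k} (hi : typC T z m ⊆ {i}) :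
    Ray (U i) z m := by
  obtain ⟨ε, hε, h1⟩ := typ_ev429 T (R := regC z m) fun _ _ => regC_mono
  refine mem_nhdsGT_iff_exists_Ioo_subset.2 ⟨ε, hε, fun r hr => ?_⟩
  refine h.mem_of_single ((h1 ε le_rfl _ ⟨0, r, ?_, asn_pos hr.1, hr.1, hr.2, ?_⟩).trans hi)
  · linarith [asn_pos hr.1]
  · have e : cis 0 = 1 := by simp [cis]
    rw [e, mul_one]

end event

end Vale.Agent.P032.Six
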