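import Vale.Agent.P032.H429.Fill
import Vale.Agent.P032.H926.Fill
import Vale.Agent.P032.H926.NearFar
import Vale.Agent.P032.S5.Clopen

/-!
# P032: attachment at a centre

`Irr.att429` : a colour `e` of a centre `z` of order at least four such that all other points near
`z` with the colour `e` have at most two colours is attached at `z`: arbitrarily small continua of
`{e ∈ T}` contain `z` and another point.

`Irr.no_island429` : there is no island of `e` with a private point if all points of the island
have at most two colours.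
-/

open Set Filter Topology Metric

noncomputable section

namespace Vale.Agent.P032.H926

variable {K : Set ℂ}

/-- filled compact sets are closed -/
theorem isClosed_fill429 (hb : Bornology.IsBounded K) (hc : IsClosed K) : IsClosed (Fill K) := by
  obtain ⟨R, hR, hKR⟩ := exists_bound hb
  rw [← isOpen_compl_iff]
  rcases (Fill K)ᶜ.eq_empty_or_nonempty with h | ⟨y, hy⟩
  · rw [h]; exact isOpen_empty
  · rw [ext_eq hR hKR hy]
    exact hc.isOpen_compl.connectedComponentIn

/-- the boundary of the filled set is in the set -/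
theorem frontier_fill429 (hc : IsClosed K) {x : ℂ} (hx : x ∈ Fill K)
    (hx' : x ∈ closure (Fill K)ᶜ) : x ∈ K := by
  by_contra hxK
  have h1 : connectedComponentIn Kᶜ x ∈ 𝓝 x :=
    hc.isOpen_compl.connectedComponentIn.mem_nhds (mem_connectedComponentIn hxK)
  obtain ⟨y, hy, hy'⟩ := mem_closure_iff_nhds.1 hx' _ h1
  exact hy' (comp_subset_fill hx hy)

/-- filled continua are connected -/
theorem fill_pre429 (hK : IsPreconnected K) (hc : IsClosed K) (hne : K.Nonempty) :
    IsPreconnected (Fill K) := by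
  obtain ⟨w, hw⟩ := hne
  refine isPreconnected_of_forall w fun y hy => ?_
  by_cases hyK : y ∈ K
  · exact ⟨K, subset_fill K, hw, hyK, hK⟩
  · -- the closure of the component of `y` touches `K`
    set H := connectedComponentIn Kᶜ y with hH
    have hHo : IsOpen H := hc.isOpen_compl.connectedComponentIn
    have hyH : y ∈ H := mem_connectedComponentIn hyK
    have hpre : IsPreconnected H := isPreconnected_connectedComponentIn
    have hfr : closure H ⊆ H ∪ K := by
      intro x hx
      by_cases hxK : x ∈ K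
      · exact Or.inr hxK
      · left
        have h1 : IsPreconnected (insert x H) :=
          hpre.subset_closure (subset_insert _ _) (insert_subset hx subset_closure)
        have h2 : insert x H ⊆ Kᶜ := by
          rintro v (rfl | hv)
          · exact hxK
          · exact connectedComponentIn_subset _ _ hv
        exact h1.subset_connectedComponentIn (mem_insert_of_mem _ hyH) h2 (mem_insert _ _)
    have htouch : ∃ x ∈ K, x ∈ closure H := by
      by_contra hcon
      push Not at hcon
      have h1 : IsClosed H := isClosed_of_closure_subset fun x hx => by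
        rcases hfr hx with h2 | h2
        · exact h2
        · exact absurd hx (hcon x h2)
      have h2 : H = univ := IsClopen.eq_univ ⟨h1, hHo⟩ ⟨y, hyH⟩
      have h3 : w ∈ H := by rw [h2]; trivial
      exact connectedComponentIn_subset _ _ h3 hw
    obtain ⟨x, hxK, hxH⟩ := htouch
    have h1 : IsPreconnected (insert x H) :=
      hpre.subset_closure (subset_insert _ _) (insert_subset hxH subset_closure)
    refine ⟨K ∪ insert x H, ?_, Or.inl hw, Or.inr (mem_insert_of_mem _ hyH),
      hK.union x hxK (mem_insert _ _) h1⟩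
    refine union_subset (subset_fill K) (insert_subset (subset_fill K hxK) ?_)
    exact comp_subset_fill hy

end Vale.Agent.P032.H926

namespace Vale.Agent.P032.Six

open Vale.Agent.P032.H926

variable {k : ℕ} {U : Fin k → Set ℂ} {T : ℂ → Set (Fin k)}

/-- **No islands.** -/
theorem Irr.no_island429 (h : Irr U T) {e : Fin k} {A : Set (Fin k)} {K : Set ℂ} {c : ℂ} {ε : ℝ}
    (hε : 0 < ε) (hε1 : ε < 1) (hK : IsCompact K) (hKc : IsPreconnected K) (hKb : K ⊆ ball c ε)
    (heK : ∀ x ∈ K, e ∈ T x) (hA : ∀ x ∈ K, T x ⊆ A) (h2 : ∀ x ∈ K, (T x).ncard ≤ 2)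
    (hcomp : ∀ x ∈ K, ∃ δ > 0, ∀ S : Set ℂ, IsPreconnected S → x ∈ S → S ⊆ ball x δ →
      (∀ y ∈ S, e ∈ T y) → S ⊆ K) {w : ℂ} (hw : w ∈ K) (hpriv : ∀ f ∈ A, f ≠ e → w ∉ U f) :
    False := by
  have hKcl := hK.isClosed
  have hKbd := hK.isBounded
  have hBcl := isClosed_fill429 hKbd hKcl
  have hBb : Fill K ⊆ ball c ε := fill_subset hε hKb
  -- the boundary points
  have hbd : ∀ x ∈ Fill K, x ∈ closure (Fill K)ᶜ → ∃ f, f ≠ e ∧ f ∈ A ∧ T x = {e, f} := by
    intro x hx hx'
    have hxK := frontier_fill429 hKcl hx hx'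
    have h1 : T x ≠ {e} := by
      intro h1
      obtain ⟨δ, hδ, hS⟩ := hcomp x hxK
      have h3 : ∀ᶠ y in 𝓝 x, e ∈ T y := by
        filter_upwards [h.nhd x] with y hy
        obtain ⟨j, hj⟩ := h.ne y
        have h4 := hy hj
        rw [h1, mem_singleton_iff] at h4
        exact h4 ▸ hj
      obtain ⟨r, hr, hb⟩ := Metric.eventually_nhds_iff_ball.1 h3
      have h5 := hS (ball x (min r δ)) (convex_ball _ _).isPreconnected
        (mem_ball_self (lt_min hr hδ)) (ball_subset_ball (min_le_right _ _))
        fun y hy => hb y (ball_subset_ball (min_le_left _ _) hy)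
      obtain ⟨y, hy, hy'⟩ := mem_closure_iff_nhds.1 hx' _ (ball_mem_nhds x (lt_min hr hδ))
      exact hy' (subset_fill K (h5 hy))
    obtain ⟨f, hf, hfe⟩ : ∃ f ∈ T x, f ≠ e := by
      by_contra hcon
      push Not at hcon
      refine h1 (Subset.antisymm (fun m hm => hcon m hm) ?_)
      rintro m rfl
      exact heK x hxK
    refine ⟨f, hfe, hA x hxK hf, ?_⟩
    symm
    refine Set.eq_of_subset_of_ncard_le ?_ ?_ (Set.toFinite _)
    · rintro m (rfl | rfl)
      · exact heK x hxK
      · exact hf
    · rw [Set.ncard_pair hfe.symm]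
      exact h2 x hxK
  -- one colour
  have hne : ∃ x ∈ Fill K, x ∈ closure (Fill K)ᶜ := by
    have h1 : (closure (Fill K)ᶜ).Nonempty := by
      refine ⟨c + (ε : ℂ), subset_closure fun h3 => ?_⟩
      have := hBb h3
      rw [mem_ball, dist_eq_norm, add_sub_cancel_left, Complex.norm_real, Real.norm_eq_abs,
        abs_of_pos hε] at this
      exact lt_irrefl _ this
    obtain ⟨x, -, hx, hx'⟩ := isPreconnected_closed_iff.1 (isPreconnected_univ (α := ℂ)) (Fill K)
      (closure (Fill K)ᶜ) hBcl isClosed_closure (fun x _ => by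
        by_cases hx : x ∈ Fill K
        · exact Or.inl hx
        · exact Or.inr (subset_closure hx)) ⟨w, trivial, subset_fill K hw⟩
      (by obtain ⟨x, hx⟩ := h1; exact ⟨x, trivial, hx⟩)
    exact ⟨x, hx, hx'⟩
  obtain ⟨x0, hx0, hx0'⟩ := hne
  obtain ⟨f, hfe, hfA, hTx0⟩ := hbd x0 hx0 hx0'
  have hone : ∀ x ∈ Fill K, x ∈ closure (Fill K)ᶜ → T x = {e, f} := by
    intro x hx hx'
    obtain ⟨f', hf'e, hf'A, hTx⟩ := hbd x hx hx'
    by_cases hff : f' = f
    · rw [hTx, hff]
    exfalso
    set P : Set ℂ := {v | f ∈ T v} ∩ (Fill K ∩ closure (Fill K)ᶜ) with hP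
    set Q : Set ℂ := (⋃ j ∈ {j : Fin k | j ≠ e ∧ j ≠ f}, {v | j ∈ T v}) ∩
      (Fill K ∩ closure (Fill K)ᶜ) with hQ
    have hPc : IsClosed P := (h.closed f).inter (hBcl.inter isClosed_closure)
    have hQc : IsClosed Q := ((Set.toFinite _).isClosed_biUnion fun j _ => h.closed j).inter
      (hBcl.inter isClosed_closure)
    have hPQ : Disjoint P Q := by
      rw [Set.disjoint_left]
      rintro v ⟨hv1, hv2, hv3⟩ ⟨hv4, -⟩
      obtain ⟨j, ⟨hje, hjf⟩, hj⟩ := mem_iUnion₂.1 hv4
      obtain ⟨g, hg, -, hTv⟩ := hbd v hv2 hv3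
      have e1 : f = g := by
        have : f ∈ T v := hv1
        rw [hTv] at this
        rcases this with h5 | h5
        · exact absurd h5 hfe
        · exact h5
      have e2 : j = g := by
        have : j ∈ T v := hj
        rw [hTv] at this
        rcases this with h5 | h5
        · exact absurd h5 hje
        · exact h5
      exact hjf (e2.trans e1.symm)
    obtain ⟨φ, hφ0, hφ1, -⟩ := exists_continuous_zero_one_of_isClosed hPc hQc hPQ
    refine not_both (A := closure (Fill K)ᶜ) (B := Fill K) isClosed_closure hBcl ?_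
      (ext_pre hKbd).closure (fill_pre429 hKc hKcl ⟨w, hw⟩) φ.continuous ?_
      (p := x0) (q := x) ⟨hx0', hx0⟩ ⟨hx', hx⟩ (hφ0 ⟨?_, hx0, hx0'⟩) (hφ1 ⟨?_, hx, hx'⟩)
    · ext v
      simp only [mem_union, mem_univ, iff_true]
      by_cases hv : v ∈ Fill K
      · exact Or.inr hv
      · exact Or.inl (subset_closure hv)
    · rintro v ⟨hv', hv⟩
      obtain ⟨g, hg, -, hTv⟩ := hbd v hv hv'
      by_cases hgf : g = f
      · left
        refine hφ0 ⟨?_, hv, hv'⟩
        show f ∈ T v
        rw [hTv, hgf]
        simp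
      · right
        refine hφ1 ⟨mem_iUnion₂.2 ⟨g, ⟨hg, hgf⟩, ?_⟩, hv, hv'⟩
        show g ∈ T v
        rw [hTv]
        simp
    · show f ∈ T x0
      rw [hTx0]
      simp
    · refine mem_iUnion₂.2 ⟨f', ⟨hf'e, hff⟩, ?_⟩
      show f' ∈ T x
      rw [hTx]
      simp
  -- a wall of `f` through the private point
  have hwf := hpriv f hfA hfe
  obtain ⟨y, hy, hwy⟩ : ∃ y ∈ closure (U f), dist w y = 1 := by
    by_contra hcon
    push Not at hcon
    exact hwf (h.max f w hcon)
  have hyP : f ∈ Pal U y := hy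
  obtain ⟨t0, ht0⟩ := exists_cis (u := w - y) (by rw [← dist_eq_norm]; exact hwy)
  have hcont : Continuous fun t : ℝ => y + cis t := continuous_const.add continuous_cis
  have hcl : IsClosed {t : ℝ | y + cis t ∈ Fill K} := hBcl.preimage hcont
  have hop : IsOpen {t : ℝ | y + cis t ∈ Fill K} := by
    rw [isOpen_iff_mem_nhds]
    intro t ht
    have ht : y + cis t ∈ Fill K := ht
    by_cases hint : y + cis t ∈ closure (Fill K)ᶜ
    · have hxK := frontier_fill429 hKcl ht hint
      obtain ⟨δ, hδ, hS⟩ := hcomp _ hxK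
      have h1 : ∀ᶠ v in 𝓝 (y + cis t), T v ⊆ {e, f} ∧ dist v (y + cis t) < δ := by
        have := h.nhd (y + cis t)
        rw [hone _ ht hint] at this
        exact this.and (ball_mem_nhds _ hδ)
      obtain ⟨η, hη, hb⟩ := Metric.eventually_nhds_iff.1 (hcont.continuousAt.eventually h1)
      have hb' : ∀ s : ℝ, |s - t| < η → T (y + cis s) ⊆ {e, f} ∧
          dist (y + cis s) (y + cis t) < δ := fun s hs => hb (by rw [Real.dist_eq]; exact hs)
      have h3 := hS ((fun s : ℝ => y + cis s) '' Ioo (t - η) (t + η))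
        (isPreconnected_Ioo.image _ hcont.continuousOn) ⟨t, ⟨by linarith, by linarith⟩, rfl⟩
        (by
          rintro _ ⟨s, ⟨hs1, hs2⟩, rfl⟩
          exact (hb' s (abs_lt.2 ⟨by linarith, by linarith⟩)).2)
        (by
          rintro _ ⟨s, ⟨hs1, hs2⟩, rfl⟩
          have h4 := (hb' s (abs_lt.2 ⟨by linarith, by linarith⟩)).1
          by_contra hcon
          have h5 : T (y + cis s) ⊆ {f} := by
            intro m hm
            rcases h4 hm with h6 | h6
            · exact absurd (h6 ▸ hm) hcon
            · exact h6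
          exact h.mx.notMem' (h.mem_of_single h5) (dist_add_cis y s) hyP)
      refine mem_of_superset (Ioo_mem_nhds (show t - η < t by linarith)
        (show t < t + η by linarith)) fun s hs => ?_
      exact subset_fill K (h3 ⟨s, hs, rfl⟩)
    · have h1 : ∀ᶠ v in 𝓝 (y + cis t), v ∈ (closure (Fill K)ᶜ)ᶜ :=
        isClosed_closure.isOpen_compl.mem_nhds hint
      filter_upwards [hcont.continuousAt.eventually h1] with s hs
      by_contra hcon
      exact hs (subset_closure hcon)
  have huniv : {t : ℝ | y + cis t ∈ Fill K} = univ := IsClopen.eq_univ ⟨hcl, hop⟩ ⟨t0, by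
    show y + cis t0 ∈ Fill K
    rw [← ht0, add_sub_cancel]
    exact subset_fill K hw⟩
  have hall : ∀ t : ℝ, y + cis t ∈ ball c ε := fun t => hBb (by
    have : t ∈ {t : ℝ | y + cis t ∈ Fill K} := by rw [huniv]; trivial
    exact this)
  have h3 := hall 0
  have h4 := hall Real.pi
  rw [mem_ball] at h3 h4
  have e1 : cis 0 = 1 := by simp [cis]
  have e2 : cis Real.pi = -1 := by simp [cis]
  rw [e1] at h3
  rw [e2] at h4
  have h5 := dist_triangle_right (y + 1) (y + -1) c
  have h6 : dist (y + 1) (y + -1) = 2 := by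
    rw [dist_eq_norm]
    have : y + 1 - (y + -1) = 2 := by ring
    rw [this]
    norm_num
  linarith


/-- **(ATT)** a colour without corners is attached at `z` -/
theorem Irr.att429 (h : Irr U T)
    (hmin : ∀ z, 4 ≤ (T z).ncard → ∀ s, s ⊆ T z → s ≠ T z →
      ¬ ∀ᶠ w in 𝓝 z, ∃ i ∈ s, w ∈ U i ∨ (w ∈ XX U ∧ i ∈ Pal U w)) {z : ℂ} {e : Fin k}
    (h4 : 4 ≤ (T z).ncard) (he : e ∈ T z)
    (h2 : ∀ᶠ w in 𝓝 z, w ≠ z → e ∈ T w → (T w).ncard ≤ 2) {ε : ℝ} (hε : 0 < ε) :
    ∃ C : Set ℂ, IsPreconnected C ∧ z ∈ C ∧ C ⊆ ball z ε ∧ (∀ x ∈ C, e ∈ T x) ∧ ∃ y ∈ C, y ≠ z := by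
  obtain ⟨ρ, hρ, hb⟩ := Metric.eventually_nhds_iff_ball.1 (h2.and (h.nhd z))
  set η := min (min ε ρ) 1 / 2 with hη
  have hm : 0 < min (min ε ρ) 1 := lt_min (lt_min hε hρ) one_pos
  have hη0 : 0 < η := by positivity
  have hηε : η < ε := by
    have := (min_le_left (min ε ρ) 1).trans (min_le_left ε ρ)
    linarith
  have hηρ : η < ρ := by
    have := (min_le_left (min ε ρ) 1).trans (min_le_right ε ρ)
    linarith
  have hη1 : η < 1 := by
    have := min_le_right (min ε ρ) 1
    linarith
  set F : Set ℂ := {x | e ∈ T x} ∩ closedBall z η with hF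
  have hFc : IsCompact F := (isCompact_closedBall z η).inter_left (h.closed e)
  have hzF : z ∈ F := ⟨he, mem_closedBall_self hη0.le⟩
  have hFb : ∀ x ∈ F, x ∈ ball z ρ := fun x hx => by
    have h3 := hx.2
    rw [mem_closedBall] at h3
    rw [mem_ball]
    linarith
  by_cases hcz : ∃ y ∈ connectedComponentIn F z, y ≠ z
  · refine ⟨connectedComponentIn F z, isPreconnected_connectedComponentIn,
      mem_connectedComponentIn hzF, fun x hx => ?_, fun x hx =>
      (connectedComponentIn_subset F z hx).1, hcz⟩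
    have h3 := (connectedComponentIn_subset F z hx).2
    rw [mem_closedBall] at h3
    rw [mem_ball]
    linarith
  · exfalso
    push Not at hcz
    -- a clopen part of `F` around `z` which misses the sphere
    have : CompactSpace F := isCompact_iff_compactSpace.1 hFc
    obtain ⟨N, hN, hzN, hNd⟩ := S5.exists_clopen_point (C := F) (x := ⟨z, hzF⟩)
      (Y := {x : F | dist (x : ℂ) z = η}) (isClosed_eq (by fun_prop) continuous_const) (by
        intro y hy hyc
        have h3 : (y : ℂ) ∈ connectedComponentIn F z := by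
          rw [connectedComponentIn_eq_image hzF]
          exact ⟨y, hyc, rfl⟩
        have h4 := hcz _ h3
        have h5 : dist (y : ℂ) z = η := hy
        rw [h4, dist_self] at h5
        linarith)
    -- points near `z` are in this part
    have hnear : ∀ᶠ w in 𝓝 z, ∀ hw : w ∈ F, (⟨w, hw⟩ : F) ∈ N := by
      obtain ⟨O, hO, hON⟩ := isOpen_induced_iff.1 hN.isOpen
      have hzO : z ∈ O := by
        have : (⟨z, hzF⟩ : F) ∈ Subtype.val ⁻¹' O := by rw [hON]; exact hzN
        exact this
      filter_upwards [hO.mem_nhds hzO] with w hw hwF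
      have : (⟨w, hwF⟩ : F) ∈ Subtype.val ⁻¹' O := hw
      rwa [hON] at this
    obtain ⟨w, ⟨hw1, hw2, hw3⟩, hw4, hw5⟩ := ((h.private429 hmin h4 he).and_eventually
      (hnear.and (closedBall_mem_nhds z hη0))).exists
    have hwF : w ∈ F := ⟨by show e ∈ T w; rw [hw1]; rfl, hw5⟩
    have hwz : w ≠ z := by
      rintro rfl
      rw [hw1, Set.ncard_singleton] at h4
      omega
    set K := connectedComponentIn F w with hK
    have hKF : K ⊆ F := connectedComponentIn_subset F w
    have hwK : w ∈ K := mem_connectedComponentIn hwF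
    have hKp : IsPreconnected K := isPreconnected_connectedComponentIn
    have hKc : IsCompact K := hFc.of_isClosed_subset (isClosed_comp hFc.isClosed w) hKF
    have hzK : z ∉ K := fun hz => hwz (hcz w (by
      rw [← connectedComponentIn_eq hz]
      exact hwK))
    -- `K` is in the clopen part
    have hKN : ∀ x (hx : x ∈ F), x ∈ K → (⟨x, hx⟩ : F) ∈ N := by
      intro x hx hxK
      have h3 : (⟨x, hx⟩ : F) ∈ connectedComponent (⟨w, hwF⟩ : F) := by
        rw [hK, connectedComponentIn_eq_image hwF] at hxK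
        obtain ⟨x', hx', hxx⟩ := hxK
        have : x' = ⟨x, hx⟩ := Subtype.ext hxx
        rwa [this] at hx'
      exact hN.connectedComponent_subset (hw4 hwF) h3
    have hKb : K ⊆ ball z η := by
      intro x hx
      have h3 := (hKF hx).2
      rw [mem_closedBall] at h3
      rw [mem_ball]
      refine lt_of_le_of_ne h3 fun h4 => ?_
      exact Set.disjoint_left.1 hNd (hKN x (hKF hx) hx) h4
    refine h.no_island429 (A := T z) hη0 hη1 hKc hKp hKb (fun x hx => (hKF hx).1)
      (fun x hx => (hb x (hFb x (hKF hx))).2)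
      (fun x hx => (hb x (hFb x (hKF hx))).1 (fun hxz => hzK (hxz ▸ hx)) (hKF hx).1) ?_ hwK
      (fun f hf hfe => hw3 f hf hfe)
    intro x hx
    obtain ⟨δ, hδ, hδb⟩ := Metric.isOpen_iff.1 isOpen_ball x (hKb hx)
    refine ⟨δ, hδ, fun S hS hxS hSδ hSe => ?_⟩
    have h3 : S ⊆ F := fun y hy => ⟨hSe y hy, ball_subset_closedBall (hδb (hSδ hy))⟩
    have h5 := hS.subset_connectedComponentIn hxS h3
    rwa [← connectedComponentIn_eq hx] at h5

end Vale.Agent.P032.Six
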