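import Vale.Agent.P032.H429.Hull

/-!
# P032: types on connected sets and the cusp rule

`Irr.conn429`: the rule (T2) for arbitrary connected sets near `z`.  `typB`, `typC`, `typA`: the
types of the three regions (before, cusp, after) of an event ray `m`; `Irr.tau_eq429`: they make up
`tau`; `Irr.typ_avoid429`, `Irr.typ_conn429`: the cusp rule.
-/

open Set Filter Topology Metric

noncomputable section

namespace Vale.Agent.P032.Six

variable {k : ℕ} {U : Fin k → Set ℂ} {T : ℂ → Set (Fin k)}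

/-- two parts of the colours which do not meet on a connected set -/
theorem Irr.conn_split429 (h : Irr U T) {W : Set ℂ} {A B : Set (Fin k)} (hW : IsPreconnected W)
    (hAB : Disjoint A B) (hWd : ∀ w ∈ W, T w ⊆ A ∨ T w ⊆ B) :
    (∀ w ∈ W, T w ⊆ A) ∨ ∀ w ∈ W, T w ⊆ B := by
  have hcl : ∀ C : Set (Fin k), IsClosed {x : ℂ | ∃ i ∈ C, i ∈ T x} := by
    intro C
    have : {x : ℂ | ∃ i ∈ C, i ∈ T x} = ⋃ i ∈ C, {x | i ∈ T x} := by
      ext x; simp
    rw [this]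
    exact (Set.toFinite C).isClosed_biUnion fun i _ => h.closed i
  have hcov : W ⊆ {x : ℂ | ∃ i ∈ A, i ∈ T x} ∪ {x : ℂ | ∃ i ∈ B, i ∈ T x} := by
    intro x hx
    obtain ⟨i, hi⟩ := h.ne x
    rcases hWd x hx with h2 | h2
    · exact Or.inl ⟨i, h2 hi, hi⟩
    · exact Or.inr ⟨i, h2 hi, hi⟩
  have hdis : ∀ x ∈ W, (∃ i ∈ A, i ∈ T x) → (∃ i ∈ B, i ∈ T x) → False := by
    rintro x hx ⟨i, hiA, hi⟩ ⟨j, hjB, hj⟩
    rcases hWd x hx with h2 | h2
    · exact Set.disjoint_left.1 hAB (h2 hj) hjB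
    · exact Set.disjoint_left.1 hAB hiA (h2 hi)
  by_cases hA : ∃ x ∈ W, ∃ i ∈ A, i ∈ T x
  · left
    intro y hy
    rcases hWd y hy with h2 | h2
    · exact h2
    · exfalso
      obtain ⟨x, hx, hxA⟩ := hA
      obtain ⟨j, hj⟩ := h.ne y
      obtain ⟨w, hw, hwA, hwB⟩ := isPreconnected_closed_iff.1 hW _ _ (hcl A)
        (hcl B) hcov ⟨x, hx, hxA⟩ ⟨y, hy, j, h2 hj, hj⟩
      exact hdis w hw hwA hwB
  · right
    push Not at hA
    intro y hy
    rcases hWd y hy with h2 | h2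
    · obtain ⟨i, hi⟩ := h.ne y
      exact absurd hi (hA y hy i (h2 hi))
    · exact h2

/-- **(T2) for arbitrary connected sets** -/
theorem Irr.conn429 (h : Irr U T)
    (hmin : ∀ z, 4 ≤ (T z).ncard → ∀ s, s ⊆ T z → s ≠ T z →
      ¬ ∀ᶠ w in 𝓝 z, ∃ i ∈ s, w ∈ U i ∨ (w ∈ XX U ∧ i ∈ Pal U w)) (z : ℂ)
    {A B : Set (Fin k)} (hAB : Disjoint A B) (hA2 : A.ncard ≤ 2)
    (hbr : ∀ a ∈ A, ∀ b ∈ B, ∃ q, dist q z = 1 ∧ T q = {a, b}) :
    ∃ ε > 0, ∀ W : Set ℂ, IsPreconnected W → W ⊆ ball z ε → (∀ w ∈ W, T w ⊆ A ∪ B) →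
      (∀ w ∈ W, T w ⊆ A) ∨ ∀ w ∈ W, T w ⊆ B := by
  have h1 := h.split_gen hmin (z := z) (C := (A ∪ B)ᶜ) (A := A) (B := B)
    (by rw [Set.compl_union_self]; exact subset_univ _) hA2 hbr
  obtain ⟨ε, hε, hball⟩ := Metric.eventually_nhds_iff_ball.1 h1
  refine ⟨ε, hε, fun W hW hWε hWs => h.conn_split429 hW hAB fun w hw => ?_⟩
  exact hball w (hWε hw) (Set.disjoint_left.2 fun i hi hi' => hi (hWs w hw hi'))

/-- **(T2) for connected sets without the colours `C`** -/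
theorem Irr.conn_compl429 (h : Irr U T)
    (hmin : ∀ z, 4 ≤ (T z).ncard → ∀ s, s ⊆ T z → s ≠ T z →
      ¬ ∀ᶠ w in 𝓝 z, ∃ i ∈ s, w ∈ U i ∨ (w ∈ XX U ∧ i ∈ Pal U w)) {z : ℂ}
    {A B C : Set (Fin k)} (hAB : Disjoint A B) (hz : T z ⊆ C ∪ (A ∪ B)) (hA2 : A.ncard ≤ 2)
    (hbr : ∀ a ∈ A, ∀ b ∈ B, ∃ q, dist q z = 1 ∧ T q = {a, b}) :
    ∃ ε > 0, ∀ W : Set ℂ, IsPreconnected W → W ⊆ ball z ε → (∀ w ∈ W, Disjoint C (T w)) →
      (∀ w ∈ W, T w ⊆ A) ∨ ∀ w ∈ W, T w ⊆ B := by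
  have h1 := h.split_gen hmin hz hA2 hbr
  obtain ⟨ε, hε, hball⟩ := Metric.eventually_nhds_iff_ball.1 h1
  exact ⟨ε, hε, fun W hW hWε hWs => h.conn_split429 hW hAB fun w hw =>
    hball w (hWε hw) (hWs w hw)⟩

/-- the crossing point of `S(x)` and `S(z)` -/
theorem Mx.cross429 (h : Mx U) {z : ℂ} {θ η r : ℝ} (hη : 0 < η) {i : Fin k}
    (hJ : ∀ t : ℝ, |t - θ| < η → i ∈ Pal U (z + cis t)) {σ : ℝ} (hσ : σ = 1 ∨ σ = -1)
    (hr0 : 0 < r) (hr : r < 1) :
    i ∉ Pal U (z + r * (σ * (Complex.I * cis (θ - σ * Real.arcsin (r / 2))))) := by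
  set d := Real.arcsin (r / 2) with hd
  have hsd : Real.sin d = r / 2 := Real.sin_arcsin (by linarith) (by linarith)
  have hd0 : 0 < d := Real.arcsin_pos.2 (by linarith)
  have hd1 : d ≤ Real.pi / 6 := by
    have h1 : Real.sin (Real.pi / 6) = 1 / 2 := Real.sin_pi_div_six
    have h2 : Real.arcsin (r / 2) ≤ Real.arcsin (1 / 2) := Real.monotone_arcsin (by linarith)
    have h3 : Real.arcsin (1 / 2) = Real.pi / 6 := by
      rw [← h1]
      exact Real.arcsin_sin (by linarith [Real.pi_pos]) (by linarith [Real.pi_pos])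
    linarith
  set u := min (η / 2) (1 / 2) with hu
  have hu0 : 0 < u := by positivity
  have hu1 : u ≤ 1 / 2 := min_le_right _ _
  have huη : u < η := lt_of_le_of_lt (min_le_left _ _) (by linarith)
  have hpi := Real.pi_gt_three
  have hpi4 : Real.pi < 3.15 := Real.pi_lt_d2
  have key0 : ∀ t ψ : ℝ, dist (z + cis t) (z + r * (σ * (Complex.I * cis ψ))) ^ 2 =
      1 - 2 * r * σ * Real.sin (t - ψ) + r ^ 2 := by
    intro t ψ
    have hσ2 : σ ^ 2 = 1 := by rcases hσ with rfl | rfl <;> norm_num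
    rw [sq_dist]
    simp only [Complex.add_re, Complex.add_im, Complex.mul_re, Complex.mul_im, Complex.ofReal_re,
      Complex.ofReal_im, Complex.I_re, Complex.I_im, cis_re, cis_im]
    rw [Real.sin_sub]
    have h1 := Real.sin_sq_add_cos_sq t
    have h2 := Real.sin_sq_add_cos_sq ψ
    linear_combination h1 + r ^ 2 * σ ^ 2 * h2 + r ^ 2 * hσ2
  have key := fun t => key0 t (θ - σ * d)
  have hsin1 : r / 2 < Real.sin (u + d) := by
    rw [← hsd]
    exact Real.sin_lt_sin_of_lt_of_le_pi_div_two (by linarith) (by linarith) (by linarith)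
  have hsin2 : Real.sin (-u + d) < r / 2 := by
    rw [← hsd]
    exact Real.sin_lt_sin_of_lt_of_le_pi_div_two (by linarith) (by linarith) (by linarith)
  refine h.swept (z := z) (t1 := θ + σ * u) (t2 := θ - σ * u) ?_ ?_ ?_
  · intro t ht
    refine hJ t ?_
    rw [abs_lt]
    rcases hσ with rfl | rfl
    · rw [uIcc_of_ge (by linarith)] at ht
      exact ⟨by linarith [ht.1], by linarith [ht.2]⟩
    · rw [uIcc_of_le (by linarith)] at ht
      exact ⟨by linarith [ht.1], by linarith [ht.2]⟩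
  · have h1 := key (θ + σ * u)
    have h3 : σ * Real.sin (θ + σ * u - (θ - σ * d)) = Real.sin (u + d) := by
      rcases hσ with rfl | rfl
      · rw [show θ + 1 * u - (θ - 1 * d) = u + d by ring]; ring
      · rw [show θ + -1 * u - (θ - -1 * d) = -(u + d) by ring, Real.sin_neg]; ring
    have h4 : 2 * r * σ * Real.sin (θ + σ * u - (θ - σ * d)) = 2 * r * Real.sin (u + d) := by
      rw [mul_assoc (2 * r), h3]
    rw [h4] at h1
    have hd' := dist_nonneg (x := z + cis (θ + σ * u))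
      (y := z + r * (σ * (Complex.I * cis (θ - σ * d))))
    nlinarith [hr0, hsin1]
  · have h1 := key (θ - σ * u)
    have h3 : σ * Real.sin (θ - σ * u - (θ - σ * d)) = Real.sin (-u + d) := by
      rcases hσ with rfl | rfl
      · rw [show θ - 1 * u - (θ - 1 * d) = -u + d by ring]; ring
      · rw [show θ - -1 * u - (θ - -1 * d) = -(-u + d) by ring, Real.sin_neg]; ring
    have h4 : 2 * r * σ * Real.sin (θ - σ * u - (θ - σ * d)) = 2 * r * Real.sin (-u + d) := by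
      rw [mul_assoc (2 * r), h3]
    rw [h4] at h1
    have hd' := dist_nonneg (x := z + cis (θ - σ * u))
      (y := z + r * (σ * (Complex.I * cis (θ - σ * d))))
    nlinarith [hr0, hsin2]

/-- the region between the angles `f r` and `g r` about the direction `m` -/
def reg429 (z m : ℂ) (f g : ℝ → ℝ) (δ : ℝ) : Set ℂ :=
  {x | ∃ s r : ℝ, f r < s ∧ s < g r ∧ 0 < r ∧ r < δ ∧ x = z + r * (m * cis s)}

theorem reg_preconn429 (z m : ℂ) {f g : ℝ → ℝ} (hf : Continuous f) (hg : Continuous g) {δ : ℝ}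
    (hfg : ∀ r, 0 < r → f r < g r) : IsPreconnected (reg429 z m f g δ) := by
  have e : reg429 z m f g δ = (fun p : ℝ × ℝ => z + p.2 * (m * cis (f p.2 + p.1 *
      (g p.2 - f p.2)))) '' (Ioo 0 1 ×ˢ Ioo 0 δ) := by
    ext x
    constructor
    · rintro ⟨s, r, h1, h2, h3, h4, rfl⟩
      have h5 := hfg r h3
      refine ⟨((s - f r) / (g r - f r), r), ⟨⟨?_, ?_⟩, h3, h4⟩, ?_⟩
      · show 0 < (s - f r) / (g r - f r)
        exact div_pos (by linarith) (by linarith)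
      · show (s - f r) / (g r - f r) < 1
        rw [div_lt_one (by linarith)]
        linarith
      · show z + r * (m * cis (f r + (s - f r) / (g r - f r) * (g r - f r))) = _
        rw [div_mul_cancel₀ _ (by linarith), add_sub_cancel]
    · rintro ⟨⟨p, r⟩, ⟨⟨h1, h2⟩, h3, h4⟩, rfl⟩
      have h3' : 0 < r := h3
      have h1' : 0 < p := h1
      have h2' : p < 1 := h2
      have h5 := hfg r h3
      refine ⟨f r + p * (g r - f r), r, ?_, ?_, h3, h4, rfl⟩
      · nlinarith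
      · nlinarith
  rw [e]
  refine (isPreconnected_Ioo.prod isPreconnected_Ioo).image _ ?_
  have := continuous_cis
  exact Continuous.continuousOn (by fun_prop)

theorem reg_ball429 {z m : ℂ} (hm : ‖m‖ = 1) (f g : ℝ → ℝ) (δ : ℝ) :
    reg429 z m f g δ ⊆ ball z δ := by
  rintro x ⟨s, r, -, -, h3, h4, rfl⟩
  rw [mem_ball, dist_eq_norm, add_sub_cancel_left, norm_mul, norm_mul, hm, norm_cis,
    mul_one, mul_one, Complex.norm_real, Real.norm_eq_abs, abs_of_pos h3]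
  exact h4

/-- half the opening angle of the cusp -/
def asn (r : ℝ) : ℝ := Real.arcsin (r / 2)

theorem continuous_asn : Continuous asn := by
  unfold asn
  exact Real.continuous_arcsin.comp (by fun_prop)

theorem asn_pos {r : ℝ} (hr : 0 < r) : 0 < asn r := Real.arcsin_pos.2 (by linarith)

/-- small radii have small cusps -/
theorem exists_asn429 {δ : ℝ} (hδ : 0 < δ) : ∃ ε > 0, ε ≤ δ ∧ ε ≤ 1 ∧ ∀ r, 0 < r → r < ε →
    asn r < δ := by
  have h1 : Tendsto asn (𝓝 0) (𝓝 0) := by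
    have := continuous_asn.tendsto 0
    simpa [asn] using this
  obtain ⟨ε, hε, h2⟩ := Metric.eventually_nhds_iff.1 (h1.eventually (Iio_mem_nhds hδ))
  refine ⟨min ε (min δ 1), by positivity, (min_le_right _ _).trans (min_le_left _ _),
    (min_le_right _ _).trans (min_le_right _ _), fun r h3 h4 => h2 (y := r) ?_⟩
  rw [Real.dist_eq, sub_zero, abs_of_pos h3]
  exact lt_of_lt_of_le h4 (min_le_left _ _)

/-- the type of a family of regions -/
def typ429 (T : ℂ → Set (Fin k)) (R : ℝ → Set ℂ) : Set (Fin k) :=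
  {i | ∀ δ > 0, ∃ x ∈ R δ, i ∈ T x}

/-- the region before the event -/
def regB (z m : ℂ) (δ : ℝ) : Set ℂ := reg429 z m (fun _ => -δ) (fun r => -asn r) δ
/-- the cusp -/
def regC (z m : ℂ) (δ : ℝ) : Set ℂ := reg429 z m (fun r => -asn r) asn δ
/-- the region after the event -/
def regA (z m : ℂ) (δ : ℝ) : Set ℂ := reg429 z m asn (fun _ => δ) δ

/-- the type before the event -/
def typB (T : ℂ → Set (Fin k)) (z m : ℂ) : Set (Fin k) := typ429 T (regB z m)
/-- the type of the cusp -/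
def typC (T : ℂ → Set (Fin k)) (z m : ℂ) : Set (Fin k) := typ429 T (regC z m)
/-- the type after the event -/
def typA (T : ℂ → Set (Fin k)) (z m : ℂ) : Set (Fin k) := typ429 T (regA z m)

theorem regB_mono {z m : ℂ} {δ δ' : ℝ} (h : δ ≤ δ') : regB z m δ ⊆ regB z m δ' := by
  rintro x ⟨s, r, h1, h2, h3, h4, rfl⟩
  exact ⟨s, r, by simp only at h1 ⊢; linarith, h2, h3, by linarith, rfl⟩

theorem regC_mono {z m : ℂ} {δ δ' : ℝ} (h : δ ≤ δ') : regC z m δ ⊆ regC z m δ' := by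
  rintro x ⟨s, r, h1, h2, h3, h4, rfl⟩
  exact ⟨s, r, h1, h2, h3, by linarith, rfl⟩

theorem regA_mono {z m : ℂ} {δ δ' : ℝ} (h : δ ≤ δ') : regA z m δ ⊆ regA z m δ' := by
  rintro x ⟨s, r, h1, h2, h3, h4, rfl⟩
  exact ⟨s, r, h1, by simp only at h2 ⊢; linarith, h3, by linarith, rfl⟩

theorem typ_ev429 (T : ℂ → Set (Fin k)) {R : ℝ → Set ℂ} (hR : ∀ δ δ', δ ≤ δ' → R δ ⊆ R δ') :
    ∃ ε > 0, ∀ δ, δ ≤ ε → ∀ x ∈ R δ, T x ⊆ typ429 T R := by
  have h1 : ∀ i, ∃ ε > 0, i ∈ typ429 T R ∨ ∀ x ∈ R ε, i ∉ T x := by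
    intro i
    by_cases hi : i ∈ typ429 T R
    · exact ⟨1, one_pos, Or.inl hi⟩
    · have : ¬ ∀ δ > 0, ∃ x ∈ R δ, i ∈ T x := hi
      push Not at this
      obtain ⟨δ, hδ, h2⟩ := this
      exact ⟨δ, hδ, Or.inr h2⟩
  choose ε hε h2 using h1
  rcases isEmpty_or_nonempty (Fin k) with hk | hk
  · exact ⟨1, one_pos, fun δ _ x _ i _ => (hk.false i).elim⟩
  · obtain ⟨i0, hi0⟩ := Finite.exists_min ε
    refine ⟨ε i0, hε i0, fun δ hδ x hx i hi => ?_⟩
    rcases h2 i with h3 | h3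
    · exact h3
    · exact absurd hi (h3 x (hR _ _ (hδ.trans (hi0 i)) hx))

theorem typ_le429 {R : ℝ → Set ℂ} {A : Set (Fin k)} {ε : ℝ} (hε : 0 < ε) (h : ∀ x ∈ R ε, T x ⊆ A) : typ429 T R ⊆ A := by
  intro i hi
  obtain ⟨x, hx, hi'⟩ := hi ε hε
  exact h x hx hi'

theorem typ_avoid429 {R : ℝ → Set ℂ} {i : Fin k} {ε : ℝ} (hε : 0 < ε)
    (h : ∀ x ∈ R ε, i ∉ T x) : i ∉ typ429 T R := by
  intro hi
  obtain ⟨x, hx, hi'⟩ := hi ε hε
  exact h x hx hi'

/-- the colours `P` are on `S(z)` just before `t0` -/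
def BefP (U : Fin k → Set ℂ) (z : ℂ) (t0 : ℝ) (P : Set (Fin k)) : Prop :=
  ∃ δ > 0, ∀ t : ℝ, t0 - δ < t → t < t0 → P ⊆ Pal U (z + cis t)

/-- the colours `P` are on `S(z)` just after `t0` -/
def AftP (U : Fin k → Set ℂ) (z : ℂ) (t0 : ℝ) (P : Set (Fin k)) : Prop :=
  ∃ δ > 0, ∀ t : ℝ, t0 < t → t < t0 + δ → P ⊆ Pal U (z + cis t)

end Vale.Agent.P032.Six
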