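import Vale.Agent.P032.H429.Front
import Vale.Agent.P032.H429.Types2

/-!
# P032: the partner rule of the points of islands near a centre without corners

`Irr.partner429` : near a centre `z` without corners, a point `x` with the colour `c` whose component
in `{c ∈ T}` (in a small disc) misses `z` is in `U f` for a colour `f ≠ c`, and the segment from `z`
to `x` contains a point with the palette `{c, f}`.
-/

open Set Filter Topology Metric

noncomputable section

namespace Vale.Agent.P032.Six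

open Vale.Agent.P032.H926

variable {k : ℕ} {U : Fin k → Set ℂ} {T : ℂ → Set (Fin k)}

theorem norm_cis_sub429 (t : ℝ) : ‖cis t - 1‖ ≤ |t| := by
  have h1 : ‖cis t - 1‖ ^ 2 = 2 - 2 * Real.cos t := by
    rw [← Complex.normSq_eq_norm_sq, Complex.normSq_apply]
    simp only [Complex.sub_re, Complex.sub_im, Complex.one_re, Complex.one_im, cis_re, cis_im]
    have := Real.sin_sq_add_cos_sq t
    linear_combination this
  have h2 := Real.one_sub_sq_div_two_le_cos (x := t)
  refine abs_le_of_sq_le_sq' ?_ (abs_nonneg t) |>.2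
  rw [h1, sq_abs]
  linarith

theorem sin_half429 {σ : ℝ} (h0 : 0 < σ) (h1 : σ ≤ 1) : σ / 2 ≤ Real.sin σ := by
  have h2 := Real.sin_gt_sub_cube h0
  have h3 : σ ^ 3 ≤ σ := by
    have h4 : σ ^ 2 ≤ 1 := by nlinarith
    nlinarith
  linarith

theorem cross_est429 {r i x y κ σ s C A : ℝ} (hκ1 : κ ≤ 1) (hσ : 0 < σ) (hσ1 : 6 * σ ≤ κ)
    (hs : σ / 2 ≤ s) (hC0 : 0 ≤ C) (hC : C ≤ σ ^ 2 / 2) (hr0 : 0 ≤ r) (hsum : 1 ≤ r + i)
    (hx : x ≤ σ ^ 2 / 2) (hy : y ≤ C) (hA : i * s - σ ^ 2 / 2 - C ≤ A) :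
    x + -(r * s) + y - κ / 2 * A ≤ 0 := by
  have hκ0 : 0 < κ := by linarith
  have hs0 : 0 < s := by linarith
  have h10 : κ / 2 * (i * s - σ ^ 2 / 2 - C) ≤ κ / 2 * A :=
    mul_le_mul_of_nonneg_left hA (by linarith)
  have h11 : κ / 2 * (r * s) ≤ 1 * (r * s) :=
    mul_le_mul_of_nonneg_right (by linarith) (mul_nonneg hr0 hs0.le)
  have h12 : κ / 2 * s * 1 ≤ κ / 2 * s * (r + i) :=
    mul_le_mul_of_nonneg_left hsum (by positivity)
  have h13 : κ / 2 * (σ / 2) ≤ κ / 2 * s := mul_le_mul_of_nonneg_left hs (by linarith)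
  have h14 : 6 * σ * (σ / 4) ≤ κ * (σ / 4) := mul_le_mul_of_nonneg_right hσ1 (by linarith)
  have h15 : κ / 2 * (σ ^ 2 / 2 + C) ≤ 1 / 2 * (σ ^ 2 / 2 + C) :=
    mul_le_mul_of_nonneg_right (by linarith) (by positivity)
  have h16 : κ / 2 * (i * s - σ ^ 2 / 2 - C) = κ / 2 * s * i - κ / 2 * (σ ^ 2 / 2 + C) := by ring
  have h17 : κ / 2 * s * (r + i) = κ / 2 * (r * s) + κ / 2 * s * i := by ring
  have h18 : κ / 2 * (σ / 2) = κ * (σ / 4) := by ring
  have h19 : 6 * σ * (σ / 4) = 3 / 2 * σ ^ 2 := by ring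
  linarith

theorem cross_aux429 {X W : ℂ} {κ σ : ℝ} (hκ1 : κ ≤ 1) (hσ : 0 < σ) (hσ1 : 6 * σ ≤ κ)
    (hX : ‖X‖ ≤ σ ^ 2 / 2) (hW : ‖W‖ = 1) (him : κ / 2 * |X.re| < X.im) :
    ∃ t : ℝ, |t| ≤ σ ∧ |(X + W * (cis t - 1)).im| ≤ κ / 2 * |(X + W * (cis t - 1)).re| := by
  have hσ2 : σ ≤ 1 := by linarith
  have hs := sin_half429 hσ hσ2
  have hs1 := Real.sin_le hσ.le
  have hc := Real.one_sub_sq_div_two_le_cos (x := σ)
  have hc1 := Real.cos_le_one σ
  have hWsq : W.re ^ 2 + W.im ^ 2 = 1 := by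
    have h1 := Complex.normSq_apply W
    rw [Complex.normSq_eq_norm_sq, hW] at h1
    linarith
  have hWr : |W.re| ≤ 1 := abs_le_one_iff_mul_self_le_one.2 (by nlinarith [sq_nonneg W.im])
  have hWi : |W.im| ≤ 1 := abs_le_one_iff_mul_self_le_one.2 (by nlinarith [sq_nonneg W.re])
  have hsum : 1 ≤ |W.re| + |W.im| := by
    nlinarith [sq_abs W.re, sq_abs W.im, abs_nonneg W.re, abs_nonneg W.im]
  have hXr : |X.re| ≤ σ ^ 2 / 2 := (Complex.abs_re_le_norm X).trans hX
  have hXi : |X.im| ≤ σ ^ 2 / 2 := (Complex.abs_im_le_norm X).trans hX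
  have hre : ∀ t : ℝ, (X + W * (cis t - 1)).re =
      X.re + W.re * (Real.cos t - 1) - W.im * Real.sin t := by
    intro t
    simp only [Complex.add_re, Complex.mul_re, Complex.sub_re, Complex.sub_im, Complex.one_re,
      Complex.one_im, cis_re, cis_im]
    ring
  have him' : ∀ t : ℝ, (X + W * (cis t - 1)).im =
      X.im + W.re * Real.sin t + W.im * (Real.cos t - 1) := by
    intro t
    simp only [Complex.add_im, Complex.mul_im, Complex.sub_re, Complex.sub_im, Complex.one_re,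
      Complex.one_im, cis_re, cis_im]
    ring
  set G : ℝ → ℝ := fun t => (X + W * (cis t - 1)).im - κ / 2 * |(X + W * (cis t - 1)).re| with hG
  have hGc : Continuous G := by
    have := continuous_cis
    rw [hG]
    fun_prop
  have hG0 : 0 < G 0 := by
    have e : cis 0 = 1 := by simp [cis]
    show 0 < (X + W * (cis 0 - 1)).im - κ / 2 * |(X + W * (cis 0 - 1)).re|
    rw [e, sub_self, mul_zero, add_zero]
    linarith
  -- the time at which the circle has crossed
  have key : ∀ t1 : ℝ, Real.cos t1 = Real.cos σ → W.re * Real.sin t1 = -(|W.re| * Real.sin σ) →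
      |W.im * Real.sin t1| = |W.im| * Real.sin σ → G t1 ≤ 0 := by
    intro t1 h1 h2 h3
    show (X + W * (cis t1 - 1)).im - κ / 2 * |(X + W * (cis t1 - 1)).re| ≤ 0
    rw [hre, him', h1, h2]
    have hC : 0 ≤ 1 - Real.cos σ := by linarith
    have h4 : |W.im| * Real.sin σ - σ ^ 2 / 2 - (1 - Real.cos σ) ≤
        |X.re + W.re * (Real.cos σ - 1) - W.im * Real.sin t1| := by
      have h5 : |W.im * Real.sin t1| - |X.re + W.re * (Real.cos σ - 1)| ≤
          |X.re + W.re * (Real.cos σ - 1) - W.im * Real.sin t1| := by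
        rw [abs_sub_comm (X.re + W.re * (Real.cos σ - 1))]
        exact abs_sub_abs_le_abs_sub _ _
      have h6 : |X.re + W.re * (Real.cos σ - 1)| ≤ σ ^ 2 / 2 + (1 - Real.cos σ) := by
        refine (abs_add_le _ _).trans (add_le_add hXr ?_)
        rw [abs_mul, abs_sub_comm, abs_of_nonneg hC]
        exact mul_le_of_le_one_left hC hWr
      rw [h3] at h5
      linarith
    have h7 : W.im * (Real.cos σ - 1) ≤ 1 - Real.cos σ := by
      have h8 : 0 ≤ (W.im + 1) * (1 - Real.cos σ) :=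
        mul_nonneg (by linarith [(abs_le.1 hWi).1]) hC
      linarith
    exact cross_est429 hκ1 hσ hσ1 hs hC (by linarith) (abs_nonneg _) hsum
      ((le_abs_self _).trans hXi) h7 h4
  obtain ⟨t1, ht1, hGt⟩ : ∃ t1 : ℝ, |t1| ≤ σ ∧ G t1 ≤ 0 := by
    have hsp : 0 < Real.sin σ := by linarith
    rcases le_total 0 W.re with h1 | h1
    · refine ⟨-σ, by rw [abs_neg, abs_of_pos hσ], key _ (Real.cos_neg σ) ?_ ?_⟩
      · rw [Real.sin_neg, abs_of_nonneg h1]; ring
      · rw [Real.sin_neg, abs_mul, abs_neg, abs_of_pos hsp]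
    · refine ⟨σ, by rw [abs_of_pos hσ], key _ rfl ?_ ?_⟩
      · rw [abs_of_nonpos h1]; ring
      · rw [abs_mul, abs_of_pos hsp]
  obtain ⟨t, ht, htG⟩ := intermediate_value_uIcc (a := (0 : ℝ)) (b := t1) hGc.continuousOn
    (show (0 : ℝ) ∈ uIcc (G 0) (G t1) from mem_uIcc.2 (Or.inr ⟨hGt, hG0.le⟩))
  refine ⟨t, ?_, ?_⟩
  · rw [mem_uIcc] at ht
    rw [abs_le] at ht1 ⊢
    rcases ht with ⟨h1, h2⟩ | ⟨h1, h2⟩ <;> constructor <;> linarith
  · have h1 : (X + W * (cis t - 1)).im = κ / 2 * |(X + W * (cis t - 1)).re| := by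
      have : G t = 0 := htG
      have h2 : (X + W * (cis t - 1)).im - κ / 2 * |(X + W * (cis t - 1)).re| = 0 := this
      linarith
    rw [h1, abs_of_nonneg]
    have : 0 ≤ κ / 2 := by linarith
    positivity

theorem cross429 {X W : ℂ} {κ σ : ℝ} (hκ1 : κ ≤ 1) (hσ : 0 < σ) (hσ1 : 6 * σ ≤ κ)
    (hX : ‖X‖ ≤ σ ^ 2 / 2) (hW : ‖W‖ = 1) :
    ∃ t : ℝ, |t| ≤ σ ∧ |(X + W * (cis t - 1)).im| ≤ κ / 2 * |(X + W * (cis t - 1)).re| := by
  by_cases h0 : |X.im| ≤ κ / 2 * |X.re|
  · refine ⟨0, by rw [abs_zero]; exact hσ.le, ?_⟩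
    have e : cis 0 = 1 := by simp [cis]
    rw [e, sub_self, mul_zero, add_zero]
    exact h0
  push Not at h0
  rcases le_total 0 X.im with h1 | h1
  · rw [abs_of_nonneg h1] at h0
    exact cross_aux429 hκ1 hσ hσ1 hX hW h0
  · rw [abs_of_nonpos h1] at h0
    obtain ⟨t, ht, h2⟩ := cross_aux429 (X := -X) (W := -W) hκ1 hσ hσ1 (by rwa [norm_neg])
      (by rwa [norm_neg]) (by rw [Complex.neg_re, Complex.neg_im, abs_neg]; exact h0)
    refine ⟨t, ht, ?_⟩
    have e : -X + -W * (cis t - 1) = -(X + W * (cis t - 1)) := by ring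
    rwa [e, Complex.neg_im, Complex.neg_re, abs_neg, abs_neg] at h2

/-- sectors in cartesian form -/
theorem cart_nap429 {z n : ℂ} {p : ℂ → Prop} (h : ∀ᶠ x in nap z n, p x) :
    ∃ κ > 0, ∃ ε > 0, ∀ Y : ℂ, 0 < Y.re → |Y.im| ≤ κ * Y.re → ‖Y‖ < ε → p (z + n * Y) := by
  obtain ⟨δ, hδ, h1⟩ := nap_iff.1 h
  obtain ⟨d, hd⟩ : ∃ d, d = min δ 1 := ⟨_, rfl⟩
  have hd0 : 0 < d := by rw [hd]; exact lt_min hδ one_pos
  have hd1 : d ≤ 1 := by rw [hd]; exact min_le_right _ _
  have hdδ : d ≤ δ := by rw [hd]; exact min_le_left _ _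
  refine ⟨d / 4, by positivity, δ, hδ, fun Y hY hi hn => ?_⟩
  have hN : 0 < ‖Y‖ := norm_pos_iff.2 fun h2 => by rw [h2] at hY; simp at hY
  have harg : |Y.arg| < Real.pi / 2 := Complex.abs_arg_lt_pi_div_two_iff.2 (Or.inl hY)
  have hlt : |Y.arg| < d := by
    by_contra hcon
    push Not at hcon
    have h2 : Real.sin d ≤ Real.sin |Y.arg| :=
      Real.sin_le_sin_of_le_of_le_pi_div_two (by linarith [Real.pi_pos]) harg.le hcon
    have h3 := sin_half429 hd0 hd1
    have h4 : Real.sin |Y.arg| = |Real.sin Y.arg| := by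
      rcases le_total 0 Y.arg with h5 | h5
      · rw [abs_of_nonneg h5, abs_of_nonneg]
        exact Real.sin_nonneg_of_nonneg_of_le_pi h5 (by
          have := le_abs_self Y.arg
          linarith [Real.pi_pos])
      · rw [abs_of_nonpos h5, Real.sin_neg, abs_of_nonpos]
        have h6 := neg_abs_le Y.arg
        have : 0 ≤ Real.sin (-Y.arg) :=
          Real.sin_nonneg_of_nonneg_of_le_pi (by linarith) (by linarith [Real.pi_pos])
        rw [Real.sin_neg] at this
        linarith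
    have h5 : ‖Y‖ * |Real.sin Y.arg| = |Y.im| := by
      rw [← Complex.norm_mul_sin_arg Y, abs_mul, abs_of_pos hN]
    have h6 : Y.re ≤ ‖Y‖ := Complex.re_le_norm Y
    have h7 : |Y.im| ≤ d / 4 * ‖Y‖ := hi.trans (mul_le_mul_of_nonneg_left h6 (by positivity))
    rw [← h5] at h7
    have h8 : |Real.sin Y.arg| ≤ d / 4 := by
      by_contra h9
      push Not at h9
      nlinarith
    linarith
  have h2 := h1 Y.arg ‖Y‖ (lt_of_lt_of_le hlt hdδ) hN hn
  have e : (‖Y‖ : ℂ) * (n * cis Y.arg) = n * Y := by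
    have h3 := Complex.norm_mul_exp_arg_mul_I Y
    unfold cis
    rw [mul_left_comm, h3]
  rwa [e] at h2

/-- **the partner rule** -/
theorem Irr.partner429 (h : Irr U T) {z g : ℂ} {c : Fin k} (hg : Car U z g c)
    (h2 : ∀ᶠ w in 𝓝[≠] z, (T w).ncard ≤ 2) : ∀ᶠ ε in 𝓝[>] (0 : ℝ), ∃ ρ > 0, ∀ x ∈ ball z ρ,
      c ∈ T x → z ∉ connectedComponentIn ({y | c ∈ T y} ∩ closedBall z ε) x →
        ∃ f, f ≠ c ∧ x ∈ U f ∧ ∃ p ∈ segment ℝ z x, T p = {c, f} := by
  obtain ⟨t0, ht0⟩ := exists_cis (u := g - z) (by rw [← dist_eq_norm]; exact hg.1)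
  have hgt : g = z + cis t0 := by rw [← ht0]; ring
  rw [hgt] at hg
  obtain ⟨η, hη, hJ⟩ := hg.exists_eta
  obtain ⟨n, hn⟩ : ∃ n, n = Complex.I * cis t0 := ⟨_, rfl⟩
  have hn1 : ‖n‖ = 1 := by rw [hn, norm_mul, Complex.norm_I, norm_cis, one_mul]
  have hn0 : n ≠ 0 := fun h0 => by rw [h0, norm_zero] at hn1; norm_num at hn1
  have k1 : ∀ᶠ x in nap z n, c ∉ T x := by
    have h3 := h.mx.nap_avoid (z := z) hη hJ (σ := 1) (Or.inl rfl)
    have e : ((1 : ℝ) : ℂ) * (Complex.I * cis t0) = n := by rw [hn]; push_cast; ring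
    rw [e] at h3
    filter_upwards [h3] with x hx hx' using hx (h.sub x hx')
  have k2 : ∀ᶠ x in nap z (-n), c ∉ T x := by
    have h3 := h.mx.nap_avoid (z := z) hη hJ (σ := -1) (Or.inr rfl)
    have e : ((-1 : ℝ) : ℂ) * (Complex.I * cis t0) = -n := by rw [hn]; push_cast; ring
    rw [e] at h3
    filter_upwards [h3] with x hx hx' using hx (h.sub x hx')
  obtain ⟨κ1, hκ1, ε1, hε1, c1⟩ := cart_nap429 k1
  obtain ⟨κ2, hκ2, ε2, hε2, c2⟩ := cart_nap429 k2
  obtain ⟨κ, hκ⟩ : ∃ κ, κ = min (min κ1 κ2) 1 := ⟨_, rfl⟩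
  have hκ0 : 0 < κ := by rw [hκ]; exact lt_min (lt_min hκ1 hκ2) one_pos
  have hκle : κ ≤ 1 := by rw [hκ]; exact min_le_right _ _
  have hκ1' : κ ≤ κ1 := by rw [hκ]; exact (min_le_left _ _).trans (min_le_left _ _)
  have hκ2' : κ ≤ κ2 := by rw [hκ]; exact (min_le_left _ _).trans (min_le_right _ _)
  have hcone : ∀ Y : ℂ, Y ≠ 0 → |Y.im| ≤ κ / 2 * |Y.re| → ‖Y‖ < min ε1 ε2 → c ∉ T (z + n * Y) := by
    intro Y hY0 hY hYn
    have hr : Y.re ≠ 0 := by
      intro h0
      rw [h0, abs_zero, mul_zero] at hY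
      exact hY0 (Complex.ext h0 (abs_eq_zero.1 (le_antisymm hY (abs_nonneg _))))
    rcases lt_or_gt_of_ne hr with h0 | h0
    · have h3 := c2 (-Y) (by rw [Complex.neg_re]; linarith) (by
        rw [Complex.neg_im, abs_neg, Complex.neg_re]
        rw [abs_of_neg h0] at hY
        nlinarith) (by rw [norm_neg]; exact lt_of_lt_of_le hYn (min_le_right _ _))
      rwa [neg_mul_neg] at h3
    · refine c1 Y h0 ?_ (lt_of_lt_of_le hYn (min_le_left _ _))
      rw [abs_of_pos h0] at hY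
      nlinarith
  obtain ⟨ε3, hε3, hb3⟩ := Metric.eventually_nhds_iff.1 (eventually_nhdsWithin_iff.1 h2)
  have hm : 0 < min (min ε1 ε2) ε3 := lt_min (lt_min hε1 hε2) hε3
  refine mem_of_superset (Ioo_mem_nhdsGT hm) ?_
  rintro ε ⟨hε0, hεm⟩
  have hεa : ε < min ε1 ε2 := lt_of_lt_of_le hεm (min_le_left _ _)
  have hεb : ε < ε3 := lt_of_lt_of_le hεm (min_le_right _ _)
  obtain ⟨σ, hσ⟩ : ∃ σ, σ = min (κ / 6) (ε / 2) := ⟨_, rfl⟩
  have hσ0 : 0 < σ := by rw [hσ]; exact lt_min (by positivity) (by positivity)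
  have hσκ : 6 * σ ≤ κ := by
    have : σ ≤ κ / 6 := by rw [hσ]; exact min_le_left _ _
    linarith
  have hσε : σ ≤ ε / 2 := by rw [hσ]; exact min_le_right _ _
  refine ⟨min (σ ^ 2 / 2) (ε / 2), lt_min (by positivity) (by positivity), fun x hx hcx hzx => ?_⟩
  rw [mem_ball, lt_min_iff, dist_eq_norm] at hx
  set F : Set ℂ := {y | c ∈ T y} ∩ closedBall z ε with hF
  have hFc : IsClosed F := (h.closed c).inter isClosed_closedBall
  have hxF : x ∈ F := ⟨hcx, by
    rw [mem_closedBall, dist_eq_norm]; linarith [hx.2]⟩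
  set K := connectedComponentIn F x with hK
  have hKF : K ⊆ F := connectedComponentIn_subset F x
  have I : Isl429 T z ε c K := by
    refine ⟨hε0, isPreconnected_connectedComponentIn, isClosed_comp hFc x,
      ⟨x, mem_connectedComponentIn hxF⟩, fun y hy => (hKF hy).2, hzx, fun y hy => (hKF hy).1,
      fun y hy => ?_, fun S hS hSD hSc hSK => ?_⟩
    · refine hb3 (lt_of_le_of_lt (mem_closedBall.1 (hKF hy).2) hεb) ?_
      rintro rfl
      exact hzx hy
    · obtain ⟨y, hyS, hyK⟩ := hSK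
      have h3 : S ⊆ connectedComponentIn F y :=
        hS.subset_connectedComponentIn hyS (fun v hv => ⟨hSc v hv, hSD hv⟩)
      rwa [← connectedComponentIn_eq hyK] at h3
  have hxK : x ∈ K := mem_connectedComponentIn hxF
  obtain ⟨f, hfc, hfr⟩ := I.front h
  refine ⟨f, hfc, ?_, ?_⟩
  · by_contra hxf
    obtain ⟨q, hq, hxq⟩ : ∃ q ∈ closure (U f), dist x q = 1 := by
      by_contra hcon
      push Not at hcon
      exact hxf (h.max f x hcon)
    obtain ⟨X, hX⟩ : ∃ X, X = (x - z) / n := ⟨_, rfl⟩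
    obtain ⟨W, hW⟩ : ∃ W, W = (x - q) / n := ⟨_, rfl⟩
    have hXn : ‖X‖ ≤ σ ^ 2 / 2 := by rw [hX, norm_div, hn1, div_one]; exact hx.1.le
    have hWn : ‖W‖ = 1 := by rw [hW, norm_div, hn1, div_one, ← dist_eq_norm, hxq]
    obtain ⟨t, ht, hcr⟩ := cross429 hκle hσ0 hσκ hXn hWn
    obtain ⟨Y, hY⟩ : ∃ Y, Y = X + W * (cis t - 1) := ⟨_, rfl⟩
    rw [← hY] at hcr
    have hα : Continuous fun s : ℝ => q + (x - q) * cis (s * t) :=
      continuous_const.add (continuous_const.mul (continuous_cis.comp (by fun_prop)))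
    have e1 : q + (x - q) * cis (1 * t) = z + n * Y := by
      rw [hY, hX, hW, one_mul]
      field_simp
      ring
    have hD : ∀ s ∈ Icc (0 : ℝ) 1, q + (x - q) * cis (s * t) ∈ closedBall z ε := by
      intro s hs
      have e2 : q + (x - q) * cis (s * t) - z = (x - z) + (x - q) * (cis (s * t) - 1) := by ring
      rw [mem_closedBall, dist_eq_norm, e2]
      have h3 : ‖(x - q) * (cis (s * t) - 1)‖ ≤ σ := by
        rw [norm_mul, ← dist_eq_norm, hxq, one_mul]
        refine (norm_cis_sub429 _).trans ?_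
        rw [abs_mul, abs_of_nonneg hs.1]
        have := abs_nonneg t
        nlinarith [hs.2]
      have h4 := norm_add_le (x - z) ((x - q) * (cis (s * t) - 1))
      linarith [hx.2]
    have hYn : ‖Y‖ ≤ ε := by
      have h3 := hD 1 ⟨zero_le_one, le_rfl⟩
      rw [e1, mem_closedBall, dist_eq_norm, add_sub_cancel_left, norm_mul, hn1, one_mul] at h3
      exact h3
    refine I.stay h hfr hq hα hD (fun s => ?_) ?_ ?_
    · rw [dist_eq_norm, add_sub_cancel_left, norm_mul, ← dist_eq_norm, hxq, norm_cis, one_mul]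
    · have e0 : q + (x - q) * cis (0 * t) = x := by
        rw [zero_mul]
        have : cis 0 = 1 := by simp [cis]
        rw [this]; ring
      show q + (x - q) * cis (0 * t) ∈ K
      rw [e0]; exact hxK
    · show q + (x - q) * cis (1 * t) ∈ Out429 z ε K
      rw [e1]
      have h3 : segment ℝ z (z + n * Y) ⊆ closedBall z ε \ K := by
        rintro _ ⟨a, b, ha, hb, hab, rfl⟩
        have e3 : a • z + b • (z + n * Y) = z + n * ((b : ℂ) * Y) := by
          simp only [Complex.real_smul]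
          have : (a : ℂ) = 1 - b := by
            have : a = 1 - b := by linarith
            rw [this]; push_cast; ring
          rw [this]; ring
        rw [e3]
        have hbY : ‖(b : ℂ) * Y‖ ≤ ε := by
          rw [norm_mul, Complex.norm_real, Real.norm_eq_abs, abs_of_nonneg hb]
          nlinarith [norm_nonneg Y]
        constructor
        · rw [mem_closedBall, dist_eq_norm, add_sub_cancel_left, norm_mul, hn1, one_mul]
          exact hbY
        · intro hK'
          by_cases hbz : (b : ℂ) * Y = 0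
          · rw [hbz, mul_zero, add_zero] at hK'
            exact hzx hK'
          · refine hcone _ hbz ?_ (lt_of_le_of_lt hbY hεa) (hKF hK').1
            rw [Complex.re_ofReal_mul, Complex.im_ofReal_mul, abs_mul, abs_mul,
              mul_left_comm]
            exact mul_le_mul_of_nonneg_left hcr (abs_nonneg _)
      exact (convex_segment z (z + n * Y)).isPreconnected.subset_connectedComponentIn
        (left_mem_segment _ _ _) h3 (right_mem_segment _ _ _)
  · obtain ⟨p, hp, hpK, hpO⟩ := I.exists_front (S := segment ℝ z x)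
      (convex_segment z x).isPreconnected (by
        refine (convex_closedBall z ε).segment_subset (mem_closedBall_self hε0.le) hxF.2)
      (right_mem_segment _ _ _) hxK (left_mem_segment _ _ _) I.z_mem
    exact ⟨p, hp, hfr p hpK hpO⟩

end Vale.Agent.P032.Six
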