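import Vale.Agent.P032.H926.Unico

/-!
# P032: unicoherence of the disc

`not_both_disc429` : functional form of the unicoherence of the closed disc.
`rest_pre429`, `closure_comp429`, `closed_rest429` : the components of the complement of a continuum
in a convex closed set.
-/

open Set Filter Topology Metric

noncomputable section

namespace Vale.Agent.P032.H926

/-- the radial retraction to the disc -/
def ret429 (z : ℂ) (ε : ℝ) (y : ℂ) : ℂ := z + ((ε / max ε ‖y - z‖ : ℝ) : ℂ) * (y - z)

theorem continuous_ret429 (z : ℂ) {ε : ℝ} (hε : 0 < ε) : Continuous (ret429 z ε) := by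
  unfold ret429
  have h1 : Continuous fun y : ℂ => ε / max ε ‖y - z‖ := by
    refine continuous_const.div (by fun_prop) fun y => ?_
    exact (lt_of_lt_of_le hε (le_max_left _ _)).ne'
  have h2 : Continuous fun y : ℂ => ((ε / max ε ‖y - z‖ : ℝ) : ℂ) :=
    Complex.continuous_ofReal.comp h1
  exact continuous_const.add (h2.mul (by fun_prop))

theorem ret_of_mem429 {z y : ℂ} {ε : ℝ} (hε : 0 < ε) (hy : y ∈ closedBall z ε) :
    ret429 z ε y = y := by
  rw [mem_closedBall, dist_eq_norm] at hy
  unfold ret429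
  rw [max_eq_left hy, div_self hε.ne']
  push_cast
  ring

theorem ret_mem429 {z : ℂ} {ε : ℝ} (hε : 0 < ε) (y : ℂ) : ret429 z ε y ∈ closedBall z ε := by
  rw [mem_closedBall, dist_eq_norm]
  unfold ret429
  have h1 : 0 < max ε ‖y - z‖ := lt_of_lt_of_le hε (le_max_left _ _)
  rw [add_sub_cancel_left, norm_mul, Complex.norm_real, Real.norm_eq_abs,
    abs_of_pos (div_pos hε h1), div_mul_eq_mul_div, div_le_iff₀ h1]
  exact mul_le_mul_of_nonneg_left (le_max_right _ _) hε.le

theorem ret_seg429 {z y v : ℂ} {ε : ℝ} (hε : 0 < ε) (hv : v ∈ segment ℝ (ret429 z ε y) y) :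
    ret429 z ε v = ret429 z ε y := by
  by_cases hy : y ∈ closedBall z ε
  · have h1 := ret_of_mem429 hε hy
    rw [h1, segment_same, mem_singleton_iff] at hv
    rw [hv]
  · rw [mem_closedBall, dist_eq_norm, not_le] at hy
    have hN : 0 < ‖y - z‖ := hε.trans hy
    obtain ⟨a, b, ha, hb, hab, rfl⟩ := hv
    have e1 : ret429 z ε y = z + ((ε / ‖y - z‖ : ℝ) : ℂ) * (y - z) := by
      unfold ret429
      rw [max_eq_right hy.le]
    set l : ℝ := a * (ε / ‖y - z‖) + b with hl
    have e2 : a • ret429 z ε y + b • y = z + (l : ℂ) * (y - z) := by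
      rw [e1, hl]
      have : (b : ℂ) = 1 - a := by
        have : b = 1 - a := by linarith
        rw [this]; push_cast; ring
      simp only [Complex.real_smul]
      push_cast
      rw [this]
      ring
    have hq : ε / ‖y - z‖ ≤ 1 := by rw [div_le_one hN]; exact hy.le
    have hq0 : 0 < ε / ‖y - z‖ := div_pos hε hN
    have hl1 : ε / ‖y - z‖ ≤ l := by
      rw [hl]
      have : b = 1 - a := by linarith
      rw [this]
      nlinarith
    have hl0 : 0 < l := hq0.trans_le hl1
    have e3 : ‖z + (l : ℂ) * (y - z) - z‖ = l * ‖y - z‖ := by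
      rw [add_sub_cancel_left, norm_mul, Complex.norm_real, Real.norm_eq_abs, abs_of_pos hl0]
    have h4 : ε ≤ l * ‖y - z‖ := by
      have := (div_le_iff₀ hN).1 hl1
      exact this
    rw [e2, e1]
    unfold ret429
    rw [e3, max_eq_right h4, add_sub_cancel_left, ← mul_assoc, ← Complex.ofReal_mul]
    congr 3
    field_simp

theorem ret_pre429 {z : ℂ} {ε : ℝ} (hε : 0 < ε) {A : Set ℂ} (hA : IsPreconnected A)
    (hAD : A ⊆ closedBall z ε) : IsPreconnected (ret429 z ε ⁻¹' A) := by
  rcases A.eq_empty_or_nonempty with h | ⟨w, hw⟩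
  · rw [h, preimage_empty]; exact isPreconnected_empty
  refine isPreconnected_of_forall w fun y hy => ⟨A ∪ segment ℝ (ret429 z ε y) y, ?_, Or.inl hw,
    Or.inr (right_mem_segment _ _ _), hA.union (ret429 z ε y) hy (left_mem_segment _ _ _)
      (convex_segment _ _).isPreconnected⟩
  rintro v (hv | hv)
  · show ret429 z ε v ∈ A
    rwa [ret_of_mem429 hε (hAD hv)]
  · show ret429 z ε v ∈ A
    rw [ret_seg429 hε hv]
    exact hy

/-- **Unicoherence of the disc, functional form.** -/
theorem not_both_disc429 {z : ℂ} {ε : ℝ} (hε : 0 < ε) {A B : Set ℂ} (hA : IsClosed A)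
    (hB : IsClosed B) (hAD : A ⊆ closedBall z ε) (hBD : B ⊆ closedBall z ε)
    (hAB : closedBall z ε ⊆ A ∪ B) (hAc : IsPreconnected A) (hBc : IsPreconnected B) {φ : ℂ → ℝ}
    (hφ : Continuous φ) (h01 : ∀ x ∈ A ∩ B, φ x = 0 ∨ φ x = 1) {p q : ℂ} (hp : p ∈ A ∩ B)
    (hq : q ∈ A ∩ B) (hp0 : φ p = 0) (hq1 : φ q = 1) : False := by
  have hc := continuous_ret429 z hε
  have ep := ret_of_mem429 hε (hAD hp.1)
  have eq := ret_of_mem429 hε (hAD hq.1)
  refine not_both (A := ret429 z ε ⁻¹' A) (B := ret429 z ε ⁻¹' B) (hA.preimage hc)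
    (hB.preimage hc) ?_ (ret_pre429 hε hAc hAD) (ret_pre429 hε hBc hBD)
    (φ := fun x => φ (ret429 z ε x)) (hφ.comp hc) (fun x hx => h01 _ hx) (p := p) (q := q) ?_ ?_
    ?_ ?_
  · ext v
    simp only [mem_union, mem_preimage, mem_univ, iff_true]
    exact hAB (ret_mem429 hε v)
  · exact ⟨by rw [mem_preimage, ep]; exact hp.1, by rw [mem_preimage, ep]; exact hp.2⟩
  · exact ⟨by rw [mem_preimage, eq]; exact hq.1, by rw [mem_preimage, eq]; exact hq.2⟩
  · rw [ep]; exact hp0
  · rw [eq]; exact hq1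

variable {D K : Set ℂ} {y a : ℂ}

/-- the components of `D \ K` are relatively open -/
theorem comp_open429 (hD : Convex ℝ D) (hK : IsClosed K)
    (ha : a ∈ connectedComponentIn (D \ K) y) :
    ∃ δ > 0, ball a δ ∩ D ⊆ connectedComponentIn (D \ K) y := by
  have h1 := connectedComponentIn_subset _ _ ha
  obtain ⟨δ, hδ, hb⟩ := Metric.isOpen_iff.1 hK.isOpen_compl a h1.2
  refine ⟨δ, hδ, ?_⟩
  rw [connectedComponentIn_eq ha]
  exact ((convex_ball a δ).inter hD).isPreconnected.subset_connectedComponentIn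
    ⟨mem_ball_self hδ, h1.1⟩ fun v hv => ⟨hv.2, hb hv.1⟩

theorem closed_rest429 (hD : Convex ℝ D) (hDc : IsClosed D) (hK : IsClosed K) (y : ℂ) :
    IsClosed (D \ connectedComponentIn (D \ K) y) := by
  rw [← isOpen_compl_iff, Metric.isOpen_iff]
  intro x hx
  by_cases hxD : x ∈ D
  · have h1 : x ∈ connectedComponentIn (D \ K) y := by
      by_contra h2
      exact hx ⟨hxD, h2⟩
    obtain ⟨δ, hδ, hb⟩ := comp_open429 hD hK h1
    exact ⟨δ, hδ, fun v hv hv' => hv'.2 (hb ⟨hv, hv'.1⟩)⟩
  · obtain ⟨δ, hδ, hb⟩ := Metric.isOpen_iff.1 hDc.isOpen_compl x hxD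
    exact ⟨δ, hδ, fun v hv hv' => hb hv hv'.1⟩

theorem closure_comp429 (hDc : IsClosed D) (y : ℂ) :
    closure (connectedComponentIn (D \ K) y) ⊆ connectedComponentIn (D \ K) y ∪ K := by
  intro x hx
  by_cases hxK : x ∈ K
  · exact Or.inr hxK
  left
  have hxD : x ∈ D := by
    have h1 : closure (connectedComponentIn (D \ K) y) ⊆ D :=
      closure_minimal (fun v hv => (connectedComponentIn_subset _ _ hv).1) hDc
    exact h1 hx
  obtain ⟨o, ho⟩ := closure_nonempty_iff.1 ⟨x, hx⟩
  have h1 : IsPreconnected (insert x (connectedComponentIn (D \ K) y)) :=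
    isPreconnected_connectedComponentIn.subset_closure (subset_insert _ _)
      (insert_subset hx subset_closure)
  have h2 : insert x (connectedComponentIn (D \ K) y) ⊆ D \ K := by
    rintro v (rfl | hv)
    · exact ⟨hxD, hxK⟩
    · exact connectedComponentIn_subset _ _ hv
  have h3 := h1.subset_connectedComponentIn (mem_insert_of_mem _ ho) h2 (mem_insert _ _)
  rwa [← connectedComponentIn_eq ho] at h3

theorem rest_pre429 (hD : Convex ℝ D) (hDc : IsClosed D) (hK : IsPreconnected K)
    (hKc : IsClosed K) (hKD : K ⊆ D) (hne : K.Nonempty) (y : ℂ) :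
    IsPreconnected (D \ connectedComponentIn (D \ K) y) := by
  obtain ⟨w, hw⟩ := hne
  have hKO : K ⊆ D \ connectedComponentIn (D \ K) y := fun v hv =>
    ⟨hKD hv, fun h1 => (connectedComponentIn_subset _ _ h1).2 hv⟩
  refine isPreconnected_of_forall w fun v hv => ?_
  by_cases hvK : v ∈ K
  · exact ⟨K, hKO, hw, hvK, hK⟩
  have hvm : v ∈ connectedComponentIn (D \ K) v := mem_connectedComponentIn ⟨hv.1, hvK⟩
  have hdis : ∀ u ∈ connectedComponentIn (D \ K) v, u ∉ connectedComponentIn (D \ K) y := by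
    intro u hu hu'
    rw [connectedComponentIn_eq hu'] at hv
    rw [connectedComponentIn_eq hu] at hvm
    exact hv.2 hvm
  have htouch : ∃ x ∈ K, x ∈ closure (connectedComponentIn (D \ K) v) := by
    by_contra hcon
    push Not at hcon
    have h1 : IsClosed (connectedComponentIn (D \ K) v) := isClosed_of_closure_subset fun x hx => by
      rcases closure_comp429 hDc v hx with h2 | h2
      · exact h2
      · exact absurd hx (hcon x h2)
    obtain ⟨x, -, hx, hx'⟩ := isPreconnected_closed_iff.1 hD.isPreconnected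
      (connectedComponentIn (D \ K) v) (D \ connectedComponentIn (D \ K) v) h1
      (closed_rest429 hD hDc hKc v) (fun x hx => by
        by_cases h2 : x ∈ connectedComponentIn (D \ K) v
        · exact Or.inl h2
        · exact Or.inr ⟨hx, h2⟩) ⟨v, hv.1, hvm⟩
      ⟨w, hKD hw, hKD hw, fun h2 => (connectedComponentIn_subset _ _ h2).2 hw⟩
    exact hx'.2 hx
  obtain ⟨x, hxK, hxH⟩ := htouch
  have h1 : IsPreconnected (insert x (connectedComponentIn (D \ K) v)) :=
    isPreconnected_connectedComponentIn.subset_closure (subset_insert _ _)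
      (insert_subset hxH subset_closure)
  refine ⟨K ∪ insert x (connectedComponentIn (D \ K) v), ?_, Or.inl hw,
    Or.inr (mem_insert_of_mem _ hvm), hK.union x hxK (mem_insert _ _) h1⟩
  refine union_subset hKO (insert_subset (hKO hxK) fun u hu => ?_)
  exact ⟨(connectedComponentIn_subset _ _ hu).1, hdis u hu⟩

end Vale.Agent.P032.H926
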