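import Vale.Agent.P032.H429.Hull

/-!
# P032: the fill lemma and private points

`Irr.fill429`: the open cone between two solid rays of `U j` (angle less than 180 degrees) is in
`U j` near the vertex.  `private429`: for a point of order at least four (`hmin`) every colour `i` has
points near `z` with palette `{i}` which are in no other `U j`, `j ∈ T z`.
-/

open Set Filter Topology Metric

noncomputable section

namespace Vale.Agent.P032.Six

variable {k : ℕ} {U : Fin k → Set ℂ} {T : ℂ → Set (Fin k)}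

theorem norm_sq_coord429 {u : ℂ} (hu : ‖u‖ = 1) : u.re ^ 2 + u.im ^ 2 = 1 := by
  have h1 := Complex.sq_norm u
  rw [hu, Complex.normSq_apply] at h1
  nlinarith

theorem ip_le_one429 {u v : ℂ} (hu : ‖u‖ = 1) (hv : ‖v‖ = 1) : |ip u v| ≤ 1 := by
  have h1 := norm_sq_coord429 hu
  have h2 := norm_sq_coord429 hv
  rw [abs_le]
  unfold ip
  constructor
  · nlinarith [sq_nonneg (u.re + v.re), sq_nonneg (u.im + v.im)]
  · nlinarith [sq_nonneg (u.re - v.re), sq_nonneg (u.im - v.im)]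

theorem cr_le_one429 {u v : ℂ} (hu : ‖u‖ = 1) (hv : ‖v‖ = 1) : |cr u v| ≤ 1 := by
  have h1 := norm_sq_coord429 hu
  have h2 := norm_sq_coord429 hv
  rw [abs_le]
  unfold cr
  constructor
  · nlinarith [sq_nonneg (u.re + v.im), sq_nonneg (u.im - v.re)]
  · nlinarith [sq_nonneg (u.re - v.im), sq_nonneg (u.im + v.re)]

theorem cr_split429 {e m m' : ℂ} (he : ‖e‖ = 1) (hm : ‖m‖ = 1) (hm' : ‖m'‖ = 1) :
    |cr m m'| ≤ |ip e m| + |ip e m'| := by
  have h1 := norm_sq_coord429 he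
  have e1 : cr m m' = ip e m * cr e m' - cr e m * ip e m' := by
    unfold cr ip
    linear_combination (-(m.re * m'.im - m.im * m'.re)) * h1
  rw [e1]
  have h2 := cr_le_one429 he hm
  have h3 := cr_le_one429 he hm'
  calc |ip e m * cr e m' - cr e m * ip e m'| ≤ |ip e m * cr e m'| + |cr e m * ip e m'| :=
        abs_sub _ _
    _ = |ip e m| * |cr e m'| + |cr e m| * |ip e m'| := by rw [abs_mul, abs_mul]
    _ ≤ |ip e m| * 1 + 1 * |ip e m'| := by gcongr
    _ = _ := by ring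

theorem dist_exp429 {q x w : ℂ} : dist q w ^ 2 =
    dist q x ^ 2 + 2 * ip (q - x) (x - w) + ‖x - w‖ ^ 2 := by
  rw [dist_eq_norm, dist_eq_norm, Complex.sq_norm, Complex.sq_norm, Complex.sq_norm,
    Complex.normSq_apply, Complex.normSq_apply, Complex.normSq_apply]
  unfold ip
  simp only [Complex.sub_re, Complex.sub_im]
  ring

theorem fill_ineq1_429 {α β p p' c R N : ℝ} (hα : 0 < α) (hβ : 0 < β) (hc0 : 0 < c) (hc1 : c ≤ 1)
    (hR : R * c = 2 * (α + β)) (hRα : α + β ≤ R) (hN : N < α + β) (hp : c ≤ p) (hp' : p' ≤ 1) :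
    1 < 1 + 2 * α * p + α ^ 2 ∧ 1 + 2 * ((α - R) * p + β * p') + N < 1 := by
  have hp0 : 0 < p := lt_of_lt_of_le hc0 hp
  constructor
  · have := mul_pos hα hp0
    nlinarith
  · have h5 : (R - α) * c ≤ (R - α) * p := mul_le_mul_of_nonneg_left hp (by linarith)
    have h6 : β * p' ≤ β * 1 := mul_le_mul_of_nonneg_left hp' hβ.le
    have h8 : α * c ≤ α * 1 := mul_le_mul_of_nonneg_left hc1 hα.le
    have h9 : (R - α) * c = R * c - α * c := by ring
    have h10 : (α - R) * p = -((R - α) * p) := by ring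
    rw [h10]
    linarith

theorem fill_ineq2_429 {α β p p' c R N : ℝ} (hα : 0 < α) (hβ : 0 < β) (hc0 : 0 < c) (hc1 : c ≤ 1)
    (hαc : α < c) (hR : R * c = 2 * (α + β)) (hRα : α + β ≤ R) (hN : 0 ≤ N) (hp : c ≤ -p)
    (hp' : -1 ≤ p') :
    1 + 2 * α * p + α ^ 2 < 1 ∧ 1 < 1 + 2 * ((α - R) * p + β * p') + N := by
  constructor
  · have h5 : α * c ≤ α * -p := mul_le_mul_of_nonneg_left hp hα.le
    have h6 : α * α < α * c := mul_lt_mul_of_pos_left hαc hα
    have h7 : α * -p = -(α * p) := by ring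
    have h8 : 2 * α * p = 2 * (α * p) := by ring
    have h9 : 0 < α * c := mul_pos hα hc0
    rw [h8, sq]
    linarith
  · have h5 : (R - α) * c ≤ (R - α) * -p := mul_le_mul_of_nonneg_left hp (by linarith)
    have h6 : β * -1 ≤ β * p' := mul_le_mul_of_nonneg_left hp' hβ.le
    have h8 : α * c ≤ α * 1 := mul_le_mul_of_nonneg_left hc1 hα.le
    have h9 : (R - α) * c = R * c - α * c := by ring
    have h10 : (α - R) * p = (R - α) * -p := by ring
    rw [h10]
    linarith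

/-- the main step: a partner `q` of `x` with `|<q - x, m>| ≥ c` -/
theorem Irr.fill_key429 (h : Irr U T) {z m m' q : ℂ} {j : Fin k} (hn : ‖m‖ = 1) (hn' : ‖m'‖ = 1)
    {δ : ℝ} (hm : ∀ r : ℝ, 0 < r → r < δ → z + r * m ∈ U j)
    (hm' : ∀ r : ℝ, 0 < r → r < δ → z + r * m' ∈ U j) {c α β : ℝ} (hc0 : 0 < c) (hc1 : c ≤ 1)
    (hα : 0 < α) (hβ : 0 < β) (h1 : 2 / c * (α + β) < δ) (h1' : α + β < δ)
    (h2 : (2 / c + 1) ^ 2 * (α + β) < 1)
    (h3 : α + β < c) (hq : q ∈ closure (U j)) (hd : dist q (z + α * m + β * m') = 1)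
    (hp : c ≤ |ip (q - (z + α * m + β * m')) m|) : False := by
  obtain ⟨x, hx⟩ : ∃ x, x = z + α * m + β * m' := ⟨_, rfl⟩
  rw [← hx] at hd hp
  obtain ⟨p, hpp⟩ : ∃ p, p = ip (q - x) m := ⟨_, rfl⟩
  obtain ⟨p', hpp'⟩ : ∃ p', p' = ip (q - x) m' := ⟨_, rfl⟩
  rw [← hpp] at hp
  have he : ‖q - x‖ = 1 := by rw [← dist_eq_norm]; exact hd
  have hp1' : |p'| ≤ 1 := by rw [hpp']; exact ip_le_one429 he hn'
  have hp1'' := abs_le.1 hp1'
  set K := 2 / c with hK
  have hK0 : 0 < K := by positivity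
  have hKc : K * c = 2 := by rw [hK]; field_simp
  set R := K * (α + β) with hR
  have hR0 : 0 < R := by positivity
  have hK1 : 1 ≤ K := by
    rw [hK, le_div_iff₀ hc0]; linarith
  have hRα : α + β ≤ R := by
    rw [hR]; nlinarith
  -- the two distances
  have d1 : dist q (z + β * m') ^ 2 = 1 + 2 * α * p + α ^ 2 := by
    rw [dist_exp429 (x := x), hd]
    have e1 : x - (z + β * m') = α * m := by rw [hx]; ring
    rw [e1]
    have e2 : ip (q - x) (α * m) = α * p := by
      rw [hpp]; unfold ip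
      simp only [Complex.re_ofReal_mul, Complex.im_ofReal_mul]; ring
    have e3 : ‖(α : ℂ) * m‖ = α := by
      rw [norm_mul, hn, mul_one, Complex.norm_real, Real.norm_eq_abs, abs_of_pos hα]
    rw [e2, e3]; ring
  have d2 : dist q (z + R * m) ^ 2 = 1 + 2 * ((α - R) * p + β * p') +
      ‖((α - R : ℝ) : ℂ) * m + β * m'‖ ^ 2 := by
    rw [dist_exp429 (x := x), hd]
    have e1 : x - (z + R * m) = ((α - R : ℝ) : ℂ) * m + β * m' := by
      rw [hx]; push_cast; ring
    rw [e1]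
    have e2 : ip (q - x) (((α - R : ℝ) : ℂ) * m + β * m') = (α - R) * p + β * p' := by
      rw [hpp, hpp']; unfold ip
      simp only [Complex.add_re, Complex.add_im, Complex.re_ofReal_mul, Complex.im_ofReal_mul]
      ring
    rw [e2]; ring
  have hnorm : ‖((α - R : ℝ) : ℂ) * m + β * m'‖ ≤ (K + 1) * (α + β) := by
    refine (norm_add_le _ _).trans ?_
    rw [norm_mul, norm_mul, hn, hn', mul_one, mul_one, Complex.norm_real, Complex.norm_real,
      Real.norm_eq_abs, Real.norm_eq_abs, abs_of_pos hβ, abs_of_nonpos (by linarith)]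
    have : (K + 1) * (α + β) = R + (α + β) := by rw [hR]; ring
    rw [this]; linarith
  have hnorm2 : ‖((α - R : ℝ) : ℂ) * m + β * m'‖ ^ 2 ≤ (K + 1) ^ 2 * (α + β) * (α + β) := by
    have h4 := norm_nonneg (((α - R : ℝ) : ℂ) * m + β * m')
    calc ‖((α - R : ℝ) : ℂ) * m + β * m'‖ ^ 2 ≤ ((K + 1) * (α + β)) ^ 2 := by gcongr
      _ = _ := by ring
  have hnorm3 : (K + 1) ^ 2 * (α + β) * (α + β) < α + β := by
    have : 0 < α + β := by linarith
    nlinarith
  have hnn := sq_nonneg ‖((α - R : ℝ) : ℂ) * m + β * m'‖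
  have hD1 := dist_nonneg (x := q) (y := z + β * m')
  have hD2 := dist_nonneg (x := q) (y := z + R * m)
  have hRc : R * c = 2 * (α + β) := by
    rw [hR]; linear_combination (α + β) * hKc
  have hsides : (1 < dist q (z + β * m') ∧ dist q (z + R * m) < 1) ∨
      (dist q (z + β * m') < 1 ∧ 1 < dist q (z + R * m)) := by
    have hgt : ∀ y : ℝ, 0 ≤ y → 1 < y ^ 2 → 1 < y := fun y hy hy2 => by
      by_contra hcon
      push Not at hcon
      have : y ^ 2 ≤ 1 := pow_le_one₀ hy hcon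
      linarith
    have hlt : ∀ y : ℝ, 0 ≤ y → y ^ 2 < 1 → y < 1 := fun y hy hy2 => by
      by_contra hcon
      push Not at hcon
      have : 1 ≤ y ^ 2 := one_le_pow₀ hcon
      linarith
    rcases le_abs.1 hp with h4 | h4
    · obtain ⟨h5, h6⟩ := fill_ineq1_429 hα hβ hc0 hc1 hRc hRα
        (lt_of_le_of_lt hnorm2 hnorm3) h4 hp1''.2
      exact Or.inl ⟨hgt _ hD1 (by rw [d1]; exact h5), hlt _ hD2 (by rw [d2]; exact h6)⟩
    · obtain ⟨h5, h6⟩ := fill_ineq2_429 hα hβ hc0 hc1 (by linarith) hRc hRα hnn h4 hp1''.1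
      exact Or.inr ⟨hlt _ hD1 (by rw [d1]; exact h5), hgt _ hD2 (by rw [d2]; exact h6)⟩
  have hc1 : Continuous fun g : ℂ => dist g (z + β * m') := continuous_id.dist continuous_const
  have hc2 : Continuous fun g : ℂ => dist g (z + R * m) := continuous_id.dist continuous_const
  rcases hsides with ⟨h4, h5⟩ | ⟨h4, h5⟩
  · obtain ⟨g, ⟨hgU, hg1, hg2⟩, hgz⟩ := exists_off (z := z) (h.mx.isOpen j) hq
      ((hc1.continuousAt.eventually (Ioi_mem_nhds h4)).and
        (hc2.continuousAt.eventually (Iio_mem_nhds h5)))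
    have hg1 : 1 < dist g (z + β * m') := hg1
    have hg2 : dist g (z + R * m) < 1 := hg2
    rcases lt_or_gt_of_ne hgz with h6 | h6
    · exact h.mx.ray_cross (x := g) hβ (fun s hs1 hs2 => hm' s hs1 (by linarith))
        (Or.inr ⟨h6, hg1⟩) (subset_closure hgU)
    · exact h.mx.ray_cross (x := g) hR0 (fun s hs1 hs2 => hm s hs1 (by linarith))
        (Or.inl ⟨h6, hg2⟩) (subset_closure hgU)
  · obtain ⟨g, ⟨hgU, hg1, hg2⟩, hgz⟩ := exists_off (z := z) (h.mx.isOpen j) hq
      ((hc1.continuousAt.eventually (Iio_mem_nhds h4)).and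
        (hc2.continuousAt.eventually (Ioi_mem_nhds h5)))
    have hg1 : dist g (z + β * m') < 1 := hg1
    have hg2 : 1 < dist g (z + R * m) := hg2
    rcases lt_or_gt_of_ne hgz with h6 | h6
    · exact h.mx.ray_cross (x := g) hR0 (fun s hs1 hs2 => hm s hs1 (by linarith))
        (Or.inr ⟨h6, hg2⟩) (subset_closure hgU)
    · exact h.mx.ray_cross (x := g) hβ (fun s hs1 hs2 => hm' s hs1 (by linarith))
        (Or.inl ⟨h6, hg1⟩) (subset_closure hgU)

/-- **Fill lemma.** -/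
theorem Irr.fill429 (h : Irr U T) {z m m' : ℂ} {j : Fin k} (hn : ‖m‖ = 1) (hn' : ‖m'‖ = 1)
    (hc : cr m m' ≠ 0) (hm : Ray (U j) z m) (hm' : Ray (U j) z m') :
    ∃ ε > 0, ∀ α β : ℝ, 0 < α → 0 < β → α + β < ε → z + α * m + β * m' ∈ U j := by
  obtain ⟨δ1, hδ1, h1⟩ := hm.exists_delta
  obtain ⟨δ2, hδ2, h2⟩ := hm'.exists_delta
  set δ := min δ1 δ2 with hδ
  have hδ0 : 0 < δ := lt_min hδ1 hδ2
  set c := |cr m m'| / 2 with hcc
  have hc0 : 0 < c := by have := abs_pos.2 hc; positivity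
  have hc1 : c ≤ 1 := by have := cr_le_one429 hn hn'; linarith
  have hK : 0 < 2 / c := by positivity
  refine ⟨min (min (δ / (2 / c)) δ) (min (1 / (2 / c + 1) ^ 2) c), by positivity,
    fun α β hα hβ hαβ => ?_⟩
  have g1 : α + β < δ / (2 / c) :=
    lt_of_lt_of_le hαβ ((min_le_left _ _).trans (min_le_left _ _))
  have g1' : α + β < δ := lt_of_lt_of_le hαβ ((min_le_left _ _).trans (min_le_right _ _))
  have g2 : α + β < 1 / (2 / c + 1) ^ 2 :=
    lt_of_lt_of_le hαβ ((min_le_right _ _).trans (min_le_left _ _))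
  have g3 : α + β < c := lt_of_lt_of_le hαβ ((min_le_right _ _).trans (min_le_right _ _))
  rw [lt_div_iff₀ hK] at g1
  rw [lt_div_iff₀ (by positivity)] at g2
  have g1c : 2 / c * (α + β) < δ := by linarith
  have g2c : (2 / c + 1) ^ 2 * (α + β) < 1 := by linarith
  refine h.max j _ fun q hq hd => ?_
  have hd' : dist q (z + α * m + β * m') = 1 := by rw [dist_comm]; exact hd
  have he : ‖q - (z + α * m + β * m')‖ = 1 := by rw [← dist_eq_norm]; exact hd'
  have hsplit := cr_split429 he hn hn'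
  have hor : c ≤ |ip (q - (z + α * m + β * m')) m| ∨ c ≤ |ip (q - (z + α * m + β * m')) m'| := by
    by_contra hcon
    push Not at hcon
    obtain ⟨h3, h4⟩ := hcon
    have : |cr m m'| = 2 * c := by rw [hcc]; ring
    linarith
  have hm1 : ∀ r : ℝ, 0 < r → r < δ → z + r * m ∈ U j := fun r h3 h4 =>
    h1 r h3 (lt_of_lt_of_le h4 (min_le_left _ _))
  have hm2 : ∀ r : ℝ, 0 < r → r < δ → z + r * m' ∈ U j := fun r h3 h4 =>
    h2 r h3 (lt_of_lt_of_le h4 (min_le_right _ _))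
  rcases hor with h3 | h3
  · exact h.fill_key429 hn hn' hm1 hm2 hc0 hc1 hα hβ g1c g1' g2c g3 hq hd' h3
  · have e : z + α * m + β * m' = z + β * m' + α * m := by ring
    rw [e] at hd' h3
    exact h.fill_key429 hn' hn hm2 hm1 hc0 hc1 hβ hα (by linarith) (by linarith)
      (by linarith) (by linarith) hq hd' h3

/-- **Private points**: a colour of a point of order at least four has points near `z` which are in
no other open set of a colour of `z` -/
theorem Irr.private429 (h : Irr U T)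
    (hmin : ∀ z, 4 ≤ (T z).ncard → ∀ s, s ⊆ T z → s ≠ T z →
      ¬ ∀ᶠ w in 𝓝 z, ∃ i ∈ s, w ∈ U i ∨ (w ∈ XX U ∧ i ∈ Pal U w)) {z : ℂ}
    (h4 : 4 ≤ (T z).ncard) {i : Fin k} (hi : i ∈ T z) :
    ∃ᶠ w in 𝓝 z, T w = {i} ∧ w ∈ U i ∧ ∀ j ∈ T z, j ≠ i → w ∉ U j := by
  have h1 := hmin z h4 (T z \ {i}) sdiff_subset (fun h2 => by
    have : i ∈ T z \ {i} := by rw [h2]; exact hi
    exact this.2 rfl)
  have h2 : ∃ᶠ w in 𝓝 z, ¬ ∃ i' ∈ T z \ {i}, w ∈ U i' ∨ (w ∈ XX U ∧ i' ∈ Pal U w) := by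
    rwa [Filter.not_eventually] at h1
  refine (h2.and_eventually (h.nhd z)).mono fun w hw => ?_
  obtain ⟨h3, h5⟩ := hw
  push Not at h3
  have h6 : T w ⊆ {i} := by
    intro l hl
    by_contra hli
    obtain ⟨h7, h8⟩ := h3 l ⟨h5 hl, hli⟩
    by_cases hX : w ∈ XX U
    · exact h8 hX (h.sub w hl)
    · exact h7 (h.off w hX l hl)
  obtain ⟨l, hl⟩ := h.ne w
  have h7 : T w = {i} := by
    refine Subset.antisymm h6 ?_
    rintro l' hl'
    rw [mem_singleton_iff] at hl'
    have := h6 hl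
    rw [mem_singleton_iff] at this
    rw [hl', ← this]
    exact hl
  exact ⟨h7, h.mem_of_single h6, fun j hj hji hw => (h3 j ⟨hj, hji⟩).1 hw⟩

end Vale.Agent.P032.Six
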