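import Vale.Agent.P032.H429.Att
import Vale.Agent.P032.H429.Disc

/-!
# P032: islands near a centre without corners

`K` is a component of `{c ∈ T}` in a small disc about `z` which misses `z`, `O` the component of `z`
in the disc without `K`.  If the points of `K` have at most two colours, the points of `K` in the
closure of `O` have one palette `{c, f}` (`Irr.front429`), and no circle around a point of
`closure (U f)` leads from `K` into `O` (`Irr.stay429`).
-/

open Set Filter Topology Metric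

noncomputable section

namespace Vale.Agent.P032.Six

open Vale.Agent.P032.H926

variable {k : ℕ} {U : Fin k → Set ℂ} {T : ℂ → Set (Fin k)}

/-- an island in a disc -/
structure Isl429 (T : ℂ → Set (Fin k)) (z : ℂ) (ε : ℝ) (c : Fin k) (K : Set ℂ) : Prop where
  pos : 0 < ε
  pre : IsPreconnected K
  cl : IsClosed K
  ne : K.Nonempty
  sub : K ⊆ closedBall z ε
  nz : z ∉ K
  col : ∀ x ∈ K, c ∈ T x
  two : ∀ x ∈ K, (T x).ncard ≤ 2
  max : ∀ S : Set ℂ, IsPreconnected S → S ⊆ closedBall z ε → (∀ y ∈ S, c ∈ T y) →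
    (S ∩ K).Nonempty → S ⊆ K

/-- the component of the centre -/
def Out429 (z : ℂ) (ε : ℝ) (K : Set ℂ) : Set ℂ := connectedComponentIn (closedBall z ε \ K) z

namespace Isl429

variable {z : ℂ} {ε : ℝ} {c : Fin k} {K : Set ℂ}

theorem z_mem (I : Isl429 T z ε c K) : z ∈ Out429 z ε K :=
  mem_connectedComponentIn ⟨mem_closedBall_self I.pos.le, I.nz⟩

theorem out_sub (_ : Isl429 T z ε c K) : Out429 z ε K ⊆ closedBall z ε \ K :=
  connectedComponentIn_subset _ _

theorem closure_out (_ : Isl429 T z ε c K) : closure (Out429 z ε K) ⊆ Out429 z ε K ∪ K :=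
  closure_comp429 isClosed_closedBall z

theorem closure_sub (_ : Isl429 T z ε c K) : closure (Out429 z ε K) ⊆ closedBall z ε :=
  closure_minimal (fun _ hv => (connectedComponentIn_subset _ _ hv).1) isClosed_closedBall

theorem rest_closed (I : Isl429 T z ε c K) : IsClosed (closedBall z ε \ Out429 z ε K) :=
  closed_rest429 (convex_closedBall z ε) isClosed_closedBall I.cl z

theorem rest_pre (I : Isl429 T z ε c K) : IsPreconnected (closedBall z ε \ Out429 z ε K) :=
  rest_pre429 (convex_closedBall z ε) isClosed_closedBall I.pre I.cl I.sub I.ne z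

theorem K_sub (I : Isl429 T z ε c K) : K ⊆ closedBall z ε \ Out429 z ε K := fun _ hv =>
  ⟨I.sub hv, fun h1 => (I.out_sub h1).2 hv⟩

theorem mem_K (I : Isl429 T z ε c K) {x : ℂ} (hx : x ∈ closure (Out429 z ε K))
    (hx' : x ∈ closedBall z ε \ Out429 z ε K) : x ∈ K :=
  (I.closure_out hx).resolve_left hx'.2

/-- a connected set from the island to the centre contains a front point -/
theorem exists_front (I : Isl429 T z ε c K) {S : Set ℂ} (hS : IsPreconnected S)
    (hSD : S ⊆ closedBall z ε) {x y : ℂ} (hx : x ∈ S) (hxK : x ∈ K) (hy : y ∈ S)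
    (hyO : y ∈ Out429 z ε K) : ∃ p ∈ S, p ∈ K ∧ p ∈ closure (Out429 z ε K) := by
  obtain ⟨p, hp, hp1, hp2⟩ := isPreconnected_closed_iff.1 hS (closure (Out429 z ε K))
    (closedBall z ε \ Out429 z ε K) isClosed_closure I.rest_closed (fun v hv => by
      by_cases h1 : v ∈ Out429 z ε K
      · exact Or.inl (subset_closure h1)
      · exact Or.inr ⟨hSD hv, h1⟩) ⟨y, hy, subset_closure hyO⟩ ⟨x, hx, I.K_sub hxK⟩
  exact ⟨p, hp, I.mem_K hp1 hp2, hp1⟩

/-- the palettes of the front points -/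
theorem front_two (I : Isl429 T z ε c K) (h : Irr U T) {x : ℂ} (hxK : x ∈ K)
    (hx : x ∈ closure (Out429 z ε K)) : ∃ f, f ≠ c ∧ T x = {c, f} := by
  have h1 : T x ≠ {c} := by
    intro h1
    have h3 : ∀ᶠ y in 𝓝 x, c ∈ T y := by
      filter_upwards [h.nhd x] with y hy
      obtain ⟨j, hj⟩ := h.ne y
      have h4 := hy hj
      rw [h1, mem_singleton_iff] at h4
      exact h4 ▸ hj
    obtain ⟨r, hr, hb⟩ := Metric.eventually_nhds_iff_ball.1 h3
    have h5 := I.max (ball x r ∩ closedBall z ε)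
      ((convex_ball x r).inter (convex_closedBall z ε)).isPreconnected inter_subset_right
      (fun y hy => hb y hy.1) ⟨x, ⟨mem_ball_self hr, I.sub hxK⟩, hxK⟩
    obtain ⟨y, hy, hy'⟩ := mem_closure_iff_nhds.1 hx _ (ball_mem_nhds x hr)
    exact (I.out_sub hy').2 (h5 ⟨hy, (I.out_sub hy').1⟩)
  obtain ⟨f, hf, hfc⟩ : ∃ f ∈ T x, f ≠ c := by
    by_contra hcon
    push Not at hcon
    refine h1 (Subset.antisymm (fun m hm => hcon m hm) ?_)
    rintro m rfl
    exact I.col x hxK
  refine ⟨f, hfc, ?_⟩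
  symm
  refine Set.eq_of_subset_of_ncard_le ?_ ?_ (Set.toFinite _)
  · rintro m (rfl | rfl)
    · exact I.col x hxK
    · exact hf
  · rw [Set.ncard_pair hfc.symm]
    exact I.two x hxK

/-- **one front colour** -/
theorem front (I : Isl429 T z ε c K) (h : Irr U T) : ∃ f, f ≠ c ∧
    ∀ x ∈ K, x ∈ closure (Out429 z ε K) → T x = {c, f} := by
  obtain ⟨w, hw⟩ := I.ne
  obtain ⟨x0, -, hx0, hx0'⟩ := I.exists_front (convex_closedBall z ε).isPreconnected Subset.rfl
    (I.sub hw) hw (mem_closedBall_self I.pos.le) I.z_mem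
  obtain ⟨f, hfc, hTx0⟩ := I.front_two h hx0 hx0'
  refine ⟨f, hfc, fun x hx hx' => ?_⟩
  obtain ⟨f', hf'c, hTx⟩ := I.front_two h hx hx'
  by_cases hff : f' = f
  · rw [hTx, hff]
  exfalso
  have hZc : IsClosed (K ∩ closure (Out429 z ε K)) := I.cl.inter isClosed_closure
  set P : Set ℂ := {v | f ∈ T v} ∩ (K ∩ closure (Out429 z ε K)) with hP
  set Q : Set ℂ := (⋃ j ∈ {j : Fin k | j ≠ c ∧ j ≠ f}, {v | j ∈ T v}) ∩
    (K ∩ closure (Out429 z ε K)) with hQ
  have hPc : IsClosed P := (h.closed f).inter hZc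
  have hQc : IsClosed Q := ((Set.toFinite _).isClosed_biUnion fun j _ => h.closed j).inter hZc
  have hPQ : Disjoint P Q := by
    rw [Set.disjoint_left]
    rintro v ⟨hv1, hv2, hv3⟩ ⟨hv4, -⟩
    obtain ⟨j, ⟨hje, hjf⟩, hj⟩ := mem_iUnion₂.1 hv4
    obtain ⟨g, hg, hTv⟩ := I.front_two h hv2 hv3
    have e1 : f = g := by
      have : f ∈ T v := hv1
      rw [hTv] at this
      rcases this with h5 | h5
      · exact absurd h5 hfc
      · exact h5
    have e2 : j = g := by
      have : j ∈ T v := hj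
      rw [hTv] at this
      rcases this with h5 | h5
      · exact absurd h5 hje
      · exact h5
    exact hjf (e2.trans e1.symm)
  obtain ⟨φ, hφ0, hφ1, -⟩ := exists_continuous_zero_one_of_isClosed hPc hQc hPQ
  refine not_both_disc429 I.pos (A := closure (Out429 z ε K))
    (B := closedBall z ε \ Out429 z ε K) isClosed_closure I.rest_closed I.closure_sub
    sdiff_subset ?_ isPreconnected_connectedComponentIn.closure I.rest_pre φ.continuous ?_
    (p := x0) (q := x) ⟨hx0', I.K_sub hx0⟩ ⟨hx', I.K_sub hx⟩ (hφ0 ⟨?_, hx0, hx0'⟩)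
    (hφ1 ⟨?_, hx, hx'⟩)
  · intro v hv
    by_cases h1 : v ∈ Out429 z ε K
    · exact Or.inl (subset_closure h1)
    · exact Or.inr ⟨hv, h1⟩
  · rintro v ⟨hv', hv⟩
    have hvK := I.mem_K hv' hv
    obtain ⟨g, hg, hTv⟩ := I.front_two h hvK hv'
    by_cases hgf : g = f
    · left
      refine hφ0 ⟨?_, hvK, hv'⟩
      show f ∈ T v
      rw [hTv, hgf]
      simp
    · right
      refine hφ1 ⟨mem_iUnion₂.2 ⟨g, ⟨hg, hgf⟩, ?_⟩, hvK, hv'⟩
      show g ∈ T v
      rw [hTv]
      simp
  · show f ∈ T x0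
    rw [hTx0]
    simp
  · refine mem_iUnion₂.2 ⟨f', ⟨hf'c, hff⟩, ?_⟩
    show f' ∈ T x
    rw [hTx]
    simp

/-- **circles free of the front colour do not lead to the centre** -/
theorem stay (I : Isl429 T z ε c K) (h : Irr U T) {f : Fin k}
    (hf : ∀ x ∈ K, x ∈ closure (Out429 z ε K) → T x = {c, f}) {q : ℂ} (hq : f ∈ Pal U q)
    {α : ℝ → ℂ} (hα : Continuous α) (hαD : ∀ s ∈ Icc (0 : ℝ) 1, α s ∈ closedBall z ε)
    (hαq : ∀ s, dist (α s) q = 1) (h0 : α 0 ∈ K) (h1 : α 1 ∈ Out429 z ε K) : False := by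
  have hS : IsClosed {s : ℝ | α s ∈ closedBall z ε \ Out429 z ε K} := I.rest_closed.preimage hα
  have key : (1 : ℝ) ∈ {s : ℝ | α s ∈ closedBall z ε \ Out429 z ε K} := by
    refine IsClosed.mem_of_ge_of_forall_exists_gt (a := (0 : ℝ)) (b := 1)
      (hS.inter isClosed_Icc) (I.K_sub h0) zero_le_one ?_
    rintro s ⟨hs, hs0, hs1⟩
    have hs : α s ∈ closedBall z ε \ Out429 z ε K := hs
    by_cases hcl : α s ∈ closure (Out429 z ε K)
    · have hK := I.mem_K hcl hs
      have h2 : ∀ᶠ v in 𝓝 (α s), T v ⊆ {c, f} := by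
        have := h.nhd (α s)
        rwa [hf _ hK hcl] at this
      obtain ⟨η, hη, hb⟩ := Metric.eventually_nhds_iff.1 (hα.continuousAt.eventually h2)
      obtain ⟨b, hbd⟩ : ∃ b, b = min (s + η / 2) 1 := ⟨_, rfl⟩
      have hsb : s < b := by rw [hbd]; exact lt_min (by linarith) hs1
      have hb1 : b ≤ 1 := by rw [hbd]; exact min_le_right _ _
      have hb2 : b ≤ s + η / 2 := by rw [hbd]; exact min_le_left _ _
      have h3 := I.max (α '' Icc s b) (isPreconnected_Icc.image _ hα.continuousOn)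
        (by
          rintro _ ⟨s', ⟨h4, h5⟩, rfl⟩
          exact hαD s' ⟨hs0.trans h4, h5.trans hb1⟩)
        (by
          rintro _ ⟨s', ⟨h4, h5⟩, rfl⟩
          have h6 : T (α s') ⊆ {c, f} := hb (by
            rw [Real.dist_eq, abs_of_nonneg (by linarith)]
            linarith)
          by_contra hcon
          have h7 : T (α s') ⊆ {f} := by
            intro m hm
            rcases h6 hm with h8 | h8
            · exact absurd (h8 ▸ hm) hcon
            · exact h8
          exact h.mx.notMem' (h.mem_of_single h7) (hαq s') hq)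
        ⟨α s, ⟨s, ⟨le_rfl, hsb.le⟩, rfl⟩, hK⟩
      exact ⟨b, I.K_sub (h3 ⟨b, ⟨hsb.le, le_rfl⟩, rfl⟩), hsb, hb1⟩
    · have h2 : ∀ᶠ v in 𝓝 (α s), v ∉ closure (Out429 z ε K) :=
        isClosed_closure.isOpen_compl.mem_nhds hcl
      obtain ⟨η, hη, hb⟩ := Metric.eventually_nhds_iff.1 (hα.continuousAt.eventually h2)
      obtain ⟨b, hbd⟩ : ∃ b, b = min (s + η / 2) 1 := ⟨_, rfl⟩
      have hsb : s < b := by rw [hbd]; exact lt_min (by linarith) hs1
      have hb1 : b ≤ 1 := by rw [hbd]; exact min_le_right _ _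
      have hb2 : b ≤ s + η / 2 := by rw [hbd]; exact min_le_left _ _
      refine ⟨b, ⟨hαD b ⟨by linarith, hb1⟩, fun h4 => ?_⟩, hsb, hb1⟩
      have h5 : α b ∉ closure (Out429 z ε K) := hb (by
        rw [Real.dist_eq, abs_of_nonneg (by linarith)]
        linarith)
      exact h5 (subset_closure h4)
  exact key.2 h1

end Isl429

end Vale.Agent.P032.Six
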