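import Vale.Agent.P032.H429.Hull
import Vale.Agent.P032.H383.Letters
import Vale.Agent.P032.H987.Sweep

/-!
# P032: the time line of a centre with windows

`WinData T z L R` : the colour `i` has the window `[L i, R i]` (units of 60 degrees), every colour
of a palette `T (pt z s)`, `s ∈ Lc T z`, has its window in front or behind, both kinds occur,
and the windows cover the circle.  `WinData.st` : the state (column of oriented pairs, sector
numbers of the windows) at a time; `WinData.G` generic times; `WinData.M` the times with a window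
end on a ray.  `WinData.false_pot` : no potential which is invariant under the turn by 60 degrees,
does not increase at any time and decreases at the times of `M`.
-/

open Set Filter Topology Metric

noncomputable section

namespace Vale.Agent.P032.H429

open Vale.Agent.P032.Six Vale.Agent.P032.Sweep Vale.Agent.P032.S5.H767 Vale.Agent.P032.S5.H122

/-- a window of the colour: first sector (mod 6) and number of further sectors -/
abbrev Wn := Fin 6 → ZMod 6 × ℕ
/-- a column of oriented letters (in, out) -/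
abbrev Cl := Fin 6 → Fin 6 × Fin 6
/-- a state -/
abbrev St := Cl × Wn

/-- the window `w` is in front of the slot `j` -/
def inn (w : ZMod 6 × ℕ) (j : ZMod 6) : Prop := (w.1 - j + 3).val + w.2 ≤ 2

instance (w : ZMod 6 × ℕ) (j : ZMod 6) : Decidable (inn w j) := by unfold inn; infer_instance

/-- the window `w` is behind the slot `j` -/
def out (w : ZMod 6 × ℕ) (j : ZMod 6) : Prop := inn w (j + 3)

instance (w : ZMod 6 × ℕ) (j : ZMod 6) : Decidable (out w j) := by unfold out; infer_instance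

theorem not_inn_out {w : ZMod 6 × ℕ} {j : ZMod 6} (h1 : inn w j) (h2 : out w j) : False := by
  obtain ⟨a, n⟩ := w
  have key : ∀ a j : ZMod 6, (a - j + 3).val ≤ 2 → (a - (j + 3) + 3).val ≤ 2 → False := by
    decide
  unfold inn at h1
  unfold out inn at h2
  simp only at h1 h2
  exact key a j (by omega) (by omega)

/-- the turn by 60 degrees -/
def shift (s : St) : St := (fun j => s.1 (j + 1), fun i => ((s.2 i).1 - 1, (s.2 i).2))

/-- windows of a centre -/
structure WinData (T : ℂ → Set (Fin 6)) (z : ℂ) (L R : Fin 6 → ℝ) : Prop where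
  le : ∀ i, L i ≤ R i
  lt : ∀ i, R i < L i + 3
  cover : ∀ s : ℝ, ∃ i, ∃ n : ℤ, L i + 6 * n ≤ s ∧ s ≤ R i + 6 * n
  side : ∀ s ∈ Lc T z, ∀ x ∈ T (pt z s),
    (∃ n : ℤ, s - 3 / 2 < L x + 6 * n ∧ R x + 6 * n < s + 3 / 2) ∨
      ∃ n : ℤ, s + 3 / 2 < L x + 6 * n ∧ R x + 6 * n < s + 9 / 2
  front : ∀ s ∈ Lc T z, ∃ x ∈ T (pt z s),
    ∃ n : ℤ, s - 3 / 2 < L x + 6 * n ∧ R x + 6 * n < s + 3 / 2
  back : ∀ s ∈ Lc T z, ∃ x ∈ T (pt z s),
    ∃ n : ℤ, s + 3 / 2 < L x + 6 * n ∧ R x + 6 * n < s + 9 / 2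

/-- the sector number -/
def sc (t x : ℝ) : ℤ := ⌊x - t - 3 / 2⌋

theorem sc_int (t x : ℝ) (n : ℤ) : sc t (x + 6 * n) = sc t x + 6 * n := by
  unfold sc
  have e : x + 6 * n - t - 3 / 2 = x - t - 3 / 2 + ((6 * n : ℤ) : ℝ) := by push_cast; ring
  rw [e, Int.floor_add_intCast]

theorem sc_turn (t x : ℝ) : sc (t + 1) x = sc t x - 1 := by
  unfold sc
  have e : x - (t + 1) - 3 / 2 = x - t - 3 / 2 - 1 := by ring
  rw [e, Int.floor_sub_one]

theorem le_sc {t x : ℝ} {j : ℤ} : j ≤ sc t x ↔ t + 3 / 2 + j ≤ x := by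
  unfold sc
  rw [Int.le_floor]
  constructor <;> intro h <;> linarith

theorem sc_lt {t x : ℝ} {j : ℤ} : sc t x < j ↔ x < t + 3 / 2 + j := by
  rw [← not_le, le_sc, not_le]

/-- the window of a colour at the time `t` -/
def wn (L R : Fin 6 → ℝ) (t : ℝ) : Wn := fun i => ((sc t (L i) : ZMod 6),
  (sc t (R i) - sc t (L i)).toNat)

theorem wn_turn (L R : Fin 6 → ℝ) (t : ℝ) : wn L R (t + 1) = fun i => ((wn L R t i).1 - 1,
    (wn L R t i).2) := by
  funext i
  unfold wn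
  rw [sc_turn, sc_turn]
  push_cast
  refine Prod.ext rfl ?_
  show (sc t (R i) - 1 - (sc t (L i) - 1)).toNat = (sc t (R i) - sc t (L i)).toNat
  congr 1
  ring

theorem zval_of_int (m : ℤ) (hm : 0 ≤ m) (hm6 : m < 6) : ((m : ℤ) : ZMod 6).val = m.toNat := by
  lift m to ℕ using hm
  rw [Int.cast_natCast, ZMod.val_natCast, Int.toNat_natCast]
  exact Nat.mod_eq_of_lt (by omega)

namespace WinData

variable {T : ℂ → Set (Fin 6)} {z : ℂ} {L R : Fin 6 → ℝ}

theorem sc_le (_ : WinData T z L R) {t x y : ℝ} (hxy : x ≤ y) : sc t x ≤ sc t y :=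
  Int.floor_le_floor (by linarith)

/-- a window has at most four sectors -/
theorem len (w : WinData T z L R) (t : ℝ) (i : Fin 6) : (wn L R t i).2 ≤ 3 := by
  have h1 : sc t (R i) < sc t (L i) + 4 := by
    rw [sc_lt]
    have h3 := (sc_lt (t := t) (x := L i) (j := sc t (L i) + 1)).1 (by omega)
    have h4 := w.lt i
    push_cast at h3 ⊢
    linarith
  have h2 := w.sc_le (t := t) (w.le i)
  show (sc t (R i) - sc t (L i)).toNat ≤ 3
  omega

theorem inn_iff (w : WinData T z L R) {t : ℝ} {i : Fin 6} {j : ℤ} :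
    inn (wn L R t i) (j : ZMod 6) ↔ ∃ n : ℤ, j - 3 ≤ sc t (L i) + 6 * n ∧
      sc t (R i) + 6 * n < j := by
  have hle := w.sc_le (t := t) (w.le i)
  have e0 : ∀ n : ℤ, ((sc t (L i) : ZMod 6) - (j : ZMod 6) + 3) =
      (((sc t (L i) + 6 * n - (j - 3) : ℤ)) : ZMod 6) := by
    intro n
    push_cast
    have : (6 : ZMod 6) = 0 := by decide
    rw [this]
    ring
  constructor
  · intro h
    unfold inn at h
    simp only [wn] at h
    obtain ⟨m, hm0, hm6⟩ : ∃ m : ℤ, 0 ≤ sc t (L i) - (j - 3) + 6 * m ∧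
        sc t (L i) - (j - 3) + 6 * m < 6 := by
      refine ⟨-((sc t (L i) - (j - 3)) / 6), ?_, ?_⟩
      · have := Int.emod_nonneg (sc t (L i) - (j - 3)) (show (6 : ℤ) ≠ 0 by norm_num)
        have h2 := Int.emod_add_mul_ediv (sc t (L i) - (j - 3)) 6
        linarith
      · have := Int.emod_lt_of_pos (sc t (L i) - (j - 3)) (show (0 : ℤ) < 6 by norm_num)
        have h2 := Int.emod_add_mul_ediv (sc t (L i) - (j - 3)) 6
        linarith
    refine ⟨m, by linarith, ?_⟩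
    rw [e0 m, zval_of_int _ (by linarith) (by linarith)] at h
    omega
  · rintro ⟨n, h1, h2⟩
    unfold inn
    simp only [wn]
    rw [e0 n, zval_of_int _ (by linarith) (by linarith)]
    omega

theorem out_iff (w : WinData T z L R) {t : ℝ} {i : Fin 6} {j : ℤ} :
    out (wn L R t i) (j : ZMod 6) ↔ ∃ n : ℤ, j ≤ sc t (L i) + 6 * n ∧
      sc t (R i) + 6 * n < j + 3 := by
  unfold out
  have := w.inn_iff (t := t) (i := i) (j := j + 3)
  push_cast at this
  rw [this]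
  constructor
  · rintro ⟨n, h1, h2⟩; exact ⟨n, by omega, by omega⟩
  · rintro ⟨n, h1, h2⟩; exact ⟨n, by omega, by omega⟩

/-- a choice of a pair of colours -/
def pick (Q : Fin 6 × Fin 6 → Prop) : Fin 6 × Fin 6 :=
  open Classical in if h : ∃ p, Q p then h.choose else (0, 0)

theorem pick_spec {Q : Fin 6 × Fin 6 → Prop} (h : ∃ p, Q p) : Q (pick Q) := by
  unfold pick
  rw [dif_pos h]
  exact h.choose_spec

/-- a letter of a palette at a slot: a colour in front and a colour behind -/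
def lett (P : Set (Fin 6)) (w : Wn) (j : Fin 6) : Fin 6 × Fin 6 :=
  pick fun p => (p.1 ∈ P ∧ p.2 ∈ P) ∧ inn (w p.1) (j.val : ZMod 6) ∧ out (w p.2) (j.val : ZMod 6)

theorem lett_spec {P : Set (Fin 6)} {w : Wn} {j : Fin 6}
    (h : ∃ p : Fin 6 × Fin 6, (p.1 ∈ P ∧ p.2 ∈ P) ∧ inn (w p.1) (j.val : ZMod 6) ∧
      out (w p.2) (j.val : ZMod 6)) : ((lett P w j).1 ∈ P ∧ (lett P w j).2 ∈ P) ∧
      inn (w (lett P w j).1) (j.val : ZMod 6) ∧ out (w (lett P w j).2) (j.val : ZMod 6) :=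
  pick_spec h

/-- the column at the time `t` -/
def col (T : ℂ → Set (Fin 6)) (z : ℂ) (L R : Fin 6 → ℝ) (t : ℝ) : Cl := fun j =>
  lett (T (pt z (t + (j.val : ℝ)))) (wn L R t) j

/-- the state at the time `t` -/
def st (T : ℂ → Set (Fin 6)) (z : ℂ) (L R : Fin 6 → ℝ) (t : ℝ) : St := (col T z L R t, wn L R t)

/-- the times with a window end on a ray -/
def M (L R : Fin 6 → ℝ) : Set ℝ := {t | ∃ i, ∃ n : ℤ, L i = t + 3 / 2 + n ∨ R i = t + 3 / 2 + n}

/-- the times such that all slots have constant palettes -/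
def L0 (T : ℂ → Set (Fin 6)) (z : ℂ) : Set ℝ := {t | ∀ j : Fin 6, t + (j.val : ℝ) ∈ Lc T z}

/-- the generic times -/
def G (T : ℂ → Set (Fin 6)) (z : ℂ) (L R : Fin 6 → ℝ) : Set ℝ := L0 T z \ M L R

theorem inn_of_front (w : WinData T z L R) {t : ℝ} {j x : Fin 6}
    (hx : ∃ n : ℤ, t + (j.val : ℝ) - 3 / 2 < L x + 6 * n ∧
      R x + 6 * n < t + (j.val : ℝ) + 3 / 2) : inn (wn L R t x) (j.val : ZMod 6) := by
  obtain ⟨n, h3, h4⟩ := hx
  have := (w.inn_iff (t := t) (i := x) (j := (j.val : ℤ))).2 ⟨n, ?_, ?_⟩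
  · simpa using this
  · rw [← sc_int, le_sc]; push_cast; linarith
  · rw [← sc_int, sc_lt]; push_cast; linarith

theorem out_of_back (w : WinData T z L R) {t : ℝ} {j x : Fin 6}
    (hx : ∃ n : ℤ, t + (j.val : ℝ) + 3 / 2 < L x + 6 * n ∧
      R x + 6 * n < t + (j.val : ℝ) + 9 / 2) : out (wn L R t x) (j.val : ZMod 6) := by
  obtain ⟨n, h3, h4⟩ := hx
  have := (w.out_iff (t := t) (i := x) (j := (j.val : ℤ))).2 ⟨n, ?_, ?_⟩
  · simpa using this
  · rw [← sc_int, le_sc]; push_cast; linarith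
  · rw [← sc_int, sc_lt]; push_cast; linarith

/-- the sides at a generic time -/
theorem side_spec (w : WinData T z L R) {t : ℝ} {j : Fin 6} (ht : t + (j.val : ℝ) ∈ Lc T z) :
    ∀ x ∈ T (pt z (t + (j.val : ℝ))), inn (wn L R t x) (j.val : ZMod 6) ∨
      out (wn L R t x) (j.val : ZMod 6) := fun x hx =>
  (w.side _ ht x hx).imp w.inn_of_front w.out_of_back

/-- the letters at a generic time -/
theorem letter' (w : WinData T z L R) {t : ℝ} {j : Fin 6} (ht : t + (j.val : ℝ) ∈ Lc T z) :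
    ∃ p : Fin 6 × Fin 6, (p.1 ∈ T (pt z (t + (j.val : ℝ))) ∧ p.2 ∈ T (pt z (t + (j.val : ℝ)))) ∧
      inn (wn L R t p.1) (j.val : ZMod 6) ∧ out (wn L R t p.2) (j.val : ZMod 6) := by
  obtain ⟨a, ha, ha'⟩ := w.front _ ht
  obtain ⟨b, hb, hb'⟩ := w.back _ ht
  exact ⟨(a, b), ⟨ha, hb⟩, w.inn_of_front ha', w.out_of_back hb'⟩

/-- the column at a generic time -/
theorem col_spec (w : WinData T z L R) {t : ℝ} (ht : t ∈ L0 T z) (j : Fin 6) :
    (col T z L R t j).1 ∈ T (pt z (t + (j.val : ℝ))) ∧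
      (col T z L R t j).2 ∈ T (pt z (t + (j.val : ℝ))) ∧
      (col T z L R t j).1 ≠ (col T z L R t j).2 ∧
      inn (wn L R t (col T z L R t j).1) (j.val : ZMod 6) ∧
      out (wn L R t (col T z L R t j).2) (j.val : ZMod 6) := by
  obtain ⟨⟨h1, h2⟩, h3, h4⟩ := lett_spec (w.letter' (ht j))
  refine ⟨h1, h2, fun h5 => ?_, h3, h4⟩
  have h6 : inn (wn L R t (col T z L R t j).1) (j.val : ZMod 6) := h3
  have h7 : out (wn L R t (col T z L R t j).2) (j.val : ZMod 6) := h4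
  rw [← h5] at h7
  exact not_inn_out h6 h7

theorem fin_add_one (j : Fin 6) : (((j + 1 : Fin 6).val : ℕ) : ZMod 6) = (j.val : ZMod 6) + 1 := by
  revert j; decide

theorem inn_sub_one (a : ZMod 6) (n : ℕ) (j : ZMod 6) : inn (a - 1, n) j ↔ inn (a, n) (j + 1) := by
  unfold inn
  have e : a - 1 - j + 3 = a - (j + 1) + 3 := by ring
  simp only [e]

theorem lett_shift (P : Set (Fin 6)) (w : Wn) (j : Fin 6) :
    lett P (fun i => ((w i).1 - 1, (w i).2)) j = lett P w (j + 1) := by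
  have key : ∀ p : Fin 6 × Fin 6, ((p.1 ∈ P ∧ p.2 ∈ P) ∧
      inn ((fun i => ((w i).1 - 1, (w i).2)) p.1) (j.val : ZMod 6) ∧
      out ((fun i => ((w i).1 - 1, (w i).2)) p.2) (j.val : ZMod 6)) ↔
      ((p.1 ∈ P ∧ p.2 ∈ P) ∧ inn (w p.1) ((j + 1 : Fin 6).val : ZMod 6) ∧
        out (w p.2) ((j + 1 : Fin 6).val : ZMod 6)) := by
    intro p
    unfold out
    simp only [inn_sub_one]
    have e : (j.val : ZMod 6) + 3 + 1 = (j.val : ZMod 6) + 1 + 3 := by ring
    rw [fin_add_one, e]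
  exact congrArg pick (funext fun p => propext (key p))

theorem st_turn (T : ℂ → Set (Fin 6)) (z : ℂ) (L R : Fin 6 → ℝ) (t : ℝ) :
    st T z L R (t + 1) = shift (st T z L R t) := by
  unfold st shift
  refine Prod.ext ?_ (wn_turn L R t)
  funext j
  show lett (T (pt z (t + 1 + (j.val : ℝ)))) (wn L R (t + 1)) j =
    lett (T (pt z (t + (((j + 1 : Fin 6).val : ℕ) : ℝ)))) (wn L R t) (j + 1)
  rw [wn_turn, lett_shift]
  have e : pt z (t + 1 + (j.val : ℝ)) = pt z (t + (((j + 1 : Fin 6).val : ℕ) : ℝ)) := by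
    have := pt_succ z 0 t j
    rw [zero_add] at this
    rw [this]
    congr 1
    ring
  rw [e]

theorem M_turn (L R : Fin 6 → ℝ) (t : ℝ) : t + 1 ∈ M L R ↔ t ∈ M L R := by
  unfold M
  constructor
  · rintro ⟨i, n, h | h⟩
    · exact ⟨i, n + 1, Or.inl (by push_cast; linarith)⟩
    · exact ⟨i, n + 1, Or.inr (by push_cast; linarith)⟩
  · rintro ⟨i, n, h | h⟩
    · exact ⟨i, n - 1, Or.inl (by push_cast; linarith)⟩
    · exact ⟨i, n - 1, Or.inr (by push_cast; linarith)⟩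

theorem L0_eq (T : ℂ → Set (Fin 6)) (z : ℂ) :
    L0 T z = Lall (κ := Unit) T (fun _ => z) 0 := by
  ext t
  constructor
  · rintro h ⟨-, j⟩
    have := h j
    simpa using this
  · intro h j
    have := h ((), j)
    simpa using this

theorem L0_turn {t : ℝ} (ht : t ∈ L0 T z) : t + 1 ∈ L0 T z := by
  intro j
  by_cases hj : j.val < 5
  · have := ht ⟨j.val + 1, by omega⟩
    have e : t + 1 + (j.val : ℝ) = t + ((j.val + 1 : ℕ) : ℝ) := by push_cast; ring
    rw [e]
    exact this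
  · have hj' : j.val = 5 := by omega
    have := (Lc_per z (t + ((0 : Fin 6).val : ℝ))).2 (ht 0)
    have e : t + 1 + (j.val : ℝ) = t + ((0 : Fin 6).val : ℝ) + 6 := by
      rw [hj']; push_cast; simp; ring
    rw [e]
    exact this

theorem L0_open (T : ℂ → Set (Fin 6)) (z : ℂ) : IsOpen (L0 T z) := by
  rw [L0_eq]; exact Lall_open

theorem M_closed (L R : Fin 6 → ℝ) : IsClosed (M L R) := by
  have hZ : IsClosed (range ((↑) : ℤ → ℝ)) := Int.isClosedEmbedding_coe_real.isClosed_range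
  have e : M L R = ⋃ i, ((fun t : ℝ => L i - t - 3 / 2) ⁻¹' range ((↑) : ℤ → ℝ)) ∪
      ((fun t : ℝ => R i - t - 3 / 2) ⁻¹' range ((↑) : ℤ → ℝ)) := by
    ext t
    simp only [M, mem_ofPred_eq, mem_iUnion, mem_union, mem_preimage, mem_range]
    constructor
    · rintro ⟨i, n, h | h⟩
      · exact ⟨i, Or.inl ⟨n, by linarith⟩⟩
      · exact ⟨i, Or.inr ⟨n, by linarith⟩⟩
    · rintro ⟨i, ⟨n, h⟩ | ⟨n, h⟩⟩
      · exact ⟨i, n, Or.inl (by linarith)⟩
      · exact ⟨i, n, Or.inr (by linarith)⟩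
  rw [e]
  exact isClosed_iUnion_of_finite fun i =>
    (hZ.preimage (by fun_prop)).union (hZ.preimage (by fun_prop))

theorem M_countable (L R : Fin 6 → ℝ) : (M L R).Countable := by
  have e : M L R ⊆ ⋃ i : Fin 6, (range fun n : ℤ => L i - 3 / 2 - n) ∪
      range fun n : ℤ => R i - 3 / 2 - n := by
    rintro t ⟨i, n, h | h⟩
    · exact mem_iUnion.2 ⟨i, Or.inl ⟨n, by simp only; linarith⟩⟩
    · exact mem_iUnion.2 ⟨i, Or.inr ⟨n, by simp only; linarith⟩⟩
  exact (countable_iUnion fun i => (countable_range _).union (countable_range _)).mono e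

theorem M_finite (L R : Fin 6 → ℝ) (a b : ℝ) : (M L R ∩ Ioo a b).Finite := by
  have key : ∀ c : ℝ, {t : ℝ | ∃ n : ℤ, c = t + 3 / 2 + n ∧ t ∈ Ioo a b}.Finite := by
    intro c
    refine ((Set.finite_Icc ⌊c - 3 / 2 - b⌋ ⌈c - 3 / 2 - a⌉).image
      fun n : ℤ => c - 3 / 2 - n).subset ?_
    rintro t ⟨n, h1, h2, h3⟩
    refine ⟨n, ⟨?_, ?_⟩, by simp only; linarith⟩
    · exact Int.floor_le_iff.2 (by linarith)
    · exact Int.le_ceil_iff.2 (by linarith)
  refine ((Set.finite_iUnion fun i => (key (L i)).union (key (R i)))).subset ?_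
  rintro t ⟨⟨i, n, h | h⟩, h2⟩
  · exact mem_iUnion.2 ⟨i, Or.inl ⟨n, h, h2⟩⟩
  · exact mem_iUnion.2 ⟨i, Or.inr ⟨n, h, h2⟩⟩

theorem G_dense {U : Fin 6 → Set ℂ} (h : Irr U T) (z : ℂ) (L R : Fin 6 → ℝ) :
    Dense (G T z L R) := by
  have h1 : Dense (L0 T z) := by rw [L0_eq]; exact Lall_dense h
  have h2 : Dense (M L R)ᶜ := (M_countable L R).dense_compl ℝ
  have := h1.inter_of_isOpen_left h2 (L0_open T z)
  exact this

theorem G_turn {t : ℝ} (ht : t ∈ G T z L R) : t + 1 ∈ G T z L R :=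
  ⟨L0_turn ht.1, fun h => ht.2 ((M_turn L R t).1 h)⟩

/-- the sector numbers are constant near a time without a window end on a ray -/
theorem sc_const {t x : ℝ} (hx : ∀ n : ℤ, x ≠ t + 3 / 2 + n) : ∀ᶠ v in 𝓝 t, sc v x = sc t x := by
  have h1 := (le_sc (t := t) (x := x) (j := sc t x)).1 le_rfl
  have h2 := (sc_lt (t := t) (x := x) (j := sc t x + 1)).1 (by omega)
  have h1' : t + 3 / 2 + sc t x < x := lt_of_le_of_ne h1 (hx (sc t x)).symm
  have e1 : ∀ᶠ v in 𝓝 t, v + 3 / 2 + sc t x < x := by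
    have hc : Continuous fun v : ℝ => v + 3 / 2 + (sc t x : ℝ) := by fun_prop
    exact hc.continuousAt.eventually (Iio_mem_nhds h1')
  have e2 : ∀ᶠ v in 𝓝 t, x < v + 3 / 2 + ((sc t x + 1 : ℤ) : ℝ) := by
    have hc : Continuous fun v : ℝ => v + 3 / 2 + ((sc t x + 1 : ℤ) : ℝ) := by fun_prop
    exact hc.continuousAt.eventually (Ioi_mem_nhds h2)
  filter_upwards [e1, e2] with v h3 h4
  have h5 := (le_sc (t := v) (x := x) (j := sc t x)).2 h3.le
  have h6 := (sc_lt (t := v) (x := x) (j := sc t x + 1)).2 h4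
  omega

theorem wn_const {t : ℝ} (ht : t ∉ M L R) : ∀ᶠ v in 𝓝 t, wn L R v = wn L R t := by
  have h1 : ∀ i, ∀ᶠ v in 𝓝 t, wn L R v i = wn L R t i := by
    intro i
    have hL : ∀ n : ℤ, L i ≠ t + 3 / 2 + n := fun n hn => ht ⟨i, n, Or.inl hn⟩
    have hR : ∀ n : ℤ, R i ≠ t + 3 / 2 + n := fun n hn => ht ⟨i, n, Or.inr hn⟩
    filter_upwards [sc_const hL, sc_const hR] with v h2 h3
    unfold wn
    rw [h2, h3]
  filter_upwards [eventually_all.2 h1] with v hv
  funext i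
  exact hv i

/-- the state is locally constant at generic times -/
theorem st_const {t : ℝ} (ht : t ∈ G T z L R) : ∀ᶠ v in 𝓝 t, st T z L R v = st T z L R t := by
  have h1 : ∀ j : Fin 6, ∀ᶠ v in 𝓝 t, T (pt z (v + (j.val : ℝ))) = T (pt z (t + (j.val : ℝ))) := by
    intro j
    have h2 : ∀ᶠ s in 𝓝 (t + (j.val : ℝ)), T (pt z s) = T (pt z (t + (j.val : ℝ))) := ht.1 j
    have hc : Tendsto (fun v : ℝ => v + (j.val : ℝ)) (𝓝 t) (𝓝 (t + (j.val : ℝ))) := by
      have : Continuous fun v : ℝ => v + (j.val : ℝ) := by fun_prop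
      exact this.tendsto t
    exact hc.eventually h2
  filter_upwards [wn_const ht.2, eventually_all.2 h1] with v h2 h3
  unfold st
  refine Prod.ext ?_ h2
  funext j
  show lett _ _ j = lett _ _ j
  rw [h3 j, h2]

end WinData

/-- limit states from the left -/
def LS (T : ℂ → Set (Fin 6)) (z : ℂ) (L R : Fin 6 → ℝ) (u : ℝ) : Set St :=
  {s | ∃ᶠ v in 𝓝[<] u, v ∈ WinData.G T z L R ∧ WinData.st T z L R v = s}

/-- limit states from the right -/
def RS (T : ℂ → Set (Fin 6)) (z : ℂ) (L R : Fin 6 → ℝ) (u : ℝ) : Set St :=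
  {s | ∃ᶠ v in 𝓝[>] u, v ∈ WinData.G T z L R ∧ WinData.st T z L R v = s}

/-- the sector number just after the time -/
def scr (t x : ℝ) : ℤ := ⌈x - t - 3 / 2⌉ - 1

/-- the windows just after the time -/
def wr (L R : Fin 6 → ℝ) (t : ℝ) : Wn := fun i => ((scr t (L i) : ZMod 6),
  (scr t (R i) - scr t (L i)).toNat)

theorem sc_left (u x : ℝ) : ∀ᶠ v in 𝓝[<] u, sc v x = sc u x := by
  have h1 := (le_sc (t := u) (x := x) (j := sc u x)).1 le_rfl
  have h2 := (sc_lt (t := u) (x := x) (j := sc u x + 1)).1 (by omega)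
  have e2 : ∀ᶠ v in 𝓝[<] u, x < v + 3 / 2 + ((sc u x + 1 : ℤ) : ℝ) := by
    have hc : Continuous fun v : ℝ => v + 3 / 2 + ((sc u x + 1 : ℤ) : ℝ) := by fun_prop
    exact mem_nhdsWithin_of_mem_nhds (hc.continuousAt.eventually (Ioi_mem_nhds h2))
  filter_upwards [e2, self_mem_nhdsWithin] with v h4 h3
  have h3' : v < u := h3
  have h5 := (le_sc (t := v) (x := x) (j := sc u x)).2 (by linarith)
  have h6 := (sc_lt (t := v) (x := x) (j := sc u x + 1)).2 h4
  omega

theorem sc_right (u x : ℝ) : ∀ᶠ v in 𝓝[>] u, sc v x = scr u x := by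
  have h1 : x - u - 3 / 2 ≤ ⌈x - u - 3 / 2⌉ := Int.le_ceil _
  have h2 : (⌈x - u - 3 / 2⌉ : ℝ) < x - u - 3 / 2 + 1 := Int.ceil_lt_add_one _
  have e2 : ∀ᶠ v in 𝓝[>] u, (⌈x - u - 3 / 2⌉ : ℝ) < x - v - 3 / 2 + 1 := by
    have hc : Continuous fun v : ℝ => x - v - 3 / 2 + 1 := by fun_prop
    exact mem_nhdsWithin_of_mem_nhds (hc.continuousAt.eventually (Ioi_mem_nhds h2))
  filter_upwards [e2, self_mem_nhdsWithin] with v h4 h3
  have h3' : u < v := h3
  have h5 := (le_sc (t := v) (x := x) (j := scr u x)).2 (by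
    unfold scr; push_cast; linarith)
  have h6 := (sc_lt (t := v) (x := x) (j := scr u x + 1)).2 (by
    unfold scr; push_cast; linarith)
  omega

theorem wn_left (L R : Fin 6 → ℝ) (u : ℝ) : ∀ᶠ v in 𝓝[<] u, wn L R v = wn L R u := by
  have h1 : ∀ i, ∀ᶠ v in 𝓝[<] u, wn L R v i = wn L R u i := by
    intro i
    filter_upwards [sc_left u (L i), sc_left u (R i)] with v h2 h3
    unfold wn
    rw [h2, h3]
  filter_upwards [eventually_all.2 h1] with v hv
  funext i
  exact hv i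

theorem wn_right (L R : Fin 6 → ℝ) (u : ℝ) : ∀ᶠ v in 𝓝[>] u, wn L R v = wr L R u := by
  have h1 : ∀ i, ∀ᶠ v in 𝓝[>] u, wn L R v i = wr L R u i := by
    intro i
    filter_upwards [sc_right u (L i), sc_right u (R i)] with v h2 h3
    unfold wn wr
    rw [h2, h3]
  filter_upwards [eventually_all.2 h1] with v hv
  funext i
  exact hv i

theorem scr_eq {u x : ℝ} (hx : ∀ n : ℤ, x ≠ u + 3 / 2 + n) : scr u x = sc u x := by
  obtain ⟨v, h1, h2⟩ := ((sc_right u x).and (mem_nhdsWithin_of_mem_nhds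
    (WinData.sc_const hx))).exists
  rw [← h1, h2]

theorem scr_mark {u x : ℝ} {n : ℤ} (hx : x = u + 3 / 2 + n) : scr u x = sc u x - 1 ∧
    sc u x = n := by
  unfold scr sc
  have e : x - u - 3 / 2 = n := by rw [hx]; ring
  rw [e, Int.ceil_intCast, Int.floor_intCast]
  exact ⟨rfl, rfl⟩

namespace WinData

variable {T : ℂ → Set (Fin 6)} {z : ℂ} {L R : Fin 6 → ℝ}

theorem LS_win {u : ℝ} {s : St} (hs : s ∈ LS T z L R u) : s.2 = wn L R u := by
  have hs' : ∃ᶠ v in 𝓝[<] u, v ∈ G T z L R ∧ st T z L R v = s := hs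
  obtain ⟨v, ⟨-, h1⟩, h2⟩ := (hs'.and_eventually (wn_left L R u)).exists
  rw [← h1]
  exact h2

theorem RS_win {u : ℝ} {s : St} (hs : s ∈ RS T z L R u) : s.2 = wr L R u := by
  have hs' : ∃ᶠ v in 𝓝[>] u, v ∈ G T z L R ∧ st T z L R v = s := hs
  obtain ⟨v, ⟨-, h1⟩, h2⟩ := (hs'.and_eventually (wn_right L R u)).exists
  rw [← h1]
  exact h2

theorem ev_LS (T : ℂ → Set (Fin 6)) (z : ℂ) (L R : Fin 6 → ℝ) (u : ℝ) :
    ∀ᶠ v in 𝓝[<] u, v ∈ G T z L R → st T z L R v ∈ LS T z L R u := by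
  have h1 : ∀ g : Cl, ∀ᶠ v in 𝓝[<] u, (v ∈ G T z L R ∧ st T z L R v = (g, wn L R u)) →
      (g, wn L R u) ∈ LS T z L R u := by
    intro g
    by_cases hf : (g, wn L R u) ∈ LS T z L R u
    · exact Eventually.of_forall fun _ _ => hf
    · have : ¬ ∃ᶠ v in 𝓝[<] u, v ∈ G T z L R ∧ st T z L R v = (g, wn L R u) := hf
      filter_upwards [not_frequently.1 this] with v hv hv'
      exact absurd hv' hv
  filter_upwards [eventually_all.2 h1, wn_left L R u] with v hv hw hG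
  have e : st T z L R v = ((st T z L R v).1, wn L R u) := Prod.ext rfl hw
  rw [e]
  exact hv _ ⟨hG, e⟩

theorem ev_RS (T : ℂ → Set (Fin 6)) (z : ℂ) (L R : Fin 6 → ℝ) (u : ℝ) :
    ∀ᶠ v in 𝓝[>] u, v ∈ G T z L R → st T z L R v ∈ RS T z L R u := by
  have h1 : ∀ g : Cl, ∀ᶠ v in 𝓝[>] u, (v ∈ G T z L R ∧ st T z L R v = (g, wr L R u)) →
      (g, wr L R u) ∈ RS T z L R u := by
    intro g
    by_cases hf : (g, wr L R u) ∈ RS T z L R u
    · exact Eventually.of_forall fun _ _ => hf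
    · have : ¬ ∃ᶠ v in 𝓝[>] u, v ∈ G T z L R ∧ st T z L R v = (g, wr L R u) := hf
      filter_upwards [not_frequently.1 this] with v hv hv'
      exact absurd hv' hv
  filter_upwards [eventually_all.2 h1, wn_right L R u] with v hv hw hG
  have e : st T z L R v = ((st T z L R v).1, wr L R u) := Prod.ext rfl hw
  rw [e]
  exact hv _ ⟨hG, e⟩

/-- **The potential theorem.** -/
theorem false_pot {U : Fin 6 → Set ℂ} (h : Irr U T) (z : ℂ) (L R : Fin 6 → ℝ) {φ : St → ℕ}
    (hsh : ∀ t ∈ G T z L R, φ (shift (st T z L R t)) = φ (st T z L R t))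
    (step : ∀ u, ∀ s ∈ LS T z L R u, ∀ s' ∈ RS T z L R u, φ s' ≤ φ s ∧
      (u ∈ M L R → φ s' < φ s)) : False := by
  -- a time with a window end on a ray
  obtain ⟨u0, hu0⟩ : ∃ u0, u0 ∈ M L R := ⟨L 0 - 3 / 2, 0, 0, Or.inl (by push_cast; ring)⟩
  obtain ⟨a, haG, ha1, ha2⟩ : ∃ a ∈ G T z L R, u0 - 1 < a ∧ a < u0 := by
    obtain ⟨a, h1, h2⟩ := (G_dense h z L R).exists_mem_open (isOpen_Ioo (a := u0 - 1) (b := u0))
      ⟨u0 - 1 / 2, by constructor <;> linarith⟩
    exact ⟨a, h1, h2.1, h2.2⟩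
  have hbG : a + 1 ∈ G T z L R := G_turn haG
  have hst := st_const hbG
  -- a generic time just before `a + 1`
  obtain ⟨δ, hδ, hb⟩ := Metric.eventually_nhds_iff.1 hst
  obtain ⟨v, hvG, hv1, hv2⟩ : ∃ v ∈ G T z L R, max u0 (a + 1 - δ) < v ∧ v < a + 1 := by
    obtain ⟨v, h1, h2⟩ := (G_dense h z L R).exists_mem_open
      (isOpen_Ioo (a := max u0 (a + 1 - δ)) (b := a + 1))
      (nonempty_Ioo.2 (max_lt (by linarith) (by linarith)))
    exact ⟨v, h1, h2.1, h2.2⟩
  have hvu : u0 < v := lt_of_le_of_lt (le_max_left _ _) hv1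
  have hvδ : a + 1 - δ < v := lt_of_le_of_lt (le_max_right _ _) hv1
  have hsv : st T z L R v = st T z L R (a + 1) := by
    refine hb ?_
    rw [Real.dist_eq, abs_of_neg (by linarith)]
    linarith
  have key := H987.transport (ι := Unit) (M := fun _ => M L R) (a := a) (b := a + 1)
    (fun _ => M_finite L R a (a + 1)) (G_dense h z L R) (st := st T z L R)
    (fun u hu _ => (st_const hu).mono fun _ hv _ => hv)
    (I := fun n s => φ s ≤ φ (st T z L R a) ∧ (0 < n () → φ s < φ (st T z L R a))) ?_ ?_ v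
    ⟨by linarith, hv2⟩ hvG
  · have h1 : 0 < H987.cnt (fun _ : Unit => M L R) a v () := by
      have hfin : (M L R ∩ Ioo a v).Finite :=
        (M_finite L R a (a + 1)).subset (inter_subset_inter_right _ (Ioo_subset_Ioo_right hv2.le))
      exact (Set.ncard_pos hfin).2 ⟨u0, hu0, ha2, hvu⟩
    have h2 := key.2 h1
    rw [hsv, st_turn, hsh a haG] at h2
    exact lt_irrefl _ h2
  · have h1 : ∀ᶠ v in 𝓝[>] a, st T z L R v = st T z L R a :=
      mem_nhdsWithin_of_mem_nhds (st_const haG)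
    filter_upwards [h1] with v hv _
    rw [hv]
    exact ⟨le_rfl, fun h0 => absurd h0 (lt_irrefl _)⟩
  · intro u hu
    filter_upwards [ev_LS T z L R u] with v hv hvG
    filter_upwards [ev_RS T z L R u] with v' hv' hvG' n hI
    obtain ⟨h1, h2⟩ := step u _ (hv hvG) _ (hv' hvG')
    refine ⟨h1.trans hI.1, fun h0 => ?_⟩
    by_cases huM : u ∈ M L R
    · exact lt_of_lt_of_le (h2 huM) hI.1
    · have h3 : H987.ind (fun _ : Unit => M L R) u () = 0 := if_neg huM
      have h4 : 0 < n () := by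
        have : (n + H987.ind (fun _ : Unit => M L R) u) () = n () + 0 := by
          rw [Pi.add_apply, h3]
        rw [this] at h0
        simpa using h0
      exact lt_of_le_of_lt h1 (hI.2 h4)

end WinData

end Vale.Agent.P032.H429
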