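import Vale.Agent.P032.H429.Cross
import Vale.Agent.P032.H429.Corner
import Vale.Agent.P032.H266.FamZ

/-!
# P032: directions of the components of the centre

`Hc429 U z i` : the component of `z` in `closure (U i)`; `AD U z i` : its directions at `z` (units of
60 degrees).  They are honest (`ad_hd`), strictly on one side of every letter (`ad_side`), closed,
and periodic.  `win_of_ad` : if every direction is in some `AD U z i`, their hulls are windows.
-/

open Set Filter Topology Metric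

noncomputable section

namespace Vale.Agent.P032.H429T

open Vale.Agent.P032.Six Vale.Agent.P032.Sweep Vale.Agent.P032.S5.H767 Vale.Agent.P032.S5.H122
  Vale.Agent.P032.H158 Vale.Agent.P032.H782 Vale.Agent.P032.H429 Vale.Agent.P032.H437
  Vale.Agent.P032.H266

variable {U : Fin 6 → Set ℂ} {T : ℂ → Set (Fin 6)} {z : ℂ} {i : Fin 6}

/-- the component of `z` in the closure of `U i` -/
def Hc429 (U : Fin 6 → Set ℂ) (z : ℂ) (i : Fin 6) : Set ℂ := connectedComponentIn (closure (U i)) z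

/-- the directions of the component of `z` -/
def AD (U : Fin 6 → Set ℂ) (z : ℂ) (i : Fin 6) : Set ℝ :=
  {s | ∃ᶠ x in nap z (cis (s * (Real.pi / 3))), x ∈ Hc429 U z i}

/-- a connected set of the colour at `z` is in the component -/
theorem sub_hc {C : Set ℂ} (hC : IsPreconnected C) (hz : z ∈ C) (hCi : ∀ x ∈ C, i ∈ Pal U x) :
    C ⊆ Hc429 U z i := hC.subset_connectedComponentIn hz hCi

theorem hc_pal {x : ℂ} (hx : x ∈ Hc429 U z i) : i ∈ Pal U x := by
  have h1 : x ∈ closure (U i) := connectedComponentIn_subset (closure (U i)) z hx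
  exact h1

theorem freq_closed429 (z : ℂ) (p : ℂ → Prop) : IsClosed {s : ℝ | ∃ᶠ x in nap z (cis s), p x} := by
  rw [← isOpen_compl_iff, isOpen_iff_mem_nhds]
  intro s hs
  have h0 : ∀ᶠ x in nap z (cis s), ¬ p x := not_frequently.1 hs
  have h1 := nap_semi h0
  have h2 : Tendsto (fun t : ℝ => t - s) (𝓝 s) (𝓝 0) := by
    have hc : Continuous fun t : ℝ => t - s := by fun_prop
    have := hc.tendsto s
    rwa [sub_self] at this
  filter_upwards [h2.eventually h1] with t ht hi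
  rw [← cis_add429, add_sub_cancel] at ht
  have hi : ∃ᶠ x in nap z (cis t), p x := hi
  exact hi ht

theorem ad_closed (U : Fin 6 → Set ℂ) (z : ℂ) (i : Fin 6) : IsClosed (AD U z i) := by
  have h1 : Continuous fun s : ℝ => s * (Real.pi / 3) := by fun_prop
  exact (freq_closed429 z fun x => x ∈ Hc429 U z i).preimage h1

theorem ad_int {s : ℝ} (n : ℤ) : s + 6 * n ∈ AD U z i ↔ s ∈ AD U z i := by
  have e : (s + 6 * n) * (Real.pi / 3) = s * (Real.pi / 3) + 2 * Real.pi * n := by ring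
  unfold AD
  simp only [mem_ofPred_eq]
  rw [e, cis_int429]

/-- the directions are honest -/
theorem ad_hd (h : Mx U) (hzi : i ∈ Pal U z) {s : ℝ} (hs : s ∈ AD U z i) : s ∈ HD U z i := by
  have hC : IsPreconnected (Hc429 U z i) := isPreconnected_connectedComponentIn
  have hz : z ∈ Hc429 U z i := mem_connectedComponentIn hzi
  have hs : ∃ᶠ x in nap z (cis (s * (Real.pi / 3))), x ∈ Hc429 U z i := hs
  intro t
  have e3 : ip (cis (s * (Real.pi / 3))) (z - pt z t) = -Real.cos ((s - t) * (Real.pi / 3)) := by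
    have e4 : z - pt z t = -(pt z t - z) := by ring
    have e5 : (s - t) * (Real.pi / 3) = s * (Real.pi / 3) - t * (Real.pi / 3) := by ring
    rw [e4, pt_sub158, e5, ← ip_cis429]
    unfold ip
    simp
    ring
  constructor
  · intro ho
    by_contra hcon
    push Not at hcon
    obtain ⟨x, hx, hx'⟩ := (hs.and_eventually (nap_near (y := z) (d := cis (s * (Real.pi / 3)))
      (v := pt z t) (by rw [dist_comm]; exact dist_pt158 z t) (by rw [e3]; linarith))).exists
    exact absurd (ho.cont h hC hz (fun x hx => hc_pal hx) x hx) (not_le.2 hx')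
  · intro ho
    by_contra hcon
    push Not at hcon
    obtain ⟨x, hx, hx'⟩ := (hs.and_eventually (nap_far (y := z) (d := cis (s * (Real.pi / 3)))
      (v := pt z t) (by rw [dist_comm]; exact dist_pt158 z t) (by rw [e3]; linarith))).exists
    exact absurd (ho.cont h hC hz (fun x hx => hc_pal hx) x hx) (not_le.2 hx')

theorem arc_of_lc {s : ℝ} (hs : s ∈ Lc T z) : Arc T z (pt z s) (T (pt z s)) :=
  ⟨dist_pt z s, Lc_circle hs⟩

/-- no direction of a colour of the letter perpendicular to the letter -/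
theorem ad_cos (h : Irr U T) {s d : ℝ} (hs : s ∈ Lc T z) (hi : i ∈ T (pt z s)) (hd : d ∈ AD U z i) :
    Real.cos ((d - s) * (Real.pi / 3)) ≠ 0 := by
  intro hcos
  have hg : Car U z (z + cis (s * (Real.pi / 3))) i := (arc_of_lc hs).car h hi
  obtain ⟨η, hη, hJ⟩ := hg.exists_eta
  obtain ⟨φ, hφ⟩ : ∃ φ, φ = (d - s) * (Real.pi / 3) := ⟨_, rfl⟩
  rw [← hφ] at hcos
  have hsin : Real.sin φ = 1 ∨ Real.sin φ = -1 := by
    have h1 := Real.sin_sq_add_cos_sq φ
    rw [hcos] at h1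
    have h2 : (Real.sin φ - 1) * (Real.sin φ + 1) = 0 := by linear_combination h1
    rcases mul_eq_zero.1 h2 with h3 | h3
    · exact Or.inl (by linarith)
    · exact Or.inr (by linarith)
  have e : cis (d * (Real.pi / 3)) =
      ((Real.sin φ : ℝ) : ℂ) * (Complex.I * cis (s * (Real.pi / 3))) := by
    have e1 : d * (Real.pi / 3) = s * (Real.pi / 3) + φ := by rw [hφ]; ring
    have e2 : cis φ = ((Real.sin φ : ℝ) : ℂ) * Complex.I := by
      apply Complex.ext
      · rw [cis_re, hcos, Complex.re_ofReal_mul, Complex.I_re, mul_zero]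
      · rw [cis_im, Complex.im_ofReal_mul, Complex.I_im, mul_one]
    rw [e1, cis_add429, e2]
    ring
  have h1 := h.mx.nap_avoid (z := z) hη hJ hsin
  rw [← e] at h1
  have hd : ∃ᶠ x in nap z (cis (d * (Real.pi / 3))), x ∈ Hc429 U z i := hd
  obtain ⟨x, hx, hx'⟩ := (hd.and_eventually h1).exists
  exact hx' (hc_pal hx)

/-- a colour inside: all directions strictly in front -/
theorem ad_front (h : Irr U T) {s : ℝ} (hs : s ∈ Lc T z) (hzi : i ∈ T z) (hi : i ∈ T (pt z s))
    (hin : InnN U z (pt z s) i) : ∀ d ∈ AD U z i, 0 < Real.cos ((d - s) * (Real.pi / 3)) :=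
  fun _ hd => lt_of_le_of_ne ((ad_hd h.mx (h.sub z hzi) hd s).2 hin) (ad_cos h hs hi hd).symm

/-- a colour outside: all directions strictly behind -/
theorem ad_back (h : Irr U T) {s : ℝ} (hs : s ∈ Lc T z) (hzi : i ∈ T z) (hi : i ∈ T (pt z s))
    (hin : OutN U z (pt z s) i) : ∀ d ∈ AD U z i, Real.cos ((d - s) * (Real.pi / 3)) < 0 :=
  fun _ hd => lt_of_le_of_ne ((ad_hd h.mx (h.sub z hzi) hd s).1 hin) (ad_cos h hs hi hd)

/-! ### hulls -/

theorem rep6 (c s : ℝ) : ∃ n : ℤ, c ≤ s + 6 * n ∧ s + 6 * n < c + 6 := by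
  refine ⟨⌈(c - s) / 6⌉, ?_, ?_⟩
  · have := Int.le_ceil ((c - s) / 6)
    rw [div_le_iff₀ (by norm_num)] at this
    linarith
  · have := Int.ceil_lt_add_one ((c - s) / 6)
    have h2 : (⌈(c - s) / 6⌉ : ℝ) - 1 < (c - s) / 6 := by linarith
    rw [lt_div_iff₀ (by norm_num)] at h2
    linarith

theorem cos_rep {s d : ℝ} (n : ℤ) :
    Real.cos ((d + 6 * n - s) * (Real.pi / 3)) = Real.cos ((d - s) * (Real.pi / 3)) := by
  have e : (d + 6 * n - s) * (Real.pi / 3) = (d - s) * (Real.pi / 3) + n * (2 * Real.pi) := by ring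
  rw [e, Real.cos_add_int_mul_two_pi]

/-- the representative in front -/
theorem rep_front {s d : ℝ} (hd : 0 < Real.cos ((d - s) * (Real.pi / 3))) :
    ∃ n : ℤ, s - 3 / 2 < d + 6 * n ∧ d + 6 * n < s + 3 / 2 := by
  obtain ⟨n, h1, h2⟩ := rep6 (s - 3 / 2) d
  rw [← cos_rep n] at hd
  have hp : 0 < Real.pi / 3 := by positivity
  refine ⟨n, lt_of_le_of_ne h1 fun h3 => ?_, ?_⟩
  · rw [← h3] at hd
    have e : (s - 3 / 2 - s) * (Real.pi / 3) = -(Real.pi / 2) := by ring
    rw [e, Real.cos_neg, Real.cos_pi_div_two] at hd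
    exact lt_irrefl _ hd
  · by_contra hcon
    push Not at hcon
    have h4 : Real.cos ((d + 6 * n - s) * (Real.pi / 3)) ≤ 0 := by
      refine Real.cos_nonpos_of_pi_div_two_le_of_le ?_ ?_
      · have : 3 / 2 * (Real.pi / 3) ≤ (d + 6 * n - s) * (Real.pi / 3) :=
          mul_le_mul_of_nonneg_right (by linarith) hp.le
        linarith
      · have : (d + 6 * n - s) * (Real.pi / 3) ≤ 9 / 2 * (Real.pi / 3) :=
          mul_le_mul_of_nonneg_right (by linarith) hp.le
        linarith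
    linarith

/-- the hull of a closed periodic set in an open half circle -/
theorem hull_of {A : Set ℝ} (hA : IsClosed A) (hper : ∀ s : ℝ, ∀ n : ℤ, s + 6 * (n : ℝ) ∈ A ↔ s ∈ A)
    (hne : A.Nonempty) {s : ℝ} (hc : ∀ d ∈ A, 0 < Real.cos ((d - s) * (Real.pi / 3))) :
    ∃ L R, L ∈ A ∧ R ∈ A ∧ L ≤ R ∧ R < L + 3 ∧ ∀ d ∈ A, ∃ n : ℤ, L + 6 * n ≤ d ∧ d ≤ R + 6 * n := by
  set B : Set ℝ := A ∩ Icc (s - 3 / 2) (s + 3 / 2) with hB
  have hBc : IsCompact B := isCompact_Icc.inter_left hA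
  have hrep : ∀ d ∈ A, ∃ n : ℤ, d + 6 * n ∈ B ∧ s - 3 / 2 < d + 6 * n ∧ d + 6 * n < s + 3 / 2 := by
    intro d hd
    obtain ⟨n, h1, h2⟩ := rep_front (hc d hd)
    exact ⟨n, ⟨(hper d n).2 hd, h1.le, h2.le⟩, h1, h2⟩
  obtain ⟨d0, hd0⟩ := hne
  obtain ⟨n0, hn0, -, -⟩ := hrep d0 hd0
  have hBne : B.Nonempty := ⟨_, hn0⟩
  have hL := hBc.sInf_mem hBne
  have hR := hBc.sSup_mem hBne
  have hin : ∀ d ∈ B, s - 3 / 2 < d ∧ d < s + 3 / 2 := by
    intro d hd
    have h1 := hc d hd.1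
    constructor
    · refine lt_of_le_of_ne hd.2.1 fun h3 => ?_
      rw [← h3] at h1
      have e : (s - 3 / 2 - s) * (Real.pi / 3) = -(Real.pi / 2) := by ring
      rw [e, Real.cos_neg, Real.cos_pi_div_two] at h1
      exact lt_irrefl _ h1
    · refine lt_of_le_of_ne hd.2.2 fun h3 => ?_
      rw [h3] at h1
      have e : (s + 3 / 2 - s) * (Real.pi / 3) = Real.pi / 2 := by ring
      rw [e, Real.cos_pi_div_two] at h1
      exact lt_irrefl _ h1
  refine ⟨sInf B, sSup B, hL.1, hR.1, ?_, ?_, fun d hd => ?_⟩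
  · exact csInf_le hBc.bddBelow hR
  · linarith [(hin _ hL).1, (hin _ hR).2]
  · obtain ⟨n, h1, -, -⟩ := hrep d hd
    refine ⟨-n, ?_, ?_⟩
    · have := csInf_le hBc.bddBelow h1
      push_cast
      linarith
    · have := le_csSup hBc.bddAbove h1
      push_cast
      linarith

/-- the window of a letter in front -/
theorem win_front {A : Set ℝ} {s L R : ℝ} (hL : L ∈ A) (hR : R ∈ A) (hLR : L ≤ R) (hlt : R < L + 3)
    (hc : ∀ d ∈ A, 0 < Real.cos ((d - s) * (Real.pi / 3))) :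
    ∃ n : ℤ, s - 3 / 2 < L + 6 * n ∧ R + 6 * n < s + 3 / 2 := by
  obtain ⟨n, h1, h2⟩ := rep_front (hc L hL)
  obtain ⟨m, h3, h4⟩ := rep_front (hc R hR)
  refine ⟨n, h1, ?_⟩
  have e : m = n := by
    have h5 : ((m : ℤ) : ℝ) < n + 1 := by linarith
    have h6 : (n : ℝ) < m + 1 := by linarith
    have h7 : m < n + 1 := by exact_mod_cast h5
    have h8 : n < m + 1 := by exact_mod_cast h6
    omega
  rw [← e]; exact h4

theorem win_back {A : Set ℝ} {s L R : ℝ} (hL : L ∈ A) (hR : R ∈ A) (hLR : L ≤ R) (hlt : R < L + 3)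
    (hc : ∀ d ∈ A, Real.cos ((d - s) * (Real.pi / 3)) < 0) :
    ∃ n : ℤ, s + 3 / 2 < L + 6 * n ∧ R + 6 * n < s + 9 / 2 := by
  obtain ⟨n, h1, h2⟩ := win_front (s := s + 3) hL hR hLR hlt (fun d hd => by
    have e : (d - (s + 3)) * (Real.pi / 3) = (d - s) * (Real.pi / 3) - Real.pi := by ring
    rw [e, Real.cos_sub_pi]
    linarith [hc d hd])
  exact ⟨n, by linarith, by linarith⟩

/-! ### sides which occur -/

theorem exists_side (h : Irr U T) {y : ℂ} {R : Set ℂ} (hR : ∃ᶠ w in 𝓝 y, w ∈ R) :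
    ∃ i ∈ T y, ∃ᶠ w in 𝓝 y, i ∈ T w ∧ w ∈ R := by
  by_contra hcon
  push Not at hcon
  have h1 : ∀ i, ∀ᶠ w in 𝓝 y, i ∈ T y → ¬ (i ∈ T w ∧ w ∈ R) := by
    intro i
    by_cases hi : i ∈ T y
    · filter_upwards [hcon i hi] with w hw _ h3 using hw h3.1 h3.2
    · exact Eventually.of_forall fun w h2 => absurd h2 hi
  obtain ⟨w, hw, h2, h3⟩ := (hR.and_eventually ((eventually_all.2 h1).and (h.nhd y))).exists
  obtain ⟨j, hj⟩ := h.ne w
  exact h2 j (h3 hj) ⟨hj, hw⟩

theorem freq_inn (z : ℂ) (s : ℝ) : ∃ᶠ w in 𝓝 (pt z s), w ∈ {w | dist w z < 1} := by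
  rw [← mem_closure_iff_frequently]
  have e : {w | dist w z < 1} = ball z 1 := rfl
  rw [e, closure_ball z one_ne_zero, mem_closedBall]
  exact (dist_pt z s).le

theorem freq_out (z : ℂ) (s : ℝ) : ∃ᶠ w in 𝓝 (pt z s), w ∈ {w | 1 < dist w z} := by
  have h1 : Tendsto (fun r : ℝ => z + ((1 + r : ℝ) : ℂ) * cis (s * (Real.pi / 3))) (𝓝[>] 0)
      (𝓝 (pt z s)) := by
    have h2 : Continuous fun r : ℝ => z + ((1 + r : ℝ) : ℂ) * cis (s * (Real.pi / 3)) := by fun_prop
    have h3 := h2.tendsto 0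
    have e : z + ((1 + 0 : ℝ) : ℂ) * cis (s * (Real.pi / 3)) = pt z s := by
      unfold pt; push_cast; ring
    rw [e] at h3
    exact h3.mono_left nhdsWithin_le_nhds
  refine h1.frequently (Eventually.frequently ?_)
  filter_upwards [self_mem_nhdsWithin] with r hr
  have hr : (0 : ℝ) < r := hr
  show 1 < dist (z + ((1 + r : ℝ) : ℂ) * cis (s * (Real.pi / 3))) z
  rw [dist_eq_norm, add_sub_cancel_left, norm_mul, norm_cis, mul_one, Complex.norm_real,
    Real.norm_eq_abs, abs_of_pos (by linarith)]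
  linarith

/-- **Windows from directions**: if every direction is a direction of the component of `z` of some
colour, the hulls are windows. -/
theorem win_of_ad (h : Irr U T) (hz : T z = univ) (hne : ∀ i, (AD U z i).Nonempty)
    (hlet : ∀ i, ∃ s ∈ Lc T z, i ∈ T (pt z s)) (hcov : ∀ s : ℝ, ∃ i, s ∈ AD U z i) :
    ∃ L R : Fin 6 → ℝ, WinData T z L R ∧ (∀ i, L i ∈ AD U z i) ∧ ∀ i, R i ∈ AD U z i := by
  have hzi : ∀ i, i ∈ T z := fun i => by rw [hz]; trivial
  have hex : ∀ i, ∃ L R, L ∈ AD U z i ∧ R ∈ AD U z i ∧ L ≤ R ∧ R < L + 3 ∧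
      ∀ d ∈ AD U z i, ∃ n : ℤ, L + 6 * n ≤ d ∧ d ≤ R + 6 * n := by
    intro i
    obtain ⟨s, hs, hi⟩ := hlet i
    rcases out_or_inn h.mx (h.sub _ hi) with ho | ho
    · refine hull_of (s := s + 3) (ad_closed U z i) (fun s n => ad_int n) (hne i) fun d hd => ?_
      have e : (d - (s + 3)) * (Real.pi / 3) = (d - s) * (Real.pi / 3) - Real.pi := by ring
      rw [e, Real.cos_sub_pi]
      linarith [ad_back h hs (hzi i) hi ho d hd]
    · exact hull_of (ad_closed U z i) (fun s n => ad_int n) (hne i) (ad_front h hs (hzi i) hi ho)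
  choose L R hL hR hLR hlt hhull using hex
  refine ⟨L, R, ⟨hLR, hlt, ?_, ?_, ?_, ?_⟩, hL, hR⟩
  · intro s
    obtain ⟨i, hi⟩ := hcov s
    exact ⟨i, hhull i s hi⟩
  · intro s hs x hx
    rcases out_or_inn h.mx (h.sub _ hx) with ho | ho
    · exact Or.inr (win_back (hL x) (hR x) (hLR x) (hlt x) (ad_back h hs (hzi x) hx ho))
    · exact Or.inl (win_front (hL x) (hR x) (hLR x) (hlt x) (ad_front h hs (hzi x) hx ho))
  · intro s hs
    obtain ⟨x, hx, hf⟩ := exists_side h (freq_inn z s)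
    exact ⟨x, hx, win_front (hL x) (hR x) (hLR x) (hlt x)
      (ad_front h hs (hzi x) hx (innN_of h hf))⟩
  · intro s hs
    obtain ⟨x, hx, hf⟩ := exists_side h (freq_out z s)
    exact ⟨x, hx, win_back (hL x) (hR x) (hLR x) (hlt x)
      (ad_back h hs (hzi x) hx (outN_of h hf))⟩

end Vale.Agent.P032.H429T
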