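import Vale.Agent.P032.H326.Rays5
import Vale.Agent.P032.S5.H555.Chord

/-!
# P032: the colours near a point in the directions near a given one

`tau T z m` is the set of the colours which occur, arbitrarily near `z`, in the directions near `m`.
Rules: `tau_nonempty`, `tau_sub`, `tau_semi` (semicontinuity), `tau_avoid` (colours of an arc of
`S(z)` perpendicular to `m`), `tau_conn` (connected in the graph of unbroken pairs), `tau_nappes`
(the two sides of a cut pair), `tau_not_both`, `tau_same_side`, `tau_sep` (solid sectors).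
All rules hold for the frame `Irr` (and `Mn`), for points of every order.
-/

open Set Filter Topology Metric

noncomputable section

namespace Vale.Agent.P032.Six

variable {k : ℕ} {U : Fin k → Set ℂ} {T : ℂ → Set (Fin k)}

/-- the filter of the sectors at `z` about the direction `m` -/
def nap (z m : ℂ) : Filter ℂ :=
  ((𝓝 (0 : ℝ)) ×ˢ (𝓝[>] (0 : ℝ))).map fun p : ℝ × ℝ => z + p.2 * (m * cis p.1)

/-- the colours near `z` in the directions near `m` -/
def tau (T : ℂ → Set (Fin k)) (z m : ℂ) : Set (Fin k) := {i | ∃ᶠ x in nap z m, i ∈ T x}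

instance nap_neBot (z m : ℂ) : (nap z m).NeBot := by
  unfold nap
  infer_instance

theorem nap_iff {z m : ℂ} {p : ℂ → Prop} : (∀ᶠ x in nap z m, p x) ↔
    ∃ δ > 0, ∀ s r : ℝ, |s| < δ → 0 < r → r < δ → p (z + r * (m * cis s)) := by
  unfold nap
  rw [eventually_map]
  constructor
  · intro h
    obtain ⟨pa, ha, pb, hb, hab⟩ := eventually_prod_iff.1 h
    obtain ⟨δ1, h1, h1'⟩ := Metric.eventually_nhds_iff.1 ha
    obtain ⟨δ2, h2, h2'⟩ := mem_nhdsGT_iff_exists_Ioo_subset.1 hb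
    rw [mem_Ioi] at h2
    refine ⟨min δ1 δ2, lt_min h1 h2, fun s r hs hr0 hr => ?_⟩
    refine hab (x := s) (h1' ?_) (y := r) (h2' ⟨hr0, lt_of_lt_of_le hr (min_le_right _ _)⟩)
    rw [Real.dist_eq, sub_zero]
    exact lt_of_lt_of_le hs (min_le_left _ _)
  · rintro ⟨δ, hδ, h⟩
    refine eventually_prod_iff.2 ⟨fun s => |s| < δ, ?_, fun r => 0 < r ∧ r < δ, ?_,
      fun {s} hs {r} hr => h s r hs hr.1 hr.2⟩
    · refine Metric.eventually_nhds_iff.2 ⟨δ, hδ, fun s hs => ?_⟩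
      rwa [Real.dist_eq, sub_zero] at hs
    · exact mem_nhdsGT_iff_exists_Ioo_subset.2 ⟨δ, hδ, fun r hr => ⟨hr.1, hr.2⟩⟩

theorem nap_le (z m : ℂ) : nap z m ≤ 𝓝 z := by
  unfold nap
  have hc : Continuous fun p : ℝ × ℝ => z + p.2 * (m * cis p.1) := by
    have := continuous_cis
    fun_prop
  have h1 := hc.tendsto (0, 0)
  simp only [Complex.ofReal_zero, zero_mul, add_zero] at h1
  refine (Filter.map_mono ?_).trans h1
  rw [nhds_prod_eq]
  exact Filter.prod_mono le_rfl nhdsWithin_le_nhds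

/-- a property of the sector holds on the ray -/
theorem ray_of_nap {z m : ℂ} {p : ℂ → Prop} (h : ∀ᶠ x in nap z m, p x) :
    ∀ᶠ r : ℝ in 𝓝[>] 0, p (z + r * m) := by
  obtain ⟨δ, hδ, h1⟩ := nap_iff.1 h
  refine mem_nhdsGT_iff_exists_Ioo_subset.2 ⟨δ, hδ, fun r hr => ?_⟩
  have h2 := h1 0 r (by simpa using hδ) hr.1 hr.2
  have e : cis 0 = 1 := by simp [cis]
  rwa [e, mul_one] at h2

/-- a property of the sector holds in the neighbouring sectors -/
theorem nap_semi {z m : ℂ} {p : ℂ → Prop} (h : ∀ᶠ x in nap z m, p x) :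
    ∀ᶠ s : ℝ in 𝓝 0, ∀ᶠ x in nap z (m * cis s), p x := by
  obtain ⟨δ, hδ, h1⟩ := nap_iff.1 h
  refine Metric.eventually_nhds_iff.2 ⟨δ / 2, by positivity, fun s hs => ?_⟩
  rw [Real.dist_eq, sub_zero] at hs
  refine nap_iff.2 ⟨δ / 2, by positivity, fun s' r hs' hr0 hr => ?_⟩
  have h2 := h1 (s + s') r (lt_of_le_of_lt (abs_add_le _ _) (by linarith)) hr0 (by linarith)
  have e : cis (s + s') = cis s * cis s' := by
    unfold cis
    rw [← Complex.exp_add]
    congr 1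
    push_cast
    ring
  rwa [e, ← mul_assoc m] at h2

theorem tau_ev (T : ℂ → Set (Fin k)) (z m : ℂ) : ∀ᶠ x in nap z m, T x ⊆ tau T z m := by
  have h1 : ∀ i, ∀ᶠ x in nap z m, i ∈ T x → i ∈ tau T z m := by
    intro i
    by_cases hi : i ∈ tau T z m
    · exact Eventually.of_forall fun _ _ => hi
    · have h2 : ∀ᶠ x in nap z m, i ∉ T x := by
        have : ¬ ∃ᶠ x in nap z m, i ∈ T x := hi
        rwa [Filter.not_frequently] at this
      filter_upwards [h2] with x hx hx'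
      exact absurd hx' hx
  filter_upwards [eventually_all.2 h1] with x hx i hi
  exact hx i hi

/-- `tau` is the least set -/
theorem tau_le {z m : ℂ} {A : Set (Fin k)} (h : ∀ᶠ x in nap z m, T x ⊆ A) : tau T z m ⊆ A := by
  intro i hi
  have h1 : ∃ᶠ x in nap z m, i ∈ T x := hi
  obtain ⟨x, hx, hx'⟩ := (h1.and_eventually h).exists
  exact hx' hx

theorem tau_le_iff {z m : ℂ} {A : Set (Fin k)} :
    tau T z m ⊆ A ↔ ∀ᶠ x in nap z m, T x ⊆ A :=
  ⟨fun h => (tau_ev T z m).mono fun _ hx => hx.trans h, tau_le⟩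

/-- **(T0)** -/
theorem Irr.tau_nonempty (h : Irr U T) (z m : ℂ) : (tau T z m).Nonempty := by
  obtain ⟨x, hx⟩ := (tau_ev T z m).exists
  exact (h.ne x).mono hx

theorem Irr.tau_sub (h : Irr U T) (z m : ℂ) : tau T z m ⊆ T z :=
  tau_le ((nap_le z m) (h.nhd z))

/-- the colours before and after an event occur at the event -/
theorem tau_semi (T : ℂ → Set (Fin k)) (z m : ℂ) :
    ∀ᶠ s : ℝ in 𝓝 0, tau T z (m * cis s) ⊆ tau T z m :=
  (nap_semi (tau_ev T z m)).mono fun _ hs => tau_le hs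

/-- the sweeping argument with a given radius -/
theorem Mx.avoid_unif (h : Mx U) {z : ℂ} {t0 η r : ℝ} (hη : 0 < η) {i : Fin k}
    (hJ : ∀ t : ℝ, |t - t0| < η → i ∈ Pal U (z + cis t)) {σ : ℝ} (hσ : σ = 1 ∨ σ = -1)
    (hr0 : 0 < r) (hr : r < 2 * Real.sin (min (η / 2) 1)) :
    i ∉ Pal U (z + r * (σ * (Complex.I * cis t0))) := by
  set s := min (η / 2) 1 with hs
  have hs0 : 0 < s := by positivity
  have hs1 : s ≤ 1 := min_le_right _ _
  have hsη : s < η := lt_of_le_of_lt (min_le_left _ _) (by linarith)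
  have key : ∀ t : ℝ, dist (z + cis t) (z + r * (σ * (Complex.I * cis t0))) ^ 2 =
      1 - 2 * r * σ * Real.sin (t - t0) + r ^ 2 := by
    intro t
    have hσ2 : σ ^ 2 = 1 := by rcases hσ with rfl | rfl <;> norm_num
    rw [sq_dist]
    simp only [Complex.add_re, Complex.add_im, Complex.mul_re, Complex.mul_im, Complex.ofReal_re,
      Complex.ofReal_im, Complex.I_re, Complex.I_im, cis_re, cis_im]
    rw [Real.sin_sub]
    have h1 := Real.sin_sq_add_cos_sq t
    have h2 := Real.sin_sq_add_cos_sq t0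
    linear_combination h1 + r ^ 2 * σ ^ 2 * h2 + r ^ 2 * hσ2
  have hd := dist_nonneg (x := z + cis (t0 + σ * s)) (y := z + r * (σ * (Complex.I * cis t0)))
  have hd' := dist_nonneg (x := z + cis t0) (y := z + r * (σ * (Complex.I * cis t0)))
  refine h.swept (z := z) (t1 := t0 + σ * s) (t2 := t0) ?_ ?_ ?_
  · intro t ht
    refine hJ t ?_
    rw [abs_lt]
    rcases hσ with rfl | rfl
    · rw [uIcc_of_ge (by linarith)] at ht
      exact ⟨by linarith [ht.1], by linarith [ht.2]⟩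
    · rw [uIcc_of_le (by linarith)] at ht
      exact ⟨by linarith [ht.1], by linarith [ht.2]⟩
  · have := key (t0 + σ * s)
    have h3 : σ * Real.sin (t0 + σ * s - t0) = Real.sin s := by
      rcases hσ with rfl | rfl
      · rw [show t0 + 1 * s - t0 = s by ring]; ring
      · rw [show t0 + -1 * s - t0 = -s by ring, Real.sin_neg]; ring
    have h4 : 2 * r * σ * Real.sin (t0 + σ * s - t0) = 2 * r * Real.sin s := by
      rw [mul_assoc (2 * r), h3]
    rw [h4] at this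
    nlinarith [hr0, hr]
  · have := key t0
    rw [sub_self, Real.sin_zero, mul_zero, sub_zero] at this
    nlinarith [hr0, mul_pos hr0 hr0]

/-- **(T1)** a colour of an arc of `S(z)` is absent in the sectors perpendicular to the arc -/
theorem Mx.nap_avoid (h : Mx U) {z : ℂ} {t0 η : ℝ} (hη : 0 < η) {i : Fin k}
    (hJ : ∀ t : ℝ, |t - t0| < η → i ∈ Pal U (z + cis t)) {σ : ℝ} (hσ : σ = 1 ∨ σ = -1) :
    ∀ᶠ x in nap z (σ * (Complex.I * cis t0)), i ∉ Pal U x := by
  have hsin : 0 < Real.sin (min (η / 4) 1) :=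
    Real.sin_pos_of_pos_of_lt_pi (by positivity)
      (lt_of_le_of_lt (min_le_right _ _) (by linarith [Real.pi_gt_three]))
  refine nap_iff.2 ⟨min (η / 2) (2 * Real.sin (min (η / 4) 1)), by positivity,
    fun s r hs hr0 hr => ?_⟩
  have hs' : |s| < η / 2 := lt_of_lt_of_le hs (min_le_left _ _)
  have h1 := h.avoid_unif (z := z) (t0 := t0 + s) (η := η / 2) (r := r) (by positivity)
    (i := i) (fun t ht => hJ t ?_) hσ hr0 ?_
  · have e : cis (t0 + s) = cis t0 * cis s := by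
      unfold cis
      rw [← Complex.exp_add]
      congr 1
      push_cast
      ring
    have e2 : (σ : ℂ) * (Complex.I * cis t0) * cis s = σ * (Complex.I * cis (t0 + s)) := by
      rw [e]; ring
    rw [e2]
    exact h1
  · have h2 : t - t0 = (t - (t0 + s)) + s := by ring
    rw [h2]
    exact lt_of_le_of_lt (abs_add_le _ _) (by linarith)
  · have h2 : η / 2 / 2 = η / 4 := by ring
    rw [h2]
    exact lt_of_lt_of_le hr (min_le_right _ _)

/-- a colour carried by `S(z)` near the point `g` -/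
def Car (U : Fin k → Set ℂ) (z g : ℂ) (i : Fin k) : Prop :=
  dist g z = 1 ∧ ∀ᶠ q in 𝓝[sphere z 1] g, i ∈ Pal U q

theorem Car.exists_eta {z : ℂ} {t0 : ℝ} {i : Fin k} (h : Car U z (z + cis t0) i) :
    ∃ η > 0, ∀ t : ℝ, |t - t0| < η → i ∈ Pal U (z + cis t) := by
  obtain ⟨v, hv, hvs⟩ := mem_nhdsWithin_iff_exists_mem_nhds_inter.1 h.2
  have hc2 : ContinuousAt (fun t => z + cis t) t0 :=
    (continuous_const.add continuous_cis).continuousAt
  obtain ⟨η, hη, hball⟩ := Metric.mem_nhds_iff.1 (hc2.preimage_mem_nhds hv)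
  exact ⟨η, hη, fun t ht => hvs ⟨hball (by rw [mem_ball, Real.dist_eq]; exact ht),
    dist_add_cis z t⟩⟩

theorem Arc.car (h : Irr U T) {z g : ℂ} {P : Set (Fin k)} (hg : Arc T z g P) {i : Fin k}
    (hi : i ∈ P) : Car U z g i :=
  ⟨hg.1, hg.2.mono fun q hq => h.sub q (by rw [hq]; exact hi)⟩

/-- **(T1)** in terms of the point -/
theorem Irr.tau_avoid (h : Irr U T) {z g m : ℂ} {i : Fin k} (hg : Car U z g i)
    (hm : m = Complex.I * (g - z) ∨ m = -(Complex.I * (g - z))) : i ∉ tau T z m := by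
  obtain ⟨t0, ht0⟩ := exists_cis (u := g - z) (by rw [← dist_eq_norm]; exact hg.1)
  have hgt : g = z + cis t0 := by rw [← ht0]; ring
  rw [hgt] at hg
  obtain ⟨η, hη, hJ⟩ := hg.exists_eta
  have key : ∀ σ : ℝ, (σ = 1 ∨ σ = -1) → m = σ * (Complex.I * cis t0) → i ∉ tau T z m := by
    intro σ hσ hm' hi
    have h1 := h.mx.nap_avoid hη hJ hσ
    rw [← hm'] at h1
    have h2 : ∃ᶠ x in nap z m, i ∈ T x := hi
    obtain ⟨x, hx, hx'⟩ := (h2.and_eventually h1).exists
    exact hx' (h.sub _ hx)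
  rcases hm with hm | hm
  · exact key 1 (Or.inl rfl) (by rw [hm, ht0]; push_cast; ring)
  · exact key (-1) (Or.inr rfl) (by rw [hm, ht0]; push_cast; ring)

/-- a colour carried by the antipode -/
theorem Irr.tau_avoid' (h : Irr U T) {z g m : ℂ} {i : Fin k} (hg : Car U z (2 * z - g) i)
    (hm : m = Complex.I * (g - z) ∨ m = -(Complex.I * (g - z))) : i ∉ tau T z m := by
  refine h.tau_avoid hg ?_
  rcases hm with hm | hm
  · exact Or.inr (by rw [hm]; ring)
  · exact Or.inl (by rw [hm]; ring)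

/-- the sectors are connected -/
theorem sector_preconn (z m : ℂ) (δ : ℝ) :
    IsPreconnected ((fun p : ℝ × ℝ => z + p.2 * (m * cis p.1)) '' (Ioo (-δ) δ ×ˢ Ioo 0 δ)) := by
  refine (isPreconnected_Ioo.prod isPreconnected_Ioo).image _ ?_
  have := continuous_cis
  exact Continuous.continuousOn (by fun_prop)

/-- two parts of the colours which do not meet in the sectors -/
theorem Irr.nap_split (h : Irr U T) {z m : ℂ} {A B : Set (Fin k)} (hAB : Disjoint A B)
    (h1 : ∀ᶠ x in nap z m, T x ⊆ A ∨ T x ⊆ B) : tau T z m ⊆ A ∨ tau T z m ⊆ B := by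
  obtain ⟨δ, hδ, hd⟩ := nap_iff.1 h1
  set S : Set ℂ := (fun p : ℝ × ℝ => z + p.2 * (m * cis p.1)) '' (Ioo (-δ) δ ×ˢ Ioo 0 δ) with hS
  have hmemS : ∀ s r : ℝ, |s| < δ → 0 < r → r < δ → z + r * (m * cis s) ∈ S := by
    intro s r hs hr0 hr
    exact ⟨(s, r), ⟨⟨by linarith [(abs_lt.1 hs).1], (abs_lt.1 hs).2⟩, hr0, hr⟩, rfl⟩
  have hSd : ∀ x ∈ S, T x ⊆ A ∨ T x ⊆ B := by
    rintro _ ⟨⟨s, r⟩, ⟨⟨h2, h3⟩, h4, h5⟩, rfl⟩
    exact hd s r (abs_lt.2 ⟨h2, h3⟩) h4 h5
  have hcl : ∀ C : Set (Fin k), IsClosed {x : ℂ | ∃ i ∈ C, i ∈ T x} := by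
    intro C
    have : {x : ℂ | ∃ i ∈ C, i ∈ T x} = ⋃ i ∈ C, {x | i ∈ T x} := by
      ext x; simp
    rw [this]
    exact (Set.toFinite C).isClosed_biUnion fun i _ => h.closed i
  have hcov : S ⊆ {x : ℂ | ∃ i ∈ A, i ∈ T x} ∪ {x : ℂ | ∃ i ∈ B, i ∈ T x} := by
    intro x hx
    obtain ⟨i, hi⟩ := h.ne x
    rcases hSd x hx with h2 | h2
    · exact Or.inl ⟨i, h2 hi, hi⟩
    · exact Or.inr ⟨i, h2 hi, hi⟩
  have hdis : ∀ x ∈ S, (∃ i ∈ A, i ∈ T x) → (∃ i ∈ B, i ∈ T x) → False := by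
    rintro x hx ⟨i, hiA, hi⟩ ⟨j, hjB, hj⟩
    rcases hSd x hx with h2 | h2
    · exact Set.disjoint_left.1 hAB (h2 hj) hjB
    · exact Set.disjoint_left.1 hAB hiA (h2 hi)
  by_cases hA : ∃ x ∈ S, ∃ i ∈ A, i ∈ T x
  · left
    have hno : ∀ x ∈ S, ¬ ∃ i ∈ B, i ∈ T x := by
      by_contra hcon
      push Not at hcon
      obtain ⟨y, hy, hyB⟩ := hcon
      obtain ⟨x, hx, hxA⟩ := hA
      obtain ⟨w, hw, hwA, hwB⟩ := isPreconnected_closed_iff.1 (sector_preconn z m δ) _ _ (hcl A)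
        (hcl B) hcov ⟨x, hx, hxA⟩ ⟨y, hy, hyB⟩
      exact hdis w hw hwA hwB
    refine tau_le (nap_iff.2 ⟨δ, hδ, fun s r hs hr0 hr => ?_⟩)
    rcases hSd _ (hmemS s r hs hr0 hr) with h2 | h2
    · exact h2
    · obtain ⟨i, hi⟩ := h.ne (z + r * (m * cis s))
      exact absurd ⟨i, h2 hi, hi⟩ (hno _ (hmemS s r hs hr0 hr))
  · right
    push Not at hA
    refine tau_le (nap_iff.2 ⟨δ, hδ, fun s r hs hr0 hr => ?_⟩)
    rcases hSd _ (hmemS s r hs hr0 hr) with h2 | h2
    · obtain ⟨i, hi⟩ := h.ne (z + r * (m * cis s))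
      exact absurd hi (hA _ (hmemS s r hs hr0 hr) i (h2 hi))
    · exact h2

/-- **(T2)** the colours of the sectors are connected in the graph of unbroken pairs -/
theorem Irr.tau_conn (h : Irr U T)
    (hmin : ∀ z, 4 ≤ (T z).ncard → ∀ s, s ⊆ T z → s ≠ T z →
      ¬ ∀ᶠ w in 𝓝 z, ∃ i ∈ s, w ∈ U i ∨ (w ∈ XX U ∧ i ∈ Pal U w)) {z m : ℂ}
    {A B : Set (Fin k)} (hAB : Disjoint A B) (hsub : tau T z m ⊆ A ∪ B) (hA2 : A.ncard ≤ 2)
    (hbr : ∀ a ∈ A, ∀ b ∈ B, ∃ q, dist q z = 1 ∧ T q = {a, b}) :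
    tau T z m ⊆ A ∨ tau T z m ⊆ B := by
  refine h.nap_split hAB ?_
  have h1 := h.split_gen hmin (z := z) (C := (A ∪ B)ᶜ) (A := A) (B := B)
    (by rw [Set.compl_union_self]; exact subset_univ _) hA2 hbr
  filter_upwards [(nap_le z m) h1, tau_le_iff.1 hsub] with x h2 h3
  exact h2 (Set.disjoint_left.2 fun i hi hi' => hi (h3 hi'))

end Vale.Agent.P032.Six
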